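import Vale.Agent.P200.Kos2

/-! Base change of Koszul ranks from a field to a division algebra. -/

namespace Vale.Agent.P200

open Module AddMonoidAlgebra

section
variable {K D V V' : Type*} [Field K] [DivisionRing D] [Algebra K D] [AddCommGroup V] [Module K V]
  [AddCommGroup V'] [Module D V']

lemma finrank_bc (ι : V →+ V') (h1 : ∀ (k : K) v, ι (k • v) = algebraMap K D k • ι v)
    (h2 : ∀ lam : D →ₗ[K] K, ∃ cm : V' →+ V, ∀ (a : D) v, cm (a • ι v) = lam a • v)
    (M : Submodule K V) [Module.Finite K M] :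
    finrank D (Submodule.span D (ι '' M)) = finrank K M := by
  let b := Module.finBasis K M
  have h3 : Submodule.span D (ι '' M) = Submodule.span D (Set.range fun i => ι (b i : V)) := by
    apply le_antisymm
    · refine Submodule.span_le.mpr ?_
      rintro _ ⟨g, hg, rfl⟩
      have := congrArg Subtype.val (b.sum_repr ⟨g, hg⟩)
      simp only [AddSubmonoidClass.coe_finsetSum, SetLike.val_smul] at this
      rw [← this, map_sum]
      refine Submodule.sum_mem _ fun i _ => ?_
      rw [h1]
      exact Submodule.smul_mem _ _ (Submodule.subset_span ⟨i, rfl⟩)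
    · refine Submodule.span_mono ?_
      rintro _ ⟨i, rfl⟩
      exact ⟨b i, (b i).2, rfl⟩
  have h4 : LinearIndependent D fun i => ι (b i : V) := by
    rw [Fintype.linearIndependent_iff]
    intro g hg i
    rw [← Module.forall_dual_apply_eq_zero_iff K]
    intro lam
    obtain ⟨cm, hcm⟩ := h2 lam
    have h5 := congrArg cm hg
    simp only [map_sum, hcm, map_zero] at h5
    refine Fintype.linearIndependent_iff.mp b.linearIndependent (fun i => lam (g i)) ?_ i
    apply Subtype.ext
    simpa using h5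
  rw [h3, finrank_span_eq_card h4, Fintype.card_fin]

end

section
variable {K D : Type*} [Field K] [DivisionRing D] [Algebra K D] {n : ℕ}

variable (D) in
noncomputable def bc (M : Submodule K (NP K (Fin n))) : Submodule D (NP D (Fin n)) :=
  Submodule.span D (io D '' (M : Set (NP K (Fin n))))

lemma io_one (m : Fin n →₀ ℕ) : io D (single m (1 : K)) = single m 1 := by
  rw [io_single, map_one]

lemma bc_MS (s : Set (Fin n →₀ ℕ)) : bc D (MS K s) = MS D s := by
  apply le_antisymm
  · refine Submodule.span_le.mpr ?_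
    rintro _ ⟨g, hg, rfl⟩
    refine mem_supported'.mpr fun m hm => ?_
    simp [io, mem_supported'.mp hg m hm]
  · rw [MS_eq_span]
    refine Submodule.span_mono ?_
    rintro _ ⟨m, hm, rfl⟩
    refine ⟨single m 1, ?_, io_one m⟩
    rw [MS_eq_span]
    exact Submodule.subset_span ⟨m, hm, rfl⟩

variable (D) in
noncomputable def ioC : CC K n →+ CC D n where
  toFun w ρ := io D (w ρ)
  map_zero' := by funext ρ; simp
  map_add' v w := by funext ρ; simp

lemma ioC_smul (k : K) (w : CC K n) : ioC D (k • w) = algebraMap K D k • ioC D w := by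
  funext ρ
  change io D (k • w ρ) = algebraMap K D k • io D (w ρ)
  rw [io_ksmul, algebraMap_smul]

lemma ioC_single (ρ : Finset (Fin n)) (z : NP K (Fin n)) :
    ioC D (Pi.single ρ z) = Pi.single ρ (io D z) := by
  funext ρ'
  change io D ((Pi.single ρ z : CC K n) ρ') = _
  by_cases h : ρ' = ρ
  · subst h
    simp
  · simp [h]

lemma ioC_dd (w : CC K n) : ioC D (dd (xv K) w) = dd (xv D) (ioC D w) := by
  funext ρ
  change io D (dd (xv K) w ρ) = _
  rw [dd_apply, dd_apply, map_sum]
  refine Finset.sum_congr rfl fun i _ => ?_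
  rw [map_zsmul, map_mul, xv, io_one]
  rfl

variable (D) in
noncomputable def bcC (M : Submodule K (CC K n)) : Submodule D (CC D n) :=
  Submodule.span D (ioC D '' (M : Set (CC K n)))

noncomputable def cmC (lam : D →ₗ[K] K) : CC D n →+ CC K n where
  toFun w ρ := cmap lam (w ρ)
  map_zero' := by funext ρ; simp
  map_add' v w := by funext ρ; simp

lemma finrank_bcC (M : Submodule K (CC K n)) [Module.Finite K M] :
    finrank D (bcC D M) = finrank K M := by
  refine finrank_bc (K := K) (D := D) (ioC D) ioC_smul (fun lam => ⟨cmC lam, fun a v => ?_⟩) M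
  funext ρ
  refine AddMonoidAlgebra.ext (Finsupp.ext fun m => ?_)
  change lam ((a • io D (v ρ)).coeff m) = (lam a • v ρ).coeff m
  simp only [coeff_smul, Finsupp.smul_apply, io, coeff_mapRingHom, smul_eq_mul]
  rw [← Algebra.commutes, ← Algebra.smul_def, map_smul, smul_eq_mul, mul_comm]

lemma bcC_Cs (p : ℕ) (M : Submodule K (NP K (Fin n))) : bcC D (Cs p M) = Cs p (bc D M) := by
  apply le_antisymm
  · refine Submodule.span_le.mpr ?_
    rintro _ ⟨w, hw, rfl⟩
    refine mem_Cs.mpr fun ρ => ⟨fun h => Submodule.subset_span ⟨_, (mem_Cs.mp hw ρ).1 h, rfl⟩,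
      fun h => ?_⟩
    change io D (w ρ) = 0
    rw [(mem_Cs.mp hw ρ).2 h, map_zero]
  · refine Cs_le fun ρ hρ z hz => ?_
    have : bc D M ≤ (bcC D (Cs p M)).comap
        (LinearMap.single D (fun _ : Finset (Fin n) => NP D (Fin n)) ρ) := by
      refine Submodule.span_le.mpr ?_
      rintro _ ⟨g, hg, rfl⟩
      exact Submodule.subset_span ⟨_, single_mem_Cs hρ hg, ioC_single ρ g⟩
    exact this hz

lemma bcC_WW (M : Submodule K (NP K (Fin n))) (p k : ℕ) :
    bcC D (WW (xv K) M p k) = WW (xv D) (bc D M) p k := by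
  have e1 : bc D (Hm K k : Submodule K (NP K (Fin n))) = Hm D k := bc_MS _
  apply le_antisymm
  · refine Submodule.span_le.mpr ?_
    rintro _ ⟨w, hw, rfl⟩
    obtain ⟨_, ⟨t, ht, rfl⟩, z, hz, rfl⟩ := Submodule.mem_sup.mp hw
    rw [map_add, ioC_dd]
    refine Submodule.add_mem_sup ⟨_, ?_, rfl⟩ ?_
    · rw [← e1, ← bcC_Cs]
      exact Submodule.subset_span ⟨t, ht, rfl⟩
    · rw [← bcC_Cs]
      exact Submodule.subset_span ⟨z, hz, rfl⟩
  · refine sup_le ?_ ?_
    · rw [Submodule.map_le_iff_le_comap, ← e1, ← bcC_Cs]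
      refine Submodule.span_le.mpr ?_
      rintro _ ⟨t, ht, rfl⟩
      exact Submodule.subset_span ⟨_, Submodule.mem_sup_left ⟨t, ht, rfl⟩, ioC_dd t⟩
    · rw [← bcC_Cs]
      exact Submodule.span_mono (Set.image_mono (le_sup_right : _ ≤ WW (xv K) M p k))

instance finWW (y : Fin n → NP D (Fin n)) (N : Submodule D (NP D (Fin n))) [Module.Finite D N]
    (p k : ℕ) : Module.Finite D (WW y N p k) := by
  rw [WW]
  infer_instance

lemma finrank_WW_bc (M : Submodule K (NP K (Fin n))) [Module.Finite K M] (p k : ℕ) :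
    finrank D (WW (xv D) (bc D M) p k) = finrank K (WW (xv K) M p k) := by
  rw [← bcC_WW, finrank_bcC]

lemma bc_mul0 {M : Submodule K (NP K (Fin n))} {z t : NP D (Fin n)} (hz : z ∈ bc D M)
    (ht : t ∈ Hm D 0) : z * t ∈ bc D M := by
  have : bc D M ≤ (bc D M).comap (rm D t) := by
    refine Submodule.span_le.mpr ?_
    rintro _ ⟨g, hg, rfl⟩
    have : Hm D 0 ≤ (bc D M).comap (lm D _ (io_smul g)) := by
      rw [Hm_eq_span]
      refine Submodule.span_le.mpr ?_
      rintro _ ⟨m, hm, rfl⟩
      have : m = 0 := (Finsupp.degree_eq_zero_iff m).mp hm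
      subst this
      exact Submodule.subset_span ⟨g, hg, (mul_one _).symm⟩
    exact this ht
  exact this hz

end
end Vale.Agent.P200
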