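import Vale.Agent.P200.NC

/-! A graded model of the generic Clifford relations, built from creation and annihilation
operators. -/

namespace Vale.Agent.P200

open AddMonoidAlgebra
open scoped TensorProduct

section CAR
variable {P : Type*} [Fintype P] [DecidableEq P]

structure CAR {R : Type*} [Ring R] (cr an : P → R) : Prop where
  cc : ∀ p q, cr p * cr q + cr q * cr p = 0
  c2 : ∀ p, cr p * cr p = 0
  aa : ∀ p q, an p * an q + an q * an p = 0
  a2 : ∀ p, an p * an p = 0
  ac : ∀ p q, an p * cr q + cr q * an p = if p = q then 1 else 0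

omit [Fintype P] in
lemma CAR.map {R R' : Type*} [Ring R] [Ring R'] {cr an : P → R} (h : CAR cr an) (φ : R →+* R') :
    CAR (fun p => φ (cr p)) (fun p => φ (an p)) where
  cc p q := by rw [← map_mul, ← map_mul, ← map_add, h.cc, map_zero]
  c2 p := by rw [← map_mul, h.c2, map_zero]
  aa p q := by rw [← map_mul, ← map_mul, ← map_add, h.aa, map_zero]
  a2 p := by rw [← map_mul, h.a2, map_zero]
  ac p q := by
    rw [← map_mul, ← map_mul, ← map_add, h.ac]
    split_ifs <;> simp

lemma CAR.cliff {Z R : Type*} [CommRing Z] [Ring R] [Algebra Z R] {cr an : P → R} (h : CAR cr an)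
    (t : Z) (L : P → P → Z) (E : P → R) (hE : ∀ p, E p = t • cr p + ∑ r, L p r • an r) :
    (∀ p, E p * E p = (t * L p p) • (1 : R)) ∧
      ∀ p q, E p * E q + E q * E p = (t * L p q) • (1 : R) + (t * L q p) • (1 : R) := by
  have h1 : ∀ p q, (∑ r, L p r • an r) * (t • cr q) + (t • cr q) * (∑ r, L p r • an r) =
      (t * L p q) • (1 : R) := by
    intro p q
    rw [Finset.sum_mul, Finset.mul_sum, ← Finset.sum_add_distrib]
    have : ∀ r, L p r • an r * t • cr q + t • cr q * L p r • an r =
        if r = q then (t * L p q) • (1 : R) else 0 := by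
      intro r
      rw [smul_mul_smul_comm, smul_mul_smul_comm, mul_comm (L p r), ← smul_add, h.ac]
      split_ifs with hr
      · rw [hr]
      · rw [smul_zero]
    simp only [this, Finset.sum_ite_eq', Finset.mem_univ, if_true]
  have h2 : ∀ p q, (∑ r, L p r • an r) * (∑ r, L q r • an r) +
      (∑ r, L q r • an r) * (∑ r, L p r • an r) = 0 := by
    intro p q
    rw [Finset.sum_mul_sum, Finset.sum_mul_sum, Finset.sum_comm (f := fun i j =>
      L q i • an i * L p j • an j), ← Finset.sum_add_distrib]
    refine Finset.sum_eq_zero fun r _ => ?_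
    rw [← Finset.sum_add_distrib]
    refine Finset.sum_eq_zero fun s _ => ?_
    rw [smul_mul_smul_comm, smul_mul_smul_comm, mul_comm (L q s), ← smul_add, h.aa, smul_zero]
  have h3 : ∀ p, (∑ r, L p r • an r) * (∑ r, L p r • an r) = 0 := by
    intro p
    rw [Finset.sum_mul_sum]
    apply sum_sum_antisymm
    · intro r
      rw [smul_mul_smul_comm, h.a2, smul_zero]
    · intro r s
      rw [smul_mul_smul_comm, smul_mul_smul_comm, mul_comm (L p s), ← smul_add, h.aa, smul_zero]
  have h4 : ∀ p q, (t • cr p) * (t • cr q) + (t • cr q) * (t • cr p) = 0 := by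
    intro p q
    rw [smul_mul_smul_comm, smul_mul_smul_comm, ← smul_add, h.cc, smul_zero]
  have h5 : ∀ p, (t • cr p) * (t • cr p) = 0 := by
    intro p
    rw [smul_mul_smul_comm, h.c2, smul_zero]
  refine ⟨fun p => ?_, fun p q => ?_⟩
  · rw [hE, add_mul, mul_add, mul_add, h3, h5, ← h1]
    abel
  · rw [hE p, hE q, ← h1, ← h1]
    have key : ∀ a b c d : R, b * d + d * b = 0 → a * c + c * a = 0 →
        (a + b) * (c + d) + (c + d) * (a + b) = (b * c + c * b) + (d * a + a * d) := by
      intro a b c d e1 e2
      have : (a + b) * (c + d) + (c + d) * (a + b) =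
          (b * c + c * b) + (d * a + a * d) + (b * d + d * b) + (a * c + c * a) := by noncomm_ring
      rw [this, e1, e2, add_zero, add_zero]
    exact key _ _ _ _ (h2 p q) (h4 p q)

omit [Fintype P] in
lemma exists_CAR (K : Type*) [Field K] :
    ∃ cr an : P → Module.End K (ExteriorAlgebra K (P → K)), CAR cr an := by
  refine ⟨fun p => LinearMap.mulLeft K (ExteriorAlgebra.ι K (Pi.single p 1)),
    fun p => CliffordAlgebra.contractLeft (Q := 0) (LinearMap.proj p), ?_, ?_, ?_, ?_, ?_⟩
  · intro p q
    refine LinearMap.ext fun x => ?_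
    simp only [LinearMap.add_apply, Module.End.mul_apply, LinearMap.mulLeft_apply,
      LinearMap.zero_apply]
    rw [← mul_assoc, ← mul_assoc, ← add_mul, ExteriorAlgebra.ι_add_mul_swap, zero_mul]
  · intro p
    refine LinearMap.ext fun x => ?_
    simp only [Module.End.mul_apply, LinearMap.mulLeft_apply, LinearMap.zero_apply]
    rw [← mul_assoc, ExteriorAlgebra.ι_sq_zero, zero_mul]
  · intro p q
    refine LinearMap.ext fun x => ?_
    simp only [LinearMap.add_apply, Module.End.mul_apply, LinearMap.zero_apply]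
    rw [CliffordAlgebra.contractLeft_comm, neg_add_cancel]
  · intro p
    refine LinearMap.ext fun x => ?_
    simp only [Module.End.mul_apply, LinearMap.zero_apply]
    exact CliffordAlgebra.contractLeft_contractLeft _ _
  · intro p q
    refine LinearMap.ext fun x => ?_
    simp only [LinearMap.add_apply, Module.End.mul_apply, LinearMap.mulLeft_apply]
    have := CliffordAlgebra.contractLeft_ι_mul (Q := (0 : QuadraticForm K (P → K)))
      (LinearMap.proj p) (Pi.single q 1) x
    erw [this]
    rw [sub_add_cancel]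
    split_ifs with h
    · simp [h]
    · simp [h]

end CAR

section Model
variable {K D Ω τ P : Type*} [Field K] [DivisionRing D] [Algebra K D] [Ring Ω] [Algebra K Ω]
  [Module D Ω] [IsScalarTower K D Ω] [IsScalarTower D Ω Ω] [Fintype P] [DecidableEq P]

variable (D) in
/-- graded Clifford data -/
structure GC (β : P → P → P → K) (E : P → NP Ω τ) (Cm : (P →₀ ℕ) → NP Ω τ) : Prop where
  E_mem : ∀ p, E p ∈ Hm D 1
  E_smul : ∀ p (d : D) x, E p * (d • x) = d • (E p * x)
  E_sq : ∀ p, E p * E p = ∑ q, β q p p • Cm (Finsupp.single q 1)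
  E_anti : ∀ p r, E p * E r + E r * E p =
    ∑ q, β q p r • Cm (Finsupp.single q 1) + ∑ q, β q r p • Cm (Finsupp.single q 1)
  E_ind : ∀ a : P → D, ∑ p, a p • E p = 0 → a = 0
  C_mem : ∀ μ, Cm μ ∈ Hm D (2 * μ.degree)
  C_comm : ∀ μ x, Cm μ * x = x * Cm μ
  C_add : ∀ μ ν, Cm (μ + ν) = Cm μ * Cm ν
  C_zero : Cm 0 = 1
  C_ind : ∀ a, a ≠ 0 → LinearIndependent D (fun μ => Cm μ * a)

noncomputable def emb (μ : P →₀ ℕ) : Option P →₀ ℕ :=
  Finsupp.single none μ.degree + μ.mapDomain some

omit [Fintype P] [DecidableEq P] in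
lemma emb_add (μ ν : P →₀ ℕ) : emb (μ + ν) = emb μ + emb ν := by
  simp only [emb, map_add, Finsupp.single_add, Finsupp.mapDomain_add]
  abel

omit [Fintype P] [DecidableEq P] in
lemma emb_inj : Function.Injective (emb : (P →₀ ℕ) → _) := by
  intro μ ν h
  ext p
  have := congrArg (fun f => f (some p)) h
  simpa [emb, Finsupp.mapDomain_apply (Option.some_injective P)] using this

noncomputable def zc (m : τ →₀ ℕ) (k : K) : Subring.center (NP Ω τ) :=
  ⟨single m (algebraMap K Ω k), Subring.mem_center_iff.mpr fun x =>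
    (single_commute (fun m' => add_comm m m') (fun r => Algebra.commutes k r) x).eq.symm⟩

theorem exists_GC [Nontrivial Ω] (β : P → P → P → K) {cr an : P → Ω} (h : CAR cr an)
    (hcr : ∀ p (d : D) x, cr p * (d • x) = d • (cr p * x))
    (han : ∀ p (d : D) x, an p * (d • x) = d • (an p * x)) :
    ∃ (E : P → NP Ω (Option P)) (Cm : (P →₀ ℕ) → NP Ω (Option P)), GC D β E Cm := by
  let t : Subring.center (NP Ω (Option P)) := zc (Finsupp.single none 1) (1 : K)
  let L : P → P → Subring.center (NP Ω (Option P)) := fun p r =>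
    ∑ q, zc (Finsupp.single (some q) 1) (β q p r)
  let E : P → NP Ω (Option P) := fun p => t • single 0 (cr p) + ∑ r, L p r • single 0 (an r)
  let Cm : (P →₀ ℕ) → NP Ω (Option P) := fun μ => single (emb μ) 1
  obtain ⟨h1, h2⟩ := (h.map (singleZeroRingHom (R := Ω) (M := Option P →₀ ℕ))).cliff t L E
    (fun p => rfl)
  have h3 : ∀ p r, (t * L p r) • (1 : NP Ω (Option P)) = ∑ q, β q p r • Cm (Finsupp.single q 1) := by
    intro p r
    change ((t * L p r : Subring.center (NP Ω (Option P))) : NP Ω (Option P)) * 1 = _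
    simp only [t, L, zc, Cm, mul_one, Subring.coe_mul, AddSubmonoidClass.coe_finsetSum,
      Finset.mul_sum, single_mul_single, smul_single, emb]
    simp [Algebra.smul_def]
  have hE : ∀ p, E p = single (Finsupp.single none 1) (cr p) +
      ∑ r, ∑ q, single (Finsupp.single (some q) 1) (β q p r • an r) := by
    intro p
    change (t : NP Ω (Option P)) * _ + ∑ r, (L p r : NP Ω (Option P)) * _ = _
    simp only [t, L, zc, AddSubmonoidClass.coe_finsetSum, Finset.sum_mul, single_mul_single]
    simp [Algebra.smul_def]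
  have hs : ∀ (m : Option P →₀ ℕ) (a : Ω), (∀ (d : D) x, a * (d • x) = d • (a * x)) →
      ∀ (d : D) (x : NP Ω (Option P)), single m a * (d • x) = d • (single m a * x) := by
    intro m a ha d x
    induction x using np_induction with
    | h0 => simp
    | hs m' r => simp [single_mul_single, ha]
    | ha x y hx hy => simp [mul_add, hx, hy]
  have hd1 : ∀ d : D, ∀ a : Ω, d • a = 0 → a ≠ 0 → d = 0 := by
    intro d a hd ha
    by_contra hne
    apply ha
    rw [← one_smul D a, ← inv_mul_cancel₀ hne, mul_smul, hd, smul_zero]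
  refine ⟨E, Cm, ?_, ?_, fun p => by rw [h1, h3], fun p r => by rw [h2, h3, h3], ?_, ?_, ?_, ?_,
    ?_, ?_⟩
  · intro p
    rw [hE]
    refine Submodule.add_mem _ ?_ (Submodule.sum_mem _ fun r _ => Submodule.sum_mem _ fun q _ => ?_)
    · simpa using single_mem (D := D) (Finsupp.single (none : Option P) 1) (cr p)
    · simpa using single_mem (D := D) (Finsupp.single (some q) 1) (β q p r • an r)
  · intro p d x
    rw [hE, add_mul, add_mul, smul_add, hs _ _ (hcr p)]
    congr 1
    simp only [Finset.sum_mul, Finset.smul_sum]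
    refine Finset.sum_congr rfl fun r _ => Finset.sum_congr rfl fun q _ => hs _ _ ?_ d x
    intro d x
    rw [smul_mul_assoc, han, smul_mul_assoc, smul_comm]
  · intro a ha
    have h4 := congrArg (fun x : NP Ω (Option P) => x.coeff (Finsupp.single none 1)) ha
    simp only [hE, coeff_sum, coeff_smul, coeff_add, coeff_single, Finsupp.finsetSum_apply,
      Finsupp.smul_apply, Finsupp.add_apply, Finsupp.single_eq_same, coeff_zero,
      Finsupp.zero_apply] at h4
    have h5 : ∀ (q : P) (y : Ω), (Finsupp.single (Finsupp.single (some q) 1) y :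
        (Option P →₀ ℕ) →₀ Ω) (Finsupp.single none 1) = 0 := by
      intro q y
      apply Finsupp.single_eq_of_ne
      intro hh
      simpa using congrArg (fun f => f none) hh
    simp only [h5, Finset.sum_const_zero, add_zero] at h4
    funext q
    have h6 : an q * (∑ p, a p • cr p) + (∑ p, a p • cr p) * an q = a q • (1 : Ω) := by
      rw [Finset.mul_sum, Finset.sum_mul, ← Finset.sum_add_distrib]
      simp only [han, smul_mul_assoc, ← smul_add, h.ac]
      simp
    rw [h4, mul_zero, zero_mul, add_zero] at h6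
    exact hd1 _ _ h6.symm one_ne_zero
  · intro μ
    have := single_mem (D := D) (emb μ) (1 : Ω)
    rwa [show (emb μ).degree = 2 * μ.degree by
      simp [emb, Finsupp.degree_mapDomain]; ring] at this
  · intro μ x
    exact (single_commute (fun m' => add_comm _ m') (fun r => Commute.one_left r) x).eq
  · intro μ ν
    simp only [Cm, single_mul_single, emb_add, mul_one]
  · simp [Cm, emb, one_def]
  · intro a ha
    rw [linearIndependent_iff']
    intro s g hg μ0 hμ0
    by_contra hne
    let b : NP Ω (Option P) := ∑ μ ∈ s, g μ • Cm μ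
    have hb : ∀ μ ∈ s, b.coeff (emb μ) = g μ • (1 : Ω) := by
      intro μ hμ
      simp only [b, Cm, coeff_sum, coeff_smul, coeff_single, Finsupp.finsetSum_apply,
        Finsupp.smul_apply, Finsupp.single_apply, emb_inj.eq_iff]
      simp [hμ]
    have hb2 : ∀ m ∈ b.coeff.support, ∃ μ ∈ s, m = emb μ := by
      intro m hm
      by_contra! hh
      rw [Finsupp.mem_support_iff] at hm
      apply hm
      simp only [b, Cm, coeff_sum, coeff_smul, coeff_single, Finsupp.finsetSum_apply,
        Finsupp.smul_apply]
      refine Finset.sum_eq_zero fun μ hμ => ?_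
      rw [Finsupp.single_eq_of_ne (hh μ hμ), smul_zero]
    have hba : b * a = 0 := by
      rw [← hg, Finset.sum_mul]
      simp only [smul_mul_assoc]
    obtain ⟨m, hm, n, hn, hu⟩ := UniqueSums.uniqueAdd_of_nonempty (A := b.coeff.support)
      (B := a.coeff.support)
      ⟨emb μ0, by
        rw [Finsupp.mem_support_iff, hb μ0 hμ0]
        exact fun hh => hne (hd1 _ _ hh one_ne_zero)⟩
      (Finsupp.support_nonempty_iff.mpr (by simpa using ha))
    have h4 := coeff_mul_add_of_uniqueAdd hu
    obtain ⟨μ, hμ, rfl⟩ := hb2 m hm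
    rw [Finsupp.mem_support_iff, hb μ hμ] at hm
    rw [hba, hb μ hμ, smul_mul_assoc, one_mul] at h4
    have h5 := hd1 _ _ h4.symm (Finsupp.mem_support_iff.mp hn)
    exact hm (by rw [h5, zero_smul])

end Model

theorem exists_model {K D P : Type*} [Field K] [DivisionRing D] [Algebra K D] [Fintype P]
    [DecidableEq P] (β : P → P → P → K) :
    ∃ (E : P → NP (D ⊗[K] Module.End K (ExteriorAlgebra K (P → K))) (Option P))
      (Cm : (P →₀ ℕ) → NP (D ⊗[K] Module.End K (ExteriorAlgebra K (P → K))) (Option P)),
      GC D β E Cm := by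
  obtain ⟨cr, an, h⟩ := exists_CAR (P := P) K
  have key : ∀ (a : Module.End K (ExteriorAlgebra K (P → K))) (d : D)
      (x : D ⊗[K] Module.End K (ExteriorAlgebra K (P → K))),
      ((1 : D) ⊗ₜ[K] a) * (d • x) = d • (((1 : D) ⊗ₜ[K] a) * x) := by
    intro a d x
    induction x using TensorProduct.induction_on with
    | zero => simp
    | tmul y z => simp [TensorProduct.smul_tmul']
    | add y z hy hz => simp [mul_add, hy, hz]
  exact exists_GC β (h.map (Algebra.TensorProduct.includeRight (R := K) (A := D)).toRingHom)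
    (fun p => key _) (fun p => key _)

end Vale.Agent.P200
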