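import Mathlib

/-! Growth of integer sequences with eventually nonpositive differences; a Hilbert basis theorem
for invariant subspaces. -/

namespace Vale.Agent.P200


lemma growth_aux (k : ℕ) : ∀ v : ℕ → ℤ, (∀ e, (fwdDiff 1)^[k + 1] v e ≤ 0) →
    ∃ A : ℕ, ∀ e : ℕ, v e ≤ A * ((e : ℤ) + 1) ^ k := by
  induction k with
  | zero =>
    intro v h
    refine ⟨(v 0).natAbs, fun e => ?_⟩
    have : v e ≤ v 0 := by
      induction e with
      | zero => exact le_rfl
      | succ e ih =>
        have := h e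
        simp only [zero_add, Function.iterate_one, fwdDiff] at this
        omega
    simp only [pow_zero, mul_one]
    omega
  | succ k ih =>
    intro v h
    obtain ⟨A, hA⟩ := ih (fwdDiff 1 v) (fun e => by
      have := h e
      rwa [Function.iterate_succ_apply] at this)
    refine ⟨(v 0).natAbs + A, fun e => ?_⟩
    have h1 : v e ≤ (v 0).natAbs + A * (e * ((e : ℤ) + 1) ^ k) := by
      induction e with
      | zero => simp only [Nat.cast_zero, zero_mul, mul_zero, add_zero]; omega
      | succ e ih2 =>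
        have h2 := hA e
        simp only [fwdDiff] at h2
        have h3 : ((e : ℤ) + 1) ^ k ≤ ((e : ℤ) + 1 + 1) ^ k :=
          pow_le_pow_left₀ (by positivity) (by linarith) k
        have h4 : (A : ℤ) * ((e + 1) * ((e : ℤ) + 1) ^ k) ≤ A * ((e + 1) * ((e : ℤ) + 1 + 1) ^ k) := by
          gcongr
        push_cast
        push_cast at ih2
        nlinarith
    have h5 : (1 : ℤ) ≤ ((e : ℤ) + 1) ^ (k + 1) := one_le_pow₀ (by omega)
    have h6 : (e : ℤ) * ((e : ℤ) + 1) ^ k ≤ ((e : ℤ) + 1) ^ (k + 1) := by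
      rw [pow_succ']
      gcongr
      linarith
    have h7 : (A : ℤ) * (e * ((e : ℤ) + 1) ^ k) ≤ A * ((e : ℤ) + 1) ^ (k + 1) := by gcongr
    have h8 : ((v 0).natAbs : ℤ) ≤ (v 0).natAbs * ((e : ℤ) + 1) ^ (k + 1) :=
      le_mul_of_one_le_right (by positivity) h5
    rw [Nat.cast_add, add_mul]
    linarith

lemma fwdDiff_iter_shift (k e0 : ℕ) (v : ℕ → ℤ) (e : ℕ) :
    (fwdDiff 1)^[k] (fun x => v (x + e0)) e = (fwdDiff 1)^[k] v (e + e0) := by
  simp only [fwdDiff_iter_eq_sum_shift]
  apply Finset.sum_congr rfl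
  intro i _
  congr 2
  ring

lemma growth (k e0 d0 : ℕ) (v : ℕ → ℤ) (h : ∀ e, e0 ≤ e → (fwdDiff 1)^[k] v e ≤ 0)
    (hl : ∀ m : ℕ, (((m + k).choose k : ℕ) : ℤ) ≤ v (d0 + 2 * m)) : False := by
  cases k with
  | zero =>
    have h1 := h (d0 + 2 * e0) (by omega)
    have h2 := hl e0
    simp at h1 h2
    omega
  | succ k =>
    obtain ⟨A, hA⟩ := growth_aux k (fun x => v (x + e0)) (fun e => by
      rw [fwdDiff_iter_shift]
      exact h _ (by omega))
    set m : ℕ := e0 + (k + 1).factorial * A * (d0 + 3) ^ k with hm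
    have h1 := hA (d0 + 2 * m - e0)
    have h2 := hl m
    have h3 : d0 + 2 * m - e0 + e0 = d0 + 2 * m := by omega
    simp only [h3] at h1
    have h4 : (m + (k + 1)).choose (k + 1) ≤ A * (d0 + 2 * m - e0 + 1) ^ k := by
      have := h2.trans h1
      exact_mod_cast this
    have h5 : (m + 1) ^ (k + 1) ≤ (k + 1).factorial * (m + (k + 1)).choose (k + 1) := by
      rw [← Nat.ascFactorial_eq_factorial_mul_choose]
      exact Nat.pow_succ_le_ascFactorial (m + 1) (k + 1)
    have h6 : (d0 + 2 * m - e0 + 1) ^ k ≤ ((d0 + 3) * (m + 1)) ^ k := by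
      apply Nat.pow_le_pow_left
      have : d0 + 2 * m + 1 ≤ (d0 + 3) * (m + 1) := by nlinarith
      omega
    have h7 : (m + 1) * (m + 1) ^ k ≤ ((k + 1).factorial * A * (d0 + 3) ^ k) * (m + 1) ^ k := by
      calc (m + 1) * (m + 1) ^ k = (m + 1) ^ (k + 1) := by ring
        _ ≤ (k + 1).factorial * (A * ((d0 + 3) * (m + 1)) ^ k) := by
          refine h5.trans (Nat.mul_le_mul_left _ (h4.trans (Nat.mul_le_mul_left _ h6)))
        _ = _ := by rw [mul_pow]; ring
    have h8 := Nat.le_of_mul_le_mul_right h7 (by positivity)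
    omega

/-- the dichotomy -/
lemma growth_contra (k e0 d0 : ℕ) (w : ℕ → ℤ) (h : ∀ e, e0 ≤ e → (fwdDiff 1)^[k + 1] w e = 0)
    (h1 : ∀ m : ℕ, (((m + k).choose k : ℕ) : ℤ) ≤ w (d0 + 2 * m))
    (h2 : ∀ m : ℕ, (((m + k).choose k : ℕ) : ℤ) ≤ ((2 * m + k).choose k : ℕ) - w (2 * m)) :
    False := by
  have hc : ∀ e, e0 ≤ e → (fwdDiff 1)^[k] w e = (fwdDiff 1)^[k] w e0 := by
    intro e he
    induction e, he using Nat.le_induction with
    | base => rfl
    | succ e he ih =>
      have := h e he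
      rw [Function.iterate_succ_apply'] at this
      simp only [fwdDiff] at this
      omega
  by_cases hk : (fwdDiff 1)^[k] w e0 ≤ 0
  · exact growth k e0 d0 w (fun e he => by rw [hc e he]; exact hk) h1
  · refine growth k e0 0 ((fun x => (((x + k).choose k : ℕ) : ℤ)) + (-1 : ℤ) • w) (fun e he => ?_)
      (fun m => ?_)
    · rw [fwdDiff_iter_add, fwdDiff_iter_const_smul]
      have h3 := fwdDiff_iter_shift k k (fun x => ((x.choose k : ℕ) : ℤ)) e
      have h4 := fwdDiff_iter_choose 0 k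
      rw [add_zero] at h4
      rw [h4] at h3
      simp only [Pi.add_apply, Pi.smul_apply, h3, hc e he]
      simp only [Nat.choose_zero_right, Nat.cast_one, smul_eq_mul]
      omega
    · have := h2 m
      simp only [Pi.add_apply, Pi.smul_apply, smul_eq_mul, zero_add]
      omega

end Vale.Agent.P200
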