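import Mathlib

/-! A Hilbert basis theorem for subspaces invariant under commuting operators. -/

namespace Vale.Agent.P200

section HBT
variable {D V : Type*} [Ring D] [AddCommGroup V] [Module D V]

def InvT (T : Set (Module.End D V)) (N : Submodule D V) : Prop := ∀ t ∈ T, ∀ v ∈ N, t v ∈ N

def Noeth (T : Set (Module.End D V)) (V0 : Submodule D V) : Prop :=
  ∀ N : ℕ → Submodule D V, Monotone N → (∀ i, N i ≤ V0) → (∀ i, InvT T (N i)) →
    ∃ n, ∀ m, n ≤ m → N m = N n

noncomputable def Fl (c : Module.End D V) (V0 : Submodule D V) : ℕ → Submodule D V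
  | 0 => ⊥
  | k + 1 => Fl c V0 k ⊔ V0.map (c ^ k)

lemma Fl_mono (c : Module.End D V) (V0 : Submodule D V) : Monotone (Fl c V0) :=
  monotone_nat_of_le_succ fun _ => le_sup_left

lemma Fl_c (c : Module.End D V) (V0 : Submodule D V) (k : ℕ) :
    ∀ v ∈ Fl c V0 k, c v ∈ Fl c V0 (k + 1) := by
  induction k with
  | zero =>
    intro v hv
    simp only [Fl, Submodule.mem_bot] at hv
    simp [hv]
  | succ k ih =>
    intro v hv
    obtain ⟨u, hu, _, ⟨w, hw, rfl⟩, rfl⟩ := Submodule.mem_sup.mp hv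
    rw [map_add]
    refine Submodule.add_mem _ (Submodule.mem_sup_left (ih u hu)) (Submodule.mem_sup_right ?_)
    exact ⟨w, hw, by rw [pow_succ']; rfl⟩

lemma Fl_inv {T : Set (Module.End D V)} {c : Module.End D V} {V0 : Submodule D V}
    (hc : ∀ t ∈ T, Commute t c) (h0 : InvT T V0) (k : ℕ) : InvT T (Fl c V0 k) := by
  induction k with
  | zero =>
    intro t _ v hv
    simp only [Fl, Submodule.mem_bot] at hv
    simp [hv]
  | succ k ih =>
    intro t ht v hv
    obtain ⟨u, hu, _, ⟨w, hw, rfl⟩, rfl⟩ := Submodule.mem_sup.mp hv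
    rw [map_add]
    refine Submodule.add_mem _ (Submodule.mem_sup_left (ih t ht u hu)) (Submodule.mem_sup_right ?_)
    refine ⟨t w, h0 t ht w hw, ?_⟩
    have := congrArg (fun g : Module.End D V => g w) ((hc t ht).pow_right k).eq
    exact this.symm

lemma noeth_step {T : Set (Module.End D V)} {c : Module.End D V} {V0 : Submodule D V}
    (hc : ∀ t ∈ T, Commute t c) (h0 : InvT T V0) (hN : Noeth T V0) :
    ∃ V1, V0 ≤ V1 ∧ InvT (insert c T) V1 ∧ Noeth (insert c T) V1 := by
  have hmem : ∀ v, v ∈ ⨆ k, Fl c V0 k ↔ ∃ k, v ∈ Fl c V0 k := fun v =>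
    Submodule.mem_iSup_of_directed _ (Fl_mono c V0).directed_le
  refine ⟨⨆ k, Fl c V0 k, ?_, ?_, ?_⟩
  · intro v hv
    exact (hmem v).mpr ⟨1, Submodule.mem_sup_right ⟨v, hv, by simp⟩⟩
  · rintro t (rfl | ht) v hv
    · obtain ⟨k, hk⟩ := (hmem v).mp hv
      exact (hmem _).mpr ⟨k + 1, Fl_c _ _ k v hk⟩
    · obtain ⟨k, hk⟩ := (hmem v).mp hv
      exact (hmem _).mpr ⟨k, Fl_inv hc h0 k t ht v hk⟩
  intro N hmono hle hinv
  let L : ℕ → ℕ → Submodule D V := fun i k => V0 ⊓ (N i ⊔ Fl c V0 k).comap (c ^ k)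
  have hL1 : ∀ i k, L i k ≤ V0 := fun _ _ => inf_le_left
  have hL2 : ∀ i k, InvT T (L i k) := by
    rintro i k t ht v ⟨hv1, hv2⟩
    refine ⟨h0 t ht v hv1, ?_⟩
    have h1 := congrArg (fun g : Module.End D V => g v) ((hc t ht).pow_right k).eq
    change t ((c ^ k) v) = (c ^ k) (t v) at h1
    change (c ^ k) (t v) ∈ N i ⊔ Fl c V0 k
    rw [← h1]
    obtain ⟨a, ha, b, hb, hab⟩ := Submodule.mem_sup.mp hv2
    rw [← hab, map_add]
    exact Submodule.add_mem_sup (hinv i t (Or.inr ht) a ha) (Fl_inv hc h0 k t ht b hb)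
  have hL3 : ∀ k, Monotone fun i => L i k := fun k i j hij =>
    inf_le_inf_left _ (Submodule.comap_mono (sup_le_sup_right (hmono hij) _))
  have hL4 : ∀ i, Monotone (L i) := by
    intro i
    apply monotone_nat_of_le_succ
    rintro k v ⟨hv1, hv2⟩
    refine ⟨hv1, ?_⟩
    change (c ^ (k + 1)) v ∈ N i ⊔ Fl c V0 (k + 1)
    obtain ⟨a, ha, b, hb, hab⟩ := Submodule.mem_sup.mp hv2
    rw [pow_succ', Module.End.mul_apply, ← hab, map_add]
    exact Submodule.add_mem_sup (hinv i c (Or.inl rfl) a ha) (Fl_c _ _ k b hb)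
  have hL5 : ∀ {i j k l}, i ≤ j → k ≤ l → L i k ≤ L j l := fun hij hkl =>
    (hL3 _ hij).trans (hL4 _ hkl)
  obtain ⟨i0, hi0⟩ := hN (fun i => L i i) (fun i j hij => hL5 hij hij) (fun i => hL1 i i)
    (fun i => hL2 i i)
  choose nk hnk using fun k => hN (fun i => L i k) (hL3 k) (fun i => hL1 i k) (fun i => hL2 i k)
  refine ⟨max i0 ((Finset.range i0).sup nk), fun m hm => ?_⟩
  set n := max i0 ((Finset.range i0).sup nk) with hn
  have hLL : ∀ k, L m k ≤ L n k := by
    intro k
    by_cases hk : k < i0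
    · have h1 : nk k ≤ n := (Finset.le_sup (Finset.mem_range.mpr hk)).trans (le_max_right _ _)
      exact ((hnk k m (h1.trans hm)).trans (hnk k n h1).symm).le
    · have h1 : i0 ≤ n := le_max_left _ _
      calc L m k ≤ L (max m k) (max m k) := hL5 (le_max_left _ _) (le_max_right _ _)
        _ = L i0 i0 := hi0 _ (by omega)
        _ ≤ L n k := hL5 h1 (by omega)
  have key : ∀ k, ∀ v ∈ N m, v ∈ Fl c V0 k → v ∈ N n := by
    intro k
    induction k with
    | zero =>
      intro v _ hv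
      simp only [Fl, Submodule.mem_bot] at hv
      simp [hv]
    | succ k ih =>
      intro v hv hv2
      obtain ⟨u, hu, _, ⟨w, hw, rfl⟩, huw⟩ := Submodule.mem_sup.mp hv2
      have h1 : w ∈ L m k := by
        refine ⟨hw, ?_⟩
        change (c ^ k) w ∈ N m ⊔ Fl c V0 k
        have : (c ^ k) w = v + -u := by rw [← huw]; abel
        rw [this]
        exact Submodule.add_mem_sup hv (Submodule.neg_mem _ hu)
      obtain ⟨a, ha, b, hb, hab⟩ := Submodule.mem_sup.mp (hLL k h1).2
      have h2 : v - a ∈ N n := by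
        apply ih _ (Submodule.sub_mem _ hv (hmono hm ha))
        have : v - a = u + b := by rw [← huw, ← hab]; abel
        rw [this]
        exact Submodule.add_mem _ hu hb
      simpa using Submodule.add_mem _ h2 ha
  refine le_antisymm (fun v hv => ?_) (hmono hm)
  obtain ⟨k, hk⟩ := (hmem v).mp (hle m hv)
  exact key k v hv hk

theorem hbt {P : Type*} [Fintype P] (c : P → Module.End D V) (hc : ∀ p q, Commute (c p) (c q))
    (G : Submodule D V) [IsNoetherian D G] :
    ∃ V1, G ≤ V1 ∧ InvT (Set.range c) V1 ∧ Noeth (Set.range c) V1 := by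
  classical
  have : ∀ s : Finset P, ∃ V1, G ≤ V1 ∧ InvT (c '' s) V1 ∧ Noeth (c '' s) V1 := by
    intro s
    induction s using Finset.induction_on with
    | empty =>
      refine ⟨G, le_rfl, by simp [InvT], fun N hm hle _ => ?_⟩
      obtain ⟨n, hn⟩ := monotone_stabilizes_iff_noetherian.mpr (inferInstance : IsNoetherian D G)
        ⟨fun i => (N i).comap G.subtype, fun i j hij => Submodule.comap_mono (hm hij)⟩
      refine ⟨n, fun m hnm => ?_⟩
      have : ((N n).comap G.subtype).map G.subtype = ((N m).comap G.subtype).map G.subtype :=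
        congrArg (Submodule.map G.subtype) (hn m hnm)
      simp only [Submodule.map_comap_subtype, inf_eq_right.mpr (hle _)] at this
      exact this.symm
    | insert q s _ ih =>
      obtain ⟨V0, h1, h2, h3⟩ := ih
      obtain ⟨V1, h4, h5⟩ := noeth_step (c := c q) (by rintro _ ⟨p, _, rfl⟩; exact hc p q) h2 h3
      refine ⟨V1, h1.trans h4, ?_⟩
      rw [Finset.coe_insert, Set.image_insert_eq]
      exact h5
  simpa using this Finset.univ

end HBT
end Vale.Agent.P200
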