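import Vale.Agent.P200.Hilb
import Vale.Agent.P200.HBT

/-! The linear complex attached to a graded Clifford module. -/

namespace Vale.Agent.P200

open MvPolynomial Module

section
variable {K σ D A P : Type*} [Field K] [DivisionRing D] [Algebra K D] [AddCommGroup A]
  [Module D A] [Module K A] [IsScalarTower K D A] [Fintype P]

abbrev VV (K σ A : Type*) [Field K] [AddCommGroup A] [Module K A] := MvPolynomial σ K →ₗ[K] A

noncomputable def post (t : Module.End D A) : Module.End D (VV K σ A) where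
  toFun φ := (t.restrictScalars K) ∘ₗ φ
  map_add' φ ψ := LinearMap.ext fun g => by simp
  map_smul' d φ := LinearMap.ext fun g => by simp

@[simp] lemma post_apply (t : Module.End D A) (φ : VV K σ A) (g : MvPolynomial σ K) :
    post t φ g = t (φ g) := rfl

variable (D) in
noncomputable def pre (r : MvPolynomial σ K →ₗ[K] MvPolynomial σ K) :
    Module.End D (VV K σ A) where
  toFun φ := φ ∘ₗ r
  map_add' φ ψ := LinearMap.ext fun g => by simp
  map_smul' d φ := LinearMap.ext fun g => by simp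

@[simp] lemma pre_apply (r : MvPolynomial σ K →ₗ[K] MvPolynomial σ K) (φ : VV K σ A)
    (g : MvPolynomial σ K) : pre D r φ g = φ (r g) := rfl

noncomputable def dK (E : P → Module.End D A) (x : P → MvPolynomial σ K) :
    Module.End D (VV K σ A) :=
  ∑ p, post (E p) * pre D (LinearMap.mulLeft K (x p))

lemma dK_apply (E : P → Module.End D A) (x : P → MvPolynomial σ K) (φ : VV K σ A)
    (g : MvPolynomial σ K) : dK E x φ g = ∑ p, E p (φ (x p * g)) := by
  simp [dK, LinearMap.sum_apply]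

noncomputable def TW (J : Ideal (MvPolynomial σ K)) (W : Submodule D A) :
    Submodule D (VV K σ A) where
  carrier := {φ | (∀ g ∈ J, φ g = 0) ∧ ∀ g, φ g ∈ W}
  add_mem' := by
    rintro φ ψ ⟨h1, h2⟩ ⟨h3, h4⟩
    exact ⟨fun g hg => by simp [h1 g hg, h3 g hg], fun g => W.add_mem (h2 g) (h4 g)⟩
  zero_mem' := ⟨fun _ _ => rfl, fun _ => W.zero_mem⟩
  smul_mem' := by
    rintro d φ ⟨h1, h2⟩
    exact ⟨fun g hg => by simp [h1 g hg], fun g => W.smul_mem d (h2 g)⟩

lemma dK_mem_TW {E : P → Module.End D A} (x : P → MvPolynomial σ K)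
    {J : Ideal (MvPolynomial σ K)} {W : Submodule D A} (hE : ∀ p, ∀ a ∈ W, E p a ∈ W)
    {φ : VV K σ A} (h : φ ∈ TW J W) : dK E x φ ∈ TW J W := by
  refine ⟨fun g hg => ?_, fun g => ?_⟩
  · rw [dK_apply]
    exact Finset.sum_eq_zero fun p _ => by rw [h.1 _ (J.mul_mem_left _ hg), map_zero]
  · rw [dK_apply]
    exact W.sum_mem fun p _ => hE p _ (h.2 _)

lemma kills {E : P → Module.End D A} {x : P → MvPolynomial σ K} {c : Module.End D A}
    {J' : Ideal (MvPolynomial σ K)} {f : MvPolynomial σ K} {W : Submodule D A}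
    (hE : ∀ p, ∀ a ∈ W, E p a ∈ W) (hn : Nzd J' f)
    (hdd : ∀ φ : VV K σ A, (∀ g ∈ J', φ g = 0) → ∀ g, dK E x (dK E x φ) g = c (φ (f * g)))
    {z : VV K σ A} (hz : z ∈ TW (J' ⊔ Ideal.span {f}) W) (hdz : dK E x z = 0) :
    ∃ y ∈ TW (J' ⊔ Ideal.span {f}) W, dK E x y = post c z := by
  let m := (J'.restrictScalars K).mapQ (J'.restrictScalars K) (LinearMap.mulLeft K f)
    (fun g hg => J'.mul_mem_left f hg)
  have hm : LinearMap.ker m = ⊥ := by
    rw [LinearMap.ker_eq_bot']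
    intro v hv
    obtain ⟨g, rfl⟩ := Submodule.Quotient.mk_surjective _ v
    rw [Submodule.Quotient.mk_eq_zero]
    exact hn g ((Submodule.Quotient.mk_eq_zero (J'.restrictScalars K)).mp hv)
  obtain ⟨r, hr⟩ := m.exists_leftInverse_of_injective hm
  let zb := (J'.restrictScalars K).liftQ z (fun g hg => hz.1 g (Ideal.mem_sup_left hg))
  let z' : VV K σ A := zb ∘ₗ r ∘ₗ (J'.restrictScalars K).mkQ
  have h1 : ∀ g, z' (f * g) = z g := by
    intro g
    have := congrArg (fun h => zb (h (Submodule.Quotient.mk g))) hr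
    exact this
  have h2 : z' ∈ TW J' W := by
    refine ⟨fun g hg => ?_, fun g => ?_⟩
    · have : (J'.restrictScalars K).mkQ g = 0 := (Submodule.Quotient.mk_eq_zero _).mpr hg
      simp only [z', LinearMap.comp_apply, this, map_zero]
    · obtain ⟨g', hg'⟩ := Submodule.Quotient.mk_surjective _ (r ((J'.restrictScalars K).mkQ g))
      simp only [z', LinearMap.comp_apply]
      rw [← hg']
      exact hz.2 g'
  have h3 := dK_mem_TW x hE h2
  refine ⟨dK E x z', ⟨fun g hg => ?_, h3.2⟩, ?_⟩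
  · obtain ⟨j, hj, s, rfl⟩ := mem_sup_span.mp hg
    rw [map_add, h3.1 j hj, zero_add, dK_apply]
    have := congrArg (fun h : VV K σ A => h s) hdz
    simp only [dK_apply, LinearMap.zero_apply] at this
    rw [← this]
    refine Finset.sum_congr rfl fun p _ => ?_
    rw [← h1, mul_left_comm]
  · refine LinearMap.ext fun g => ?_
    rw [hdd z' h2.1, h1, post_apply]

variable (D) in
noncomputable def sr (μ : σ →₀ ℕ) : A →ₗ[D] VV K σ A where
  toFun a := (lcoeff K μ).smulRight a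
  map_add' a b := LinearMap.ext fun g => by simp
  map_smul' d a := by
    refine LinearMap.ext fun g => ?_
    simp [smul_comm d]

lemma TW_le [Finite σ] {c : P → Module.End D A} {J : Ideal (MvPolynomial σ K)} {W : Submodule D A}
    {N : ℕ} (hN : ∀ j, N < j → ∀ g ∈ Hm K j, g ∈ J) {G : Set A} (hG : G.Finite)
    (hW : ∀ M : Submodule D A, G ⊆ M → InvT (Set.range c) M → W ≤ M)
    (hc : ∀ p q, Commute (c p) (c q)) :
    ∃ V1 : Submodule D (VV K σ A), TW J W ≤ V1 ∧ Noeth (Set.range fun q => post (c q)) V1 := by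
  classical
  let B := (Finsupp.finite_of_degree_le (σ := σ) N).toFinset
  let G' : Set (VV K σ A) := Set.image2 (fun μ a => sr D μ a) B G
  have hG' : G'.Finite := Set.Finite.image2 _ B.finite_toSet hG
  have : Module.Finite D (Submodule.span D G') := Module.Finite.span_of_finite D hG'
  obtain ⟨V1, h1, h2, h3⟩ := hbt (fun q => post (K := K) (σ := σ) (c q)) (fun p q => by
    refine LinearMap.ext fun φ => LinearMap.ext fun g => ?_
    exact congrArg (fun t : Module.End D A => t (φ g)) (hc p q).eq) (Submodule.span D G')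
  refine ⟨V1, fun φ hφ => ?_, h3⟩
  have h4 : φ = ∑ μ ∈ B, sr D μ (φ (monomial μ 1)) := by
    apply (basisMonomials σ K).ext
    intro ν
    rw [coe_basisMonomials, LinearMap.sum_apply]
    simp only [sr, LinearMap.coe_mk, AddHom.coe_mk, LinearMap.smulRight_apply, lcoeff_apply,
      coeff_monomial, ite_smul, one_smul, zero_smul, Finset.sum_ite_eq]
    split_ifs with h
    · rfl
    · apply hφ.1
      apply hN ν.degree (by simpa [B] using h)
      exact single_mem ν 1
  rw [h4]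
  refine V1.sum_mem fun μ hμ => ?_
  refine hW (V1.comap (sr D μ)) (fun a ha => h1 (Submodule.subset_span ⟨μ, hμ, a, ha, rfl⟩)) ?_
    (hφ.2 _)
  rintro _ ⟨q, rfl⟩ a ha
  have : sr D μ (c q a) = post (c q) (sr (K := K) D μ a) := by
    refine LinearMap.ext fun g => ?_
    simp [sr]
  rw [Submodule.mem_comap, this]
  exact h2 _ ⟨q, rfl⟩ _ ha

noncomputable def Tb (J : Ideal (MvPolynomial σ K)) (We : Submodule D A) (j : ℕ) :
    Submodule D (VV K σ A) :=
  TW J We ⊓ LinearMap.eqLocus (pre D (pr K j)) LinearMap.id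

lemma mem_Tb {J : Ideal (MvPolynomial σ K)} {We : Submodule D A} {j : ℕ} {φ : VV K σ A} :
    φ ∈ Tb J We j ↔ φ ∈ TW J We ∧ ∀ g, φ (pr K j g) = φ g := by
  simp only [Tb, Submodule.mem_inf, LinearMap.mem_eqLocus, LinearMap.id_apply]
  exact and_congr_right fun _ => ⟨fun h g => LinearMap.congr_fun h g, fun h => LinearMap.ext h⟩

lemma finrank_Tb [Finite σ] {J : Ideal (MvPolynomial σ K)} (hJ : Homog J) (We : Submodule D A)
    [Module.Finite D We] (j : ℕ) :
    Module.Finite D (Tb J We j) ∧ (finrank D (Tb J We j) : ℤ) = hf J j * finrank D We := by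
  let H : Submodule K (MvPolynomial σ K) := Hm K j
  let J' : Submodule K H := (J.restrictScalars K).comap H.subtype
  let ρ : MvPolynomial σ K →ₗ[K] H := (pr K j).codRestrict H (pr_mem j)
  let Ψ : ((H ⧸ J') →ₗ[K] We) →ₗ[D] VV K σ A :=
    { toFun := fun ψ => (We.subtype.restrictScalars K) ∘ₗ ψ ∘ₗ J'.mkQ ∘ₗ ρ
      map_add' := fun φ ψ => LinearMap.ext fun g => by simp
      map_smul' := fun d ψ => LinearMap.ext fun g => by simp }
  have hΨ : ∀ ψ g, Ψ ψ g = (ψ (J'.mkQ (ρ g)) : A) := fun _ _ => rfl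
  have hρ : ∀ h : H, ρ h = h := fun h => Subtype.ext (pr_self h.2)
  have hinj : Function.Injective Ψ := by
    rw [← LinearMap.ker_eq_bot, LinearMap.ker_eq_bot']
    intro ψ hψ
    refine LinearMap.ext fun v => ?_
    obtain ⟨h, rfl⟩ := J'.mkQ_surjective v
    have := hΨ ψ h
    rw [hψ, hρ] at this
    exact Subtype.ext this.symm
  have hrange : LinearMap.range Ψ = Tb J We j := by
    apply le_antisymm
    · rintro _ ⟨ψ, rfl⟩
      refine mem_Tb.mpr ⟨⟨fun g hg => ?_, fun g => (ψ _).2⟩, fun g => ?_⟩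
      · have : J'.mkQ (ρ g) = 0 := (Submodule.Quotient.mk_eq_zero _).mpr (hJ g hg j)
        rw [hΨ, this, map_zero, Submodule.coe_zero]
      · have : ρ (pr K j g) = ρ g := hρ (ρ g)
        rw [hΨ, hΨ, this]
    · intro φ hφ
      obtain ⟨⟨h1, h2⟩, h3⟩ := mem_Tb.mp hφ
      let φ' : H →ₗ[K] We :=
        { toFun := fun h => ⟨φ h, h2 h⟩
          map_add' := fun a b => Subtype.ext (by simp)
          map_smul' := fun k a => Subtype.ext (by simp) }
      refine ⟨J'.liftQ φ' (fun h hh => Subtype.ext (h1 _ hh)), LinearMap.ext fun g => ?_⟩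
      rw [hΨ]
      exact h3 g
  rw [← hrange]
  refine ⟨inferInstance, ?_⟩
  rw [LinearMap.finrank_range_of_inj hinj, Module.finrank_linearMap, Nat.cast_mul]
  congr 1
  have e1 := J'.finrank_quotient_add_finrank
  have e2 : finrank K J' = finrank K (pc J j) := by
    have : J' = (pc J j).comap H.subtype := by
      ext h
      simp [J', pc, H]
    rw [this]
    exact (Submodule.comapSubtypeEquivOfLe (inf_le_right : pc J j ≤ H)).finrank_eq
  have e3 : hf J j = (finrank K H : ℤ) - finrank K (pc J j) := rfl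
  omega

theorem koszul [Finite σ] [Nonempty P] {E c : P → Module.End D A} {x f : P → MvPolynomial σ K}
    {π : ℕ → Module.End D A} {H : ℕ → Submodule D A} {W : Submodule D A}
    {J : Ideal (MvPolynomial σ K)} {Jq : P → Ideal (MvPolynomial σ K)} {N : ℕ} {G : Set A}
    (hx : ∀ p, x p ∈ Hm K 1) (hJ : Homog J) (hJq : ∀ q, J = Jq q ⊔ Ideal.span {f q})
    (hn : ∀ q, Nzd (Jq q) (f q)) (hhf : ∀ j, hf J j = N.choose j)
    (hdd : ∀ q, ∀ φ : VV K σ A, (∀ g ∈ Jq q, φ g = 0) →
      ∀ g, dK E x (dK E x φ) g = c q (φ (f q * g)))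
    (hH : ∀ e a, a ∈ H e ↔ π e a = a) (hπ : ∀ e e' a, a ∈ H e' → e ≠ e' → π e a = 0)
    (hππ : ∀ e a, π e a ∈ H e)
    (hπE : ∀ e p a, π (e + 1) (E p a) = E p (π e a))
    (hWE : ∀ p, ∀ a ∈ W, E p a ∈ W)
    (hWπ : ∀ e, ∀ a ∈ W, π e a ∈ W) (hfin : ∀ e, Module.Finite D (W ⊓ H e : Submodule D A))
    (hG : G.Finite) (hW : ∀ M : Submodule D A, G ⊆ M → InvT (Set.range c) M → W ≤ M)
    (hc : ∀ p q, Commute (c p) (c q)) :
    ∃ e0, ∀ e, e0 ≤ e →
      (fwdDiff 1)^[N] (fun e => (finrank D (W ⊓ H e : Submodule D A) : ℤ)) e = 0 := by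
  have hN : ∀ j, N < j → ∀ g ∈ Hm K j, g ∈ J := by
    intro j hj g hg
    have h1 := hhf j
    rw [Nat.choose_eq_zero_of_lt hj] at h1
    have h2 : pc J j = Hm K j := by
      apply Submodule.eq_of_le_of_finrank_eq inf_le_right
      have e3 : hf J j = (finrank K (Hm K j : Submodule K (MvPolynomial σ K)) : ℤ) -
        finrank K (pc J j) := rfl
      have : finrank K (pc J j) = finrank K (Hm K j : Submodule K (MvPolynomial σ K)) := by omega
      exact this
    rw [← h2] at hg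
    exact hg.1
  obtain ⟨V1, hV1, hV2⟩ := TW_le hN hG hW hc
  set d : Module.End D (VV K σ A) := dK E x with hd
  have hd2 : ∀ φ ∈ TW J W, d (d φ) = 0 := by
    intro φ hφ
    obtain ⟨q⟩ := ‹Nonempty P›
    refine LinearMap.ext fun g => ?_
    rw [hdd q φ (fun g hg => hφ.1 g (hJq q ▸ Ideal.mem_sup_left hg)), hφ.1, map_zero,
      LinearMap.zero_apply]
    rw [hJq q]
    exact mem_sup_span.mpr ⟨0, Ideal.zero_mem _, g, by simp⟩
  have hdπ : ∀ e φ, post (π (e + 1)) (d φ) = d (post (π e) φ) := by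
    intro e φ
    refine LinearMap.ext fun g => ?_
    simp [hd, dK_apply, hπE]
  have hdρ : ∀ j φ, pre D (pr K j) (d φ) = d (pre D (pr K (j + 1)) φ) := by
    intro j φ
    refine LinearMap.ext fun g => ?_
    simp only [hd, dK_apply, pre_apply, pr_mul_left (hx _)]
  have hpostW : ∀ e, ∀ φ ∈ TW J W, post (π e) φ ∈ TW J (W ⊓ H e) := fun e φ hφ =>
    ⟨fun g hg => by rw [post_apply, hφ.1 g hg, map_zero], fun g => ⟨hWπ e _ (hφ.2 g), hππ e _⟩⟩
  have hTWle : ∀ e, TW J (W ⊓ H e) ≤ TW J W := fun e φ hφ => ⟨hφ.1, fun g => (hφ.2 g).1⟩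
  let Nn : ℕ → Submodule D (VV K σ A) := fun i =>
    (TW J W ⊓ LinearMap.ker d) ⊓ ⨅ e, ⨅ (_ : i < e), ((TW J W).map d).comap (post (π e))
  have hNn : ∀ i φ, φ ∈ Nn i ↔
      (φ ∈ TW J W ∧ d φ = 0) ∧ ∀ e, i < e → post (π e) φ ∈ (TW J W).map d := by
    intro i φ
    simp only [Nn, Submodule.mem_inf, LinearMap.mem_ker, Submodule.mem_iInf, Submodule.mem_comap]
  obtain ⟨n, hn0⟩ := hV2 Nn
    (fun i j hij φ hφ => (hNn j φ).mpr
      ⟨((hNn i φ).mp hφ).1, fun e he => ((hNn i φ).mp hφ).2 e (by omega)⟩)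
    (fun i φ hφ => hV1 ((hNn i φ).mp hφ).1.1)
    (by
      rintro i _ ⟨q, rfl⟩ z hz
      obtain ⟨⟨h1, h2⟩, _⟩ := (hNn i z).mp hz
      obtain ⟨y, hy, hyz⟩ := kills hWE (hn q) (hdd q) (hJq q ▸ h1) h2
      rw [← hJq q] at hy
      change post (c q) z ∈ _
      rw [← hyz]
      refine (hNn i _).mpr ⟨⟨dK_mem_TW x hWE hy, hd2 y hy⟩, fun e he => ?_⟩
      obtain ⟨e', rfl⟩ : ∃ e', e = e' + 1 := ⟨e - 1, by omega⟩
      exact ⟨_, hTWle _ (hpostW e' y hy), (hdπ e' y).symm⟩)
  have hdT : ∀ e j, ∀ φ ∈ Tb J (W ⊓ H e) (j + 1), d φ ∈ Tb J (W ⊓ H (e + 1)) j := by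
    intro e j φ hφ
    obtain ⟨h1, h2⟩ := mem_Tb.mp hφ
    have h3 := dK_mem_TW x hWE (hTWle e h1)
    refine mem_Tb.mpr ⟨⟨h3.1, fun g => ⟨h3.2 g, ?_⟩⟩, fun g => ?_⟩
    · rw [SetLike.mem_coe, hH, ← post_apply, hdπ]
      congr 2
      exact LinearMap.ext fun g => (hH _ _).mp (h1.2 g).2
    · rw [← pre_apply (D := D), hdρ]
      congr 2
      exact LinearMap.ext h2
  have hex : ∀ e j, n ≤ e → Tb J (W ⊓ H (e + 1)) j ⊓ LinearMap.ker d =
      (Tb J (W ⊓ H e) (j + 1)).map d := by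
    intro e j he
    apply le_antisymm
    · rintro z ⟨hz, hdz⟩
      obtain ⟨h1, h2⟩ := mem_Tb.mp hz
      have h3 : z ∈ Nn (e + 1) := by
        refine (hNn _ _).mpr ⟨⟨hTWle _ h1, hdz⟩, fun e' he' => ?_⟩
        have : post (π e') z = 0 :=
          LinearMap.ext fun g => hπ e' (e + 1) _ (h1.2 g).2 (by omega)
        rw [this]
        exact Submodule.zero_mem _
      rw [hn0 (e + 1) (by omega)] at h3
      obtain ⟨y, hy, hyz⟩ := ((hNn _ _).mp h3).2 (e + 1) (by omega)
      have h4 : post (π (e + 1)) z = z := LinearMap.ext fun g => (hH _ _).mp (h1.2 g).2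
      have h5 : pre D (pr K j) z = z := LinearMap.ext h2
      have h6 := hpostW e y hy
      refine ⟨pre D (pr K (j + 1)) (post (π e) y), mem_Tb.mpr ⟨⟨fun g hg => ?_, fun g => h6.2 _⟩,
        fun g => ?_⟩, ?_⟩
      · exact h6.1 _ (hJ g hg _)
      · rw [pre_apply, pre_apply, pr_self (pr_mem _ _)]
      · rw [← hdρ, ← hdπ, hyz, h4, h4, h5]
    · rintro _ ⟨y, hy, rfl⟩
      exact ⟨hdT e j y hy, hd2 y (hTWle e (mem_Tb.mp hy).1)⟩
  have hrk : ∀ e j, n ≤ e → (finrank D ((Tb J (W ⊓ H (e + 1)) j).map d) : ℤ) +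
      finrank D ((Tb J (W ⊓ H e) (j + 1)).map d) =
      N.choose j * finrank D (W ⊓ H (e + 1) : Submodule D A) := by
    intro e j he
    have := hfin (e + 1)
    obtain ⟨h1, h2⟩ := finrank_Tb hJ (W ⊓ H (e + 1)) j
    rw [← hhf, ← h2, ← hex e j he]
    have h3 := LinearMap.finrank_range_add_finrank_ker (d.domRestrict (Tb J (W ⊓ H (e + 1)) j))
    rw [LinearMap.range_domRestrict, LinearMap.ker_domRestrict] at h3
    rw [← h3, Nat.cast_add]
    congr 2
    have : (LinearMap.ker d).comap (Tb J (W ⊓ H (e + 1)) j).subtype =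
        (Tb J (W ⊓ H (e + 1)) j ⊓ LinearMap.ker d).comap (Tb J (W ⊓ H (e + 1)) j).subtype := by
      ext v
      simp
    rw [this]
    exact (Submodule.comapSubtypeEquivOfLe inf_le_left).finrank_eq.symm
  refine ⟨n + 1, fun e he => ?_⟩
  obtain ⟨e, rfl⟩ : ∃ e', e = e' + 1 := ⟨e - 1, by omega⟩
  have htel : ∀ k, k ≤ N + 1 → ∑ i ∈ Finset.range k,
      (-1 : ℤ) ^ i * (N.choose i * finrank D (W ⊓ H (e + 1 + i) : Submodule D A)) =
      (-1) ^ (k + 1) * finrank D ((Tb J (W ⊓ H (e + k)) (N + 1 - k)).map d) := by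
    intro k
    induction k with
    | zero =>
      intro _
      have := hfin e
      obtain ⟨h1, h2⟩ := finrank_Tb hJ (W ⊓ H e) (N + 1)
      rw [hhf, Nat.choose_succ_self] at h2
      have h3 := Submodule.finrank_map_le d (Tb J (W ⊓ H e) (N + 1))
      have h4 : finrank D ((Tb J (W ⊓ H e) (N + 1)).map d) = 0 := by omega
      rw [Finset.range_zero, Finset.sum_empty, add_zero, Nat.sub_zero, h4, Nat.cast_zero, mul_zero]
    | succ k ih =>
      intro hk
      have h1 := hrk (e + k) (N - k) (by omega)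
      rw [Finset.sum_range_succ, ih (by omega), show N + 1 - k = N - k + 1 by omega,
        show e + 1 + k = e + k + 1 by omega, ← Nat.choose_symm (show k ≤ N by omega), ← h1,
        show N + 1 - (k + 1) = N - k by omega, ← add_assoc e k 1]
      ring
  have h0 : (Tb J (W ⊓ H (e + (N + 1))) (N + 1 - (N + 1))).map d = ⊥ := by
    rw [eq_bot_iff]
    rintro _ ⟨φ, hφ, rfl⟩
    rw [Nat.sub_self] at hφ
    rw [Submodule.mem_bot]
    refine LinearMap.ext fun g => ?_
    rw [hd, dK_apply]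
    refine Finset.sum_eq_zero fun p _ => ?_
    rw [← (mem_Tb.mp hφ).2, pr_mul_left_lt (hx p) g (by omega), map_zero, map_zero]
  have h1 := htel (N + 1) le_rfl
  rw [h0, finrank_bot, Nat.cast_zero, mul_zero] at h1
  rw [fwdDiff_iter_eq_sum_shift]
  have h2 := congrArg (fun z : ℤ => (-1) ^ N * z) h1
  simp only [mul_zero, Finset.mul_sum] at h2
  rw [← h2]
  refine Finset.sum_congr rfl fun i hi => ?_
  have h3 : i ≤ N := Nat.lt_succ_iff.mp (Finset.mem_range.mp hi)
  obtain ⟨l, rfl⟩ := Nat.exists_eq_add_of_le h3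
  have h4 : ((-1 : ℤ) ^ i) * (-1) ^ i = 1 := by rw [← mul_pow]; simp
  rw [smul_eq_mul, smul_eq_mul, mul_one, Nat.add_sub_cancel_left, pow_add]
  linear_combination (-((-1 : ℤ) ^ l * ((i + l).choose i : ℤ) *
    (finrank D (W ⊓ H (e + 1 + i) : Submodule D A) : ℤ))) * h4

end
end Vale.Agent.P200
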