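import Vale.Agent.P200.Uni
import Vale.Agent.P200.Koszul
import Vale.Agent.P200.Growth

/-! The graded Clifford algebra of a complete intersection of quadrics is a domain. -/

namespace Vale.Agent.P200

open Module
open scoped TensorProduct nonZeroDivisors

structure QD {K σ P : Type*} [Field K] [Fintype P] (β : P → P → P → K)
    (x f : P → MvPolynomial σ K) (J : Ideal (MvPolynomial σ K))
    (Jq : P → Ideal (MvPolynomial σ K)) : Prop where
  hx : ∀ p, x p ∈ Hm K 1
  hJ : Homog J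
  hJq : ∀ q, J = Jq q ⊔ Ideal.span {f q}
  hn : ∀ q, Nzd (Jq q) (f q)
  hhf : ∀ j, hf J j = (Fintype.card P).choose j
  hf1 : ∀ q q', f q' - ∑ p, ∑ r, β q' p r • (x p * x r) ∈ Jq q
  hf2 : ∀ q q', q' ≠ q → f q' ∈ Jq q

section
variable {K D Ω τ P σ : Type*} [Field K] [DivisionRing D] [Algebra K D] [Ring Ω] [Algebra K Ω]
  [Module D Ω] [IsScalarTower K D Ω] [IsScalarTower D Ω Ω] [Fintype P] [DecidableEq P]
  {β : P → P → P → K} {E : P → NP Ω τ} {Cm : (P →₀ ℕ) → NP Ω τ}
  {x f : P → MvPolynomial σ K} {J : Ideal (MvPolynomial σ K)} {Jq : P → Ideal (MvPolynomial σ K)}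

noncomputable def GC.eop (h : GC D β E Cm) (p : P) : Module.End D (NP Ω τ) :=
  lm D _ (h.E_smul p)

lemma GC.dd (h : GC D β E Cm) (hq : QD β x f J Jq) (q : P) (φ : VV K σ (NP Ω τ))
    (hφ : ∀ g ∈ Jq q, φ g = 0) (g : MvPolynomial σ K) :
    dK h.eop x (dK h.eop x φ) g = h.cop q (φ (f q * g)) := by
  let B : P → P → NP Ω τ := fun p r => ∑ q, β q p r • Cm (Finsupp.single q 1)
  have h1 : ∑ p, ∑ r, (E p * E r - B p r) * φ (x p * x r * g) = 0 := by
    apply sum_sum_antisymm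
    · intro p
      rw [h.E_sq, sub_self, zero_mul]
    · intro p r
      rw [mul_comm (x r), ← add_mul, sub_add_sub_comm, h.E_anti, sub_self, zero_mul]
  have h2 : ∑ p, ∑ r, B p r * φ (x p * x r * g) =
      ∑ q', Cm (Finsupp.single q' 1) * φ ((∑ p, ∑ r, β q' p r • (x p * x r)) * g) := by
    simp only [B, Finset.sum_mul, map_sum, Finset.mul_sum, smul_mul_assoc, map_smul,
      mul_smul_comm]
    rw [Finset.sum_comm]
    conv_lhs => enter [2, p]; rw [Finset.sum_comm]
    rw [Finset.sum_comm]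
    refine Finset.sum_congr rfl fun q' _ => ?_
    rw [Finset.sum_comm]
  have h3 : ∀ q', φ ((∑ p, ∑ r, β q' p r • (x p * x r)) * g) = φ (f q' * g) := by
    intro q'
    have := hφ _ ((Jq q).mul_mem_right g (hq.hf1 q q'))
    rw [sub_mul, map_sub, sub_eq_zero] at this
    exact this.symm
  simp only [sub_mul, Finset.sum_sub_distrib, sub_eq_zero] at h1
  have h4 : ∑ q', Cm (Finsupp.single q' 1) * φ ((∑ p, ∑ r, β q' p r • (x p * x r)) * g) =
      Cm (Finsupp.single q 1) * φ (f q * g) := by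
    rw [Finset.sum_eq_single q, h3]
    · intro q' _ hq'
      rw [h3, hφ _ ((Jq q).mul_mem_right g (hq.hf2 q q' hq')), mul_zero]
    · simp
  change _ = Cm (Finsupp.single q 1) * φ (f q * g)
  rw [← h4, ← h2, ← h1, dK_apply]
  refine Finset.sum_congr rfl fun p _ => ?_
  rw [dK_apply, map_sum]
  refine Finset.sum_congr rfl fun r _ => ?_
  rw [mul_assoc (E p), mul_comm (x p) (x r), mul_assoc (x r)]
  rfl

lemma GC.lower (h : GC D β E Cm) {W : Submodule D (NP Ω τ)} [Module.Finite D W] {a : NP Ω τ}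
    (ha : a ≠ 0) (m : ℕ) (hW : ∀ μ ∈ AD P m, Cm μ * a ∈ W) : (AD P m).card ≤ finrank D W := by
  have h1 : LinearIndependent D (fun μ : AD P m => (⟨Cm μ * a, hW μ μ.2⟩ : W)) := by
    apply LinearIndependent.of_comp W.subtype
    exact (h.C_ind a ha).comp (fun μ : AD P m => (μ : P →₀ ℕ)) Subtype.val_injective
  simpa using h1.fintype_card_le_finrank

theorem GC.domain [Finite σ] [Nonempty P] (h : GC D β E Cm) (hq : QD β x f J Jq) {a b : NP Ω τ}
    (ha : a ∈ UU D E Cm) (hab : a * b = 0) : a = 0 ∨ b = 0 := by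
  by_contra! hne
  obtain ⟨i, j, hi, hj, hij⟩ := exists_hom_zero_div (D := D) hne.1 hne.2 hab
  have ha' := h.pr_mem_U i ha
  have hai := pr_mem (D := D) i a
  have hbj := pr_mem (D := D) j b
  generalize pr D i a = a' at hi hij ha' hai
  generalize pr D j b = b' at hj hij hbj
  obtain ⟨k, hk⟩ : ∃ k, Fintype.card P = k + 1 :=
    ⟨Fintype.card P - 1, by have := Fintype.card_pos (α := P); omega⟩
  let W : Submodule D (NP Ω τ) := UU D E Cm ⊓ LinearMap.ker (rm D b')
  have hW : ∀ y, y ∈ W ↔ y ∈ UU D E Cm ∧ y * b' = 0 := fun y => Iff.rfl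
  have hfin : ∀ e, Module.Finite D (W ⊓ Hm D e : Submodule D (NP Ω τ)) := by
    intro e
    have := (h.finrank_U e).1
    exact Submodule.finiteDimensional_of_le
      (inf_le_inf_right _ inf_le_left : W ⊓ Hm D e ≤ UU D E Cm ⊓ Hm D e)
  obtain ⟨e0, he0⟩ := koszul (E := h.eop) (c := h.cop) (π := pr D) (H := Hm D) (W := W)
    (G := G0 E) hq.hx hq.hJ hq.hJq hq.hn hq.hhf (h.dd hq) (fun e a => mem_Hm_iff)
    (fun e e' a ha hne => by rw [pr_of_mem ha, if_neg hne]) pr_mem
    (fun e p a => pr_mul_left (h.E_mem p) a e)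
    (fun p y hy => (hW _).mpr ⟨h.U_E p ((hW _).mp hy).1, by
      change E p * y * b' = 0
      rw [mul_assoc, ((hW _).mp hy).2, mul_zero]⟩)
    (fun e y hy => (hW _).mpr ⟨h.pr_mem_U e ((hW _).mp hy).1, by
      rw [← pr_mul_right hbj, ((hW _).mp hy).2, map_zero]⟩)
    hfin G0_finite (fun M h1 h2 => inf_le_left.trans (h.U_le M h1 h2)) h.cop_comm
  rw [hk] at he0
  refine growth_contra k e0 i _ he0 (fun m => ?_) (fun m => ?_)
  · have := hfin (i + 2 * m)
    rw [← card_AD hk]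
    refine Int.ofNat_le.mpr (h.lower hi m fun μ hμ => ⟨(hW _).mpr ⟨h.U_C μ ha', ?_⟩, ?_⟩)
    · rw [mul_assoc, hij, mul_zero]
    · rw [← mem_AD.mp hμ, add_comm]
      exact mul_mem_Hm (h.C_mem μ) hai
  · obtain ⟨h1, h2⟩ := h.finrank_U (2 * m)
    have h3 := LinearMap.finrank_range_add_finrank_ker
      ((rm D b').domRestrict (UU D E Cm ⊓ Hm D (2 * m)))
    rw [LinearMap.range_domRestrict, LinearMap.ker_domRestrict] at h3
    have h4 : (LinearMap.ker (rm D b')).comap (UU D E Cm ⊓ Hm D (2 * m)).subtype =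
        (W ⊓ Hm D (2 * m)).comap (UU D E Cm ⊓ Hm D (2 * m)).subtype := by
      ext v
      exact ⟨fun hv => ⟨⟨v.2.1, hv⟩, v.2.2⟩, fun hv => hv.1.2⟩
    rw [h4, (Submodule.comapSubtypeEquivOfLe (inf_le_inf_right _ inf_le_left)).finrank_eq] at h3
    have h5 := h.lower (W := (UU D E Cm ⊓ Hm D (2 * m)).map (rm D b')) hj m (fun μ hμ =>
      ⟨Cm μ, ⟨by simpa using h.U_C μ h.one_mem, mem_AD.mp hμ ▸ h.C_mem μ⟩, rfl⟩)
    rw [card_AD hk] at h2 h5
    have h6 : finrank D ((UU D E Cm ⊓ Hm D (2 * m)).map (rm D b')) +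
      finrank D (W ⊓ Hm D (2 * m) : Submodule D (NP Ω τ)) =
      finrank D (UU D E Cm ⊓ Hm D (2 * m) : Submodule D (NP Ω τ)) := h3
    omega

end

universe u

theorem step_aux {K R : Type u} [Field K] [Ring R]
    [Algebra K R] [IsDomain R] [IsNoetherianRing R] :
    ∃ (D1 : Type u) (_ : DivisionRing D1) (_ : Algebra K D1) (ψ : R →ₐ[K] D1),
      Function.Injective ψ := by
  obtain ⟨inst⟩ := nonempty_oreSet_of_strongRankCondition (R := R)
  refine ⟨OreLocalization R⁰ R, inferInstance, inferInstance,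
    { OreLocalization.numeratorRingHom with commutes' := fun _ => rfl }, ?_⟩
  exact OreLocalization.numeratorHom_inj (fun x hx => hx.1)

theorem step_gen {K D Ω : Type u} {τ P σ : Type} [Field K] [DivisionRing D] [Algebra K D]
    [Ring Ω] [Algebra K Ω] [Module D Ω] [IsScalarTower K D Ω] [IsScalarTower D Ω Ω] [Nontrivial Ω]
    [Fintype P] [DecidableEq P] [Nonempty P] [Finite σ] {β : P → P → P → K}
    {x f : P → MvPolynomial σ K} {J : Ideal (MvPolynomial σ K)} {Jq : P → Ideal (MvPolynomial σ K)}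
    (hq : QD β x f J Jq) {E : P → NP Ω τ} {Cm : (P →₀ ℕ) → NP Ω τ} (h : GC D β E Cm) :
    ∃ (D1 : Type u) (_ : DivisionRing D1) (_ : Algebra K D1) (φ : D →ₐ[K] D1) (E c : P → D1),
      (∀ p d, E p * φ d = φ d * E p) ∧ (∀ p, E p * E p = ∑ q, β q p p • c q) ∧
      (∀ p r, E p * E r + E r * E p = ∑ q, β q p r • c q + ∑ q, β q r p • c q) ∧
      (∀ a : P → D, ∑ p, φ (a p) * E p = 0 → a = 0) := by
  have := h.noeth
  have : NoZeroDivisors h.Us := ⟨fun {a b} hab => by
    rcases h.domain hq (h.mem_Us.mp a.2) (congrArg Subtype.val hab) with h1 | h1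
    · exact Or.inl (Subtype.ext h1)
    · exact Or.inr (Subtype.ext h1)⟩
  have : IsDomain h.Us := NoZeroDivisors.to_isDomain _
  obtain ⟨D1, i1, i2, ψ, hψ⟩ := step_aux (K := K) (R := h.Us)
  have hd : ∀ d : D, d • (1 : NP Ω τ) ∈ h.Us := fun d =>
    h.mem_Us.mpr ((UU D E Cm).smul_mem d h.one_mem)
  let j : D →ₐ[K] h.Us :=
    { toFun := fun d => ⟨d • 1, hd d⟩
      map_one' := Subtype.ext (one_smul _ _)
      map_mul' := fun a b => Subtype.ext (by
        change (a * b) • (1 : NP Ω τ) = a • 1 * b • 1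
        rw [smul_one_mul, mul_smul])
      map_zero' := Subtype.ext (zero_smul _ _)
      map_add' := fun a b => Subtype.ext (add_smul _ _ _)
      commutes' := fun k => Subtype.ext (by
        change algebraMap K D k • (1 : NP Ω τ) = algebraMap K (NP Ω τ) k
        rw [algebraMap_smul, Algebra.algebraMap_eq_smul_one]) }
  have hE : ∀ p, E p ∈ h.Us := fun p => h.mem_Us.mpr (by simpa using h.U_E p h.one_mem)
  have hC : ∀ μ, Cm μ ∈ h.Us := fun μ => h.mem_Us.mpr (by simpa using h.U_C μ h.one_mem)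
  refine ⟨D1, i1, i2, ψ.comp j, fun p => ψ ⟨E p, hE p⟩, fun q => ψ ⟨_, hC (Finsupp.single q 1)⟩,
    fun p d => ?_, fun p => ?_, fun p r => ?_, fun a ha => ?_⟩
  · rw [AlgHom.comp_apply, ← map_mul, ← map_mul]
    congr 1
    apply Subtype.ext
    change E p * d • 1 = d • 1 * E p
    rw [h.E_smul, smul_one_mul, mul_one]
  · simp only [← map_mul, ← map_smul, ← map_sum]
    congr 1
    apply Subtype.ext
    simpa using h.E_sq p
  · simp only [← map_mul, ← map_smul, ← map_sum, ← map_add]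
    congr 1
    apply Subtype.ext
    simpa using h.E_anti p r
  · simp only [AlgHom.comp_apply, ← map_mul, ← map_sum] at ha
    rw [← map_zero ψ] at ha
    have h1 := congrArg Subtype.val (hψ ha)
    apply h.E_ind
    rw [AddSubmonoidClass.coe_finsetSum] at h1
    refine Eq.trans (Finset.sum_congr rfl fun p _ => ?_) h1
    exact (smul_one_mul (a p) (E p)).symm

theorem step {K D : Type u} {P σ : Type} [Field K] [DivisionRing D] [Algebra K D] [Fintype P]
    [DecidableEq P] [Nonempty P] [Finite σ] {β : P → P → P → K} {x f : P → MvPolynomial σ K}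
    {J : Ideal (MvPolynomial σ K)} {Jq : P → Ideal (MvPolynomial σ K)} (hq : QD β x f J Jq) :
    ∃ (D1 : Type u) (_ : DivisionRing D1) (_ : Algebra K D1) (φ : D →ₐ[K] D1) (E c : P → D1),
      (∀ p d, E p * φ d = φ d * E p) ∧ (∀ p, E p * E p = ∑ q, β q p p • c q) ∧
      (∀ p r, E p * E r + E r * E p = ∑ q, β q p r • c q + ∑ q, β q r p • c q) ∧
      (∀ a : P → D, ∑ p, φ (a p) * E p = 0 → a = 0) := by
  obtain ⟨E, Cm, h⟩ := exists_model (D := D) β
  exact step_gen hq h

end Vale.Agent.P200
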