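import Vale.Agent.P200.BC

/-! Change of commuting frame does not increase Koszul ranks. -/

namespace Vale.Agent.P200

open Module AddMonoidAlgebra

lemma finrank_le_of_inj {D V V' : Type*} [DivisionRing D] [AddCommGroup V] [Module D V]
    [AddCommGroup V'] [Module D V'] (f : V →ₗ[D] V') {A : Submodule D V} {B : Submodule D V'}
    [Module.Finite D B] (h1 : ∀ v ∈ A, f v ∈ B) (h2 : ∀ v ∈ A, f v = 0 → v = 0) :
    finrank D A ≤ finrank D B := by
  refine LinearMap.finrank_le_finrank_of_injective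
    (f := (f.domRestrict A).codRestrict B fun v => h1 v v.2) ?_
  rw [injective_iff_map_eq_zero]
  intro v hv
  exact Subtype.ext (h2 v v.2 (congrArg Subtype.val hv))

section
variable {D : Type*} [DivisionRing D] {n : ℕ}

structure Fr (y : Fin n → NP D (Fin n)) : Prop where
  h1 : ∀ i, y i ∈ Hm D 1
  hc : ∀ i j, y i * y j = y j * y i
  hs : ∀ j, xv D j ∈ Submodule.span D (Set.range y)

structure Ph (y : Fin n → NP D (Fin n)) (Φ : NP D (Fin n) →ₗ[D] NP D (Fin n)) : Prop where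
  one : Φ 1 = 1
  mul : ∀ z i, Φ (z * xv D i) = Φ z * y i
  map : ∀ d, (Hm D d).map Φ = Hm D d
  inj : ∀ d, ∀ z ∈ Hm D d, Φ z = 0 → z = 0

lemma single_eq_smul (m : Fin n →₀ ℕ) (r : D) :
    (single m r : NP D (Fin n)) = r • single m 1 := by simp

lemma mono_comm (m : Fin n →₀ ℕ) (z : NP D (Fin n)) : single m 1 * z = z * single m 1 :=
  (single_commute (fun m' => add_comm _ m') (fun r => Commute.one_left r) z).eq

lemma deg_induction {C : (Fin n →₀ ℕ) → Prop} (h0 : C 0)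
    (h : ∀ m i, C m → C (m + Finsupp.single i 1)) (m : Fin n →₀ ℕ) : C m := by
  induction m using Finsupp.induction with
  | zero => exact h0
  | single_add k a γ _ _ ih =>
    rw [add_comm]
    clear * - ih h
    induction a with
    | zero => simpa using ih
    | succ a ih2 =>
      rw [Finsupp.single_add, ← add_assoc]
      exact h _ k ih2

lemma exists_Ph {y : Fin n → NP D (Fin n)} (hy : Fr y) : ∃ Φ, Ph y Φ := by
  obtain ⟨Y, hY0, hY⟩ := exists_Y y hy.hc
  let Φ : NP D (Fin n) →ₗ[D] NP D (Fin n) :=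
    Finsupp.linearCombination D Y ∘ₗ (coeffLinearEquiv D).toLinearMap
  have h1 : ∀ m r, Φ (single m r) = r • Y m := by
    intro m r
    simp [Φ]
  have h2 : ∀ z i, Φ (z * xv D i) = Φ z * y i := by
    intro z i
    induction z using np_induction with
    | h0 => simp
    | ha a b ha hb => simp only [add_mul, map_add, ha, hb]
    | hs m r => rw [xv, single_mul_single, h1, h1, hY, mul_one, smul_mul_assoc]
  have h3 : ∀ m, Y m ∈ Hm D m.degree := by
    intro m
    induction m using deg_induction with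
    | h0 => rw [hY0, map_zero]; exact one_mem_Hm
    | h m i ih =>
      rw [hY, map_add, Finsupp.degree_single]
      exact mul_mem_Hm ih (hy.h1 i)
  have h4 : ∀ m, single m 1 ∈ (Hm D m.degree).map Φ := by
    intro m
    induction m using deg_induction with
    | h0 => exact ⟨_, single_mem 0 1, by rw [h1, hY0, one_smul]; rfl⟩
    | h m i ih =>
      obtain ⟨z, hz, hz2⟩ := ih
      have : ∀ v ∈ Submodule.span D (Set.range y),
          v * single m 1 ∈ (Hm D (m.degree + 1)).map Φ := by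
        intro v hv
        have : Submodule.span D (Set.range y) ≤
            ((Hm D (m.degree + 1)).map Φ).comap (rm D (single m 1)) := by
          refine Submodule.span_le.mpr ?_
          rintro _ ⟨k, rfl⟩
          refine ⟨_, mul_mem_Hm hz (xv_mem k), ?_⟩
          rw [h2, hz2, mono_comm]
          rfl
        exact this hv
      have h5 := this _ (hy.hs i)
      rw [map_add, Finsupp.degree_single]
      rwa [xv, single_mul_single, mul_one, add_comm _ m] at h5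
  have h5 : ∀ d, (Hm D d).map Φ = Hm D d := by
    intro d
    apply le_antisymm
    · rw [Submodule.map_le_iff_le_comap]
      conv_lhs => rw [Hm_eq_span]
      refine Submodule.span_le.mpr ?_
      rintro _ ⟨m, rfl, rfl⟩
      change Φ (single m 1) ∈ Hm D m.degree
      rw [h1, one_smul]
      exact h3 m
    · conv_lhs => rw [Hm_eq_span]
      refine Submodule.span_le.mpr ?_
      rintro _ ⟨m, rfl, rfl⟩
      exact h4 m
  refine ⟨Φ, ?_, h2, h5, fun d z hz h => ?_⟩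
  · rw [one_def, h1, hY0, one_smul]
    rfl
  · have h6 : ∀ v ∈ Hm D d, Φ v ∈ Hm D d := fun v hv => h5 d ▸ ⟨v, hv, rfl⟩
    have h7 : Function.Injective (Φ.restrict h6) := by
      rw [LinearMap.injective_iff_surjective]
      rintro ⟨v, hv⟩
      rw [← h5 d] at hv
      obtain ⟨u, hu, rfl⟩ := hv
      exact ⟨⟨u, hu⟩, rfl⟩
    exact congrArg Subtype.val (h7 (a₁ := ⟨z, hz⟩) (a₂ := 0) (Subtype.ext (by simpa using h)))

lemma Ph.mem {y : Fin n → NP D (Fin n)} {Φ : NP D (Fin n) →ₗ[D] NP D (Fin n)} (h : Ph y Φ)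
    {d : ℕ} {z : NP D (Fin n)} (hz : z ∈ Hm D d) : Φ z ∈ Hm D d := h.map d ▸ ⟨z, hz, rfl⟩

lemma Hm0_eq {t : NP D (Fin n)} (ht : t ∈ Hm D 0) : t = single 0 (t.coeff 0) := by
  refine AddMonoidAlgebra.ext (Finsupp.ext fun m => ?_)
  by_cases h : m = 0
  · subst h
    simp
  · rw [mem_Hm.mp ht m (fun hh => h ((Finsupp.degree_eq_zero_iff m).mp hh))]
    simp [h]

lemma Ph.dd {y : Fin n → NP D (Fin n)} {Φ : NP D (Fin n) →ₗ[D] NP D (Fin n)} (h : Ph y Φ)
    (w : CC D n) : Φ.compLeft _ (dd (xv D) w) = dd y (Φ.compLeft _ w) := by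
  funext ρ
  change Φ (P200.dd (xv D) w ρ) = _
  rw [dd_apply, dd_apply, map_sum]
  refine Finset.sum_congr rfl fun i _ => ?_
  rw [map_zsmul, h.mul]
  rfl

lemma Ph.injC {y : Fin n → NP D (Fin n)} {Φ : NP D (Fin n) →ₗ[D] NP D (Fin n)} (h : Ph y Φ)
    {p d : ℕ} {w : CC D n} (hw : w ∈ Cs p (Hm D d)) (h0 : Φ.compLeft _ w = 0) : w = 0 := by
  funext ρ
  by_cases hρ : ρ.card = p
  · exact h.inj d _ ((mem_Cs.mp hw ρ).1 hρ) (congrFun h0 ρ)
  · exact (mem_Cs.mp hw ρ).2 hρ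

lemma compLeft_mem (Φ : NP D (Fin n) →ₗ[D] NP D (Fin n)) {p : ℕ}
    {N N' : Submodule D (NP D (Fin n))} (h : ∀ z ∈ N, Φ z ∈ N') {w : CC D n} (hw : w ∈ Cs p N) :
    Φ.compLeft _ w ∈ Cs p N' := by
  refine mem_Cs.mpr fun ρ => ⟨fun hρ => h _ ((mem_Cs.mp hw ρ).1 hρ), fun hρ => ?_⟩
  change Φ (w ρ) = 0
  rw [(mem_Cs.mp hw ρ).2 hρ, map_zero]

lemma WW_le {y : Fin n → NP D (Fin n)} (hy : ∀ i, y i ∈ Hm D 1) {N : Submodule D (NP D (Fin n))}
    {p k : ℕ} (hN : N ≤ Hm D (k + 1)) : WW y N p k ≤ Cs p (Hm D (k + 1)) := by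
  refine sup_le ?_ (Cs_mono hN)
  rintro _ ⟨t, ht, rfl⟩
  exact dd_mem (fun z hz i => mul_mem_Hm hz (hy i)) ht

lemma dd_inj0 {y : Fin n → NP D (Fin n)} (hy : Fr y) {p : ℕ} {w : CC D n}
    (hw : w ∈ Cs (p + 1) (Hm D 0)) (h0 : dd y w = 0) : w = 0 := by
  obtain ⟨Φ, h⟩ := exists_Ph hy
  have hw0 : ∀ ρ, w ρ = single 0 ((w ρ).coeff 0) := by
    intro ρ
    by_cases hρ : ρ.card = p + 1
    · exact Hm0_eq ((mem_Cs.mp hw ρ).1 hρ)
    · simp [(mem_Cs.mp hw ρ).2 hρ]
  have h1 : Φ.compLeft _ w = w := by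
    funext ρ
    change Φ (w ρ) = _
    rw [hw0, single_eq_smul, map_smul, ← one_def, h.one]
  have h2 : dd (xv D) w = 0 := h.injC (dd_mem (fun z hz i => mul_mem_Hm hz (xv_mem i)) hw)
    (by rw [h.dd, h1, h0])
  funext ρ
  by_cases hρ : ρ.card = p + 1
  · obtain ⟨i, hi⟩ := Finset.card_pos.mp (by omega : 0 < ρ.card)
    have h3 := congrArg (fun z => z.coeff (Finsupp.single i 1)) (congrFun h2 (ρ.erase i))
    simp only [dd_apply, coeff_sum, Finsupp.finsetSum_apply, Pi.zero_apply, coeff_zero,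
      Finsupp.zero_apply] at h3
    rw [Finset.sum_eq_single i] at h3
    · rw [Finset.insert_erase hi, hw0, xv, single_mul_single, zero_add, mul_one] at h3
      have h4 := congrArg (sg (ρ.erase i) i • ·) h3
      simp only [coeff_smul, Finsupp.smul_apply, smul_smul, sg_sq, one_smul, smul_zero,
        coeff_single, Finsupp.single_eq_same] at h4
      rw [hw0, h4]
      simp
    · intro j _ hj
      rw [hw0, xv, single_mul_single, zero_add, mul_one]
      simp [Finsupp.single_left_inj, hj.symm]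
    · simp
  · exact (mem_Cs.mp hw ρ).2 hρ

noncomputable def Th (θ : Finset (Fin n) → CC D n) : CC D n →ₗ[D] CC D n :=
  (Fintype.linearCombination (NP D (Fin n)) θ).restrictScalars D

lemma Th_single (θ : Finset (Fin n) → CC D n) (ρ : Finset (Fin n)) (z : NP D (Fin n)) :
    Th θ (Pi.single ρ z) = z • θ ρ := Fintype.linearCombination_apply_single _ _ _ _

noncomputable def Rh (y : Fin n → NP D (Fin n)) (θ : Finset (Fin n) → CC D n)
    (ρ : Finset (Fin n)) : CC D n := ∑ i ∈ ρ, sg (ρ.erase i) i • y i • θ (ρ.erase i)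

lemma Th_dd (y : Fin n → NP D (Fin n)) (θ : Finset (Fin n) → CC D n) (ρ : Finset (Fin n))
    (z : NP D (Fin n)) : Th θ (dd y (Pi.single ρ z)) = z • Rh y θ ρ := by
  rw [dd_single, map_sum, Rh, Finset.smul_sum]
  refine Finset.sum_congr rfl fun i _ => ?_
  rw [map_zsmul, Th_single, mul_smul, smul_comm z (sg _ _)]

lemma Th_chain {y : Fin n → NP D (Fin n)} {θ : Finset (Fin n) → CC D n} {p : ℕ}
    (h : ∀ ρ, ρ.card = p → dd (xv D) (θ ρ) = Rh y θ ρ) {N : Submodule D (NP D (Fin n))}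
    {w : CC D n} (hw : w ∈ Cs p N) : dd (xv D) (Th θ w) = Th θ (dd y w) := by
  have : Cs p N ≤ LinearMap.eqLocus (dd (xv D) ∘ₗ Th θ) (Th θ ∘ₗ dd y) := Cs_le fun ρ hρ z _ => by
    rw [LinearMap.mem_eqLocus, LinearMap.comp_apply, LinearMap.comp_apply, Th_dd, Th_single,
      ← h ρ hρ]
    exact (dM (xv D)).map_smul z (θ ρ)
  exact this hw

lemma Th_mem {θ : Finset (Fin n) → CC D n} (h : ∀ ρ, θ ρ ∈ Cs ρ.card (Hm D 0))
    {N : Submodule D (NP D (Fin n))} (hN : ∀ z ∈ N, ∀ t ∈ Hm D 0, z * t ∈ N) {p : ℕ}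
    {w : CC D n} (hw : w ∈ Cs p N) : Th θ w ∈ Cs p N := by
  have : Cs p N ≤ (Cs p N).comap (Th θ) := Cs_le fun ρ hρ z hz => by
    rw [Submodule.mem_comap, Th_single]
    refine mem_Cs.mpr fun ρ' => ⟨fun h1 => hN z hz _ ((mem_Cs.mp (h ρ) ρ').1 (by omega)),
      fun h1 => ?_⟩
    rw [Pi.smul_apply, (mem_Cs.mp (h ρ) ρ').2 (by omega), smul_zero]
  exact this hw

lemma exists_theta {y : Fin n → NP D (Fin n)} (hy : Fr y) (p : ℕ) :
    ∃ θ : Finset (Fin n) → CC D n, (∀ ρ, θ ρ ∈ Cs ρ.card (Hm D 0)) ∧ θ ∅ = Pi.single ∅ 1 ∧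
      ∀ ρ, ρ.card ≤ p → dd (xv D) (θ ρ) = Rh y θ ρ := by
  induction p with
  | zero =>
    refine ⟨fun ρ => Pi.single ρ 1, fun ρ => single_mem_Cs rfl one_mem_Hm, rfl, fun ρ hρ => ?_⟩
    rw [Finset.card_eq_zero.mp (Nat.le_zero.mp hρ), dd_single, Rh]
    simp
  | succ p ih =>
    obtain ⟨θ, h1, h2, h3⟩ := ih
    have h4 : ∀ ρ : Finset (Fin n), ρ.card = p + 1 →
        ∃ t ∈ Cs (p + 1) (Hm D 0), dd (xv D) t = Rh y θ ρ := by
      intro ρ hρ
      have h5 : dd y (Pi.single ρ 1) ∈ Cs p (Hm D 1) :=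
        dd_mem (fun z hz i => mul_mem_Hm hz (hy.h1 i)) (single_mem_Cs hρ one_mem_Hm)
      rw [← one_smul (NP D (Fin n)) (Rh y θ ρ), ← Th_dd]
      refine exact_one p (Th_mem h1 (fun z hz t ht => mul_mem_Hm hz ht) h5) ?_
      rw [Th_chain (fun ρ hρ => h3 ρ hρ.le) h5, dd_dd hy.hc, map_zero]
    choose! t ht1 ht2 using h4
    have h5 : ∀ ρ : Finset (Fin n), ρ.card ≤ p + 1 →
        Rh y (fun ρ => if ρ.card = p + 1 then t ρ else θ ρ) ρ = Rh y θ ρ := by
      intro ρ hρ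
      refine Finset.sum_congr rfl fun i hi => ?_
      have := Finset.card_erase_add_one hi
      have h6 : ¬ (ρ.erase i).card = p + 1 := by omega
      simp only [if_neg h6]
    refine ⟨fun ρ => if ρ.card = p + 1 then t ρ else θ ρ, fun ρ => ?_, by simpa using h2,
      fun ρ hρ => ?_⟩
    · by_cases h : ρ.card = p + 1
      · simp only [if_pos h]
        exact h ▸ ht1 ρ h
      · simp only [if_neg h, h1]
    · rw [h5 ρ hρ]
      by_cases h : ρ.card = p + 1
      · simp only [if_pos h, ht2 ρ h]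
      · simp only [if_neg h, h3 ρ (by omega)]

noncomputable def cf (m : Fin n →₀ ℕ) : NP D (Fin n) →ₗ[D] NP D (Fin n) :=
  lsingle 0 ∘ₗ Finsupp.lapply m ∘ₗ (coeffLinearEquiv D).toLinearMap

lemma cf_apply (m : Fin n →₀ ℕ) (z : NP D (Fin n)) : cf m z = single 0 (z.coeff m) := rfl

lemma Th_inj {y : Fin n → NP D (Fin n)} (hy : Fr y) {θ : Finset (Fin n) → CC D n}
    (h1 : ∀ ρ, θ ρ ∈ Cs ρ.card (Hm D 0)) (h2 : θ ∅ = Pi.single ∅ 1) (p : ℕ)
    (h3 : ∀ ρ, ρ.card ≤ p → dd (xv D) (θ ρ) = Rh y θ ρ) :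
    ∀ w ∈ Cs p ⊤, Th θ w = 0 → w = 0 := by
  induction p with
  | zero =>
    intro w hw h0
    have : Cs 0 ⊤ ≤ LinearMap.eqLocus (Th θ) LinearMap.id := Cs_le fun ρ hρ z _ => by
      rw [LinearMap.mem_eqLocus, Th_single, Finset.card_eq_zero.mp hρ, h2, ← Pi.single_smul']
      simp
    exact (this hw).symm.trans h0
  | succ p ih =>
    intro w hw h0
    have h4 : ∀ m, (cf m).compLeft _ w = 0 := by
      intro m
      have h5 : (cf m).compLeft _ w ∈ Cs (p + 1) (Hm D 0) :=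
        compLeft_mem _ (fun z _ => single_mem 0 _) hw
      have h6 : Th θ ((cf m).compLeft _ w) = (cf m).compLeft _ (Th θ w) := by
        funext ρ
        change (∑ σ, cf m (w σ) • θ σ) ρ = cf m ((∑ σ, w σ • θ σ) ρ)
        rw [Finset.sum_apply, Finset.sum_apply, map_sum]
        refine Finset.sum_congr rfl fun σ _ => ?_
        have h7 : θ σ ρ = single 0 ((θ σ ρ).coeff 0) := by
          by_cases hρ : ρ.card = σ.card
          · exact Hm0_eq ((mem_Cs.mp (h1 σ) ρ).1 hρ)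
          · simp [(mem_Cs.mp (h1 σ) ρ).2 hρ]
        rw [Pi.smul_apply, Pi.smul_apply, h7, cf_apply, cf_apply, smul_eq_mul, smul_eq_mul,
          single_mul_single, zero_add, coeff_mul_single_zero]
      rw [h0, map_zero] at h6
      refine dd_inj0 hy h5 (ih (fun ρ hρ => h3 ρ (by omega)) _
        (dd_mem (y := y) (fun _ _ _ => Submodule.mem_top) h5) ?_)
      rw [← Th_chain (fun ρ hρ => h3 ρ hρ.le) h5, h6, map_zero]
    funext ρ
    refine AddMonoidAlgebra.ext (Finsupp.ext fun m => ?_)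
    have := congrArg (fun z => z.coeff 0) (congrFun (h4 m) ρ)
    simpa [cf_apply] using this

theorem rank_frame {y : Fin n → NP D (Fin n)} (hy : Fr y) {N : Submodule D (NP D (Fin n))}
    {p k : ℕ} (hN : N ≤ Hm D (k + 1)) (hN0 : ∀ z ∈ N, ∀ t ∈ Hm D 0, z * t ∈ N) :
    finrank D (WW y N p k) ≤ finrank D (WW (xv D) N p k) := by
  obtain ⟨θ, h1, h2, h3⟩ := exists_theta hy (p + 1)
  have : Module.Finite D N := Submodule.finiteDimensional_of_le hN
  refine finrank_le_of_inj (Th θ) (fun w hw => ?_) (fun w hw => Th_inj hy h1 h2 p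
    (fun ρ hρ => h3 ρ (by omega)) w (Cs_mono le_top (WW_le hy.h1 hN hw)))
  obtain ⟨_, ⟨t, ht, rfl⟩, z, hz, rfl⟩ := Submodule.mem_sup.mp hw
  rw [map_add, ← Th_chain (fun ρ hρ => h3 ρ hρ.le) ht]
  exact Submodule.add_mem_sup ⟨_, Th_mem h1 (fun z hz t ht => mul_mem_Hm hz ht) ht, rfl⟩
    (Th_mem h1 hN0 hz)

theorem rank_pull {y : Fin n → NP D (Fin n)} (hy : Fr y) {Φ : NP D (Fin n) →ₗ[D] NP D (Fin n)}
    (h : Ph y Φ) {N : Submodule D (NP D (Fin n))}
    {p k : ℕ} (hN : N ≤ Hm D (k + 1)) (hN0 : ∀ z ∈ N, ∀ t ∈ Hm D 0, z * t ∈ N) :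
    finrank D (WW (xv D) (N.comap Φ ⊓ Hm D (k + 1)) p k) ≤ finrank D (WW (xv D) N p k) := by
  refine le_trans ?_ (rank_frame hy hN hN0)
  have : Module.Finite D N := Submodule.finiteDimensional_of_le hN
  refine finrank_le_of_inj (Φ.compLeft _) (fun w hw => ?_)
    (fun w hw => h.injC (WW_le xv_mem inf_le_right hw))
  obtain ⟨_, ⟨t, ht, rfl⟩, z, hz, rfl⟩ := Submodule.mem_sup.mp hw
  rw [map_add, h.dd]
  exact Submodule.add_mem_sup ⟨_, compLeft_mem _ (fun z hz => h.mem hz) ht, rfl⟩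
    (compLeft_mem _ (fun z hz => (Submodule.mem_inf.mp hz).1) hz)

lemma finrank_pull {y : Fin n → NP D (Fin n)} {Φ : NP D (Fin n) →ₗ[D] NP D (Fin n)}
    (h : Ph y Φ) {N : Submodule D (NP D (Fin n))} {d : ℕ} (hN : N ≤ Hm D d) :
    finrank D (N.comap Φ ⊓ Hm D d : Submodule D _) = finrank D N := by
  have : Module.Finite D N := Submodule.finiteDimensional_of_le hN
  have : Module.Finite D (N.comap Φ ⊓ Hm D d : Submodule D _) :=
    Submodule.finiteDimensional_of_le inf_le_right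
  refine le_antisymm (finrank_le_of_inj Φ (fun v hv => hv.1) fun v hv => h.inj d v hv.2) ?_
  refine le_trans (Submodule.finrank_mono fun v hv => ?_) (Submodule.finrank_map_le Φ _)
  have h1 := hN hv
  rw [← h.map d] at h1
  obtain ⟨u, hu, rfl⟩ := h1
  exact ⟨u, ⟨hv, hu⟩, rfl⟩

end
end Vale.Agent.P200
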