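import Vale.Agent.P200.NC

/-! Homogeneous regular families and Hilbert functions. -/

namespace Vale.Agent.P200

open MvPolynomial Module

section
variable {K σ ι : Type*} [Field K]

lemma Hm_eq (d : ℕ) : (Hm K d : Submodule K (MvPolynomial σ K)) = homogeneousSubmodule σ K d :=
  (homogeneousSubmodule_eq_finsupp_supported σ K d).symm

lemma pr_eq (d : ℕ) (p : MvPolynomial σ K) : pr K d p = homogeneousComponent d p := by
  ext m
  rw [coeff_homogeneousComponent]
  exact coeff_pr d p m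

def Homog (J : Ideal (MvPolynomial σ K)) : Prop := ∀ p ∈ J, ∀ d, pr K d p ∈ J

def Nzd (J : Ideal (MvPolynomial σ K)) (g : MvPolynomial σ K) : Prop := ∀ r, g * r ∈ J → r ∈ J

lemma mem_of_pr {J : Ideal (MvPolynomial σ K)} {p : MvPolynomial σ K} (h : ∀ d, pr K d p ∈ J) :
    p ∈ J := by
  rw [← sum_homogeneousComponent p]
  exact J.sum_mem fun i _ => pr_eq i p ▸ h i

lemma mem_sup_span {J : Ideal (MvPolynomial σ K)} {g p : MvPolynomial σ K} :
    p ∈ J ⊔ Ideal.span {g} ↔ ∃ j ∈ J, ∃ s, p = j + g * s := by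
  rw [Submodule.mem_sup]
  constructor
  · rintro ⟨j, hj, z, hz, rfl⟩
    obtain ⟨a, rfl⟩ := Ideal.mem_span_singleton'.mp hz
    exact ⟨j, hj, a, by ring⟩
  · rintro ⟨j, hj, s, rfl⟩
    exact ⟨j, hj, g * s, Ideal.mem_span_singleton'.mpr ⟨s, by ring⟩, rfl⟩

lemma pr_gmul {g : MvPolynomial σ K} {δ : ℕ} (hg : g ∈ Hm K δ) (s : MvPolynomial σ K) (d : ℕ) :
    pr K d (g * s) = if δ ≤ d then g * pr K (d - δ) s else 0 := by
  split_ifs with h
  · rw [← pr_mul_left hg, Nat.sub_add_cancel h]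
  · exact pr_mul_left_lt hg s (by omega)

lemma Homog.sup_span {J : Ideal (MvPolynomial σ K)} (hJ : Homog J) {g : MvPolynomial σ K} {δ : ℕ}
    (hg : g ∈ Hm K δ) : Homog (J ⊔ Ideal.span {g}) := by
  intro p hp d
  obtain ⟨j, hj, s, rfl⟩ := mem_sup_span.mp hp
  rw [map_add, pr_gmul hg]
  split_ifs
  · exact mem_sup_span.mpr ⟨_, hJ j hj d, _, rfl⟩
  · exact mem_sup_span.mpr ⟨_, hJ j hj d, 0, by simp⟩

lemma swap1 {J : Ideal (MvPolynomial σ K)} (hJ : Homog J) {g h : MvPolynomial σ K} {δ δ' : ℕ}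
    (hg : g ∈ Hm K δ) (hδ : 0 < δ) (hh : h ∈ Hm K δ') (h1 : Nzd J g)
    (h2 : Nzd (J ⊔ Ideal.span {g}) h) : Nzd J h := by
  have key : ∀ d, ∀ r ∈ Hm K d, h * r ∈ J → r ∈ J := by
    intro d
    induction d using Nat.strong_induction_on with
    | _ d ih =>
      intro r hr hhr
      obtain ⟨j, hj, s, hs⟩ := mem_sup_span.mp (h2 r (Ideal.mem_sup_left hhr))
      have h3 := congrArg (pr K d) hs
      rw [pr_self hr, map_add, pr_gmul hg] at h3
      split_ifs at h3 with hd
      · have h4 : pr K (d - δ) s ∈ J := by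
          apply ih (d - δ) (by omega) _ (pr_mem _ _)
          apply h1
          have : g * (h * pr K (d - δ) s) = h * r - h * pr K d j := by rw [h3]; ring
          rw [this]
          exact J.sub_mem hhr (J.mul_mem_left _ (hJ j hj d))
        rw [h3]
        exact J.add_mem (hJ j hj d) (J.mul_mem_left _ h4)
      · rw [h3, add_zero]
        exact hJ j hj d
  intro r hr
  refine mem_of_pr fun d => key d _ (pr_mem _ _) ?_
  rw [← pr_mul_left hh]
  exact hJ _ hr _

lemma swap2 {J : Ideal (MvPolynomial σ K)} {g h : MvPolynomial σ K} (h1 : Nzd J g)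
    (h2 : Nzd (J ⊔ Ideal.span {g}) h) : Nzd (J ⊔ Ideal.span {h}) g := by
  intro r hr
  obtain ⟨j, hj, s, hs⟩ := mem_sup_span.mp hr
  obtain ⟨j', hj', s', hs'⟩ := mem_sup_span.mp
    (h2 s (mem_sup_span.mpr ⟨-j, J.neg_mem hj, r, by rw [hs]; ring⟩))
  refine mem_sup_span.mpr ⟨r - h * s', h1 _ ?_, s', by ring⟩
  have : g * (r - h * s') = j + h * j' := by rw [mul_sub, hs, hs']; ring
  rw [this]
  exact J.add_mem hj (J.mul_mem_left _ hj')

noncomputable def JJ (g : ι → MvPolynomial σ K) (s : Finset ι) : Ideal (MvPolynomial σ K) :=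
  Ideal.span (g '' (s : Set ι))

lemma JJ_empty (g : ι → MvPolynomial σ K) : JJ g ∅ = ⊥ := by simp [JJ]

lemma JJ_insert [DecidableEq ι] (g : ι → MvPolynomial σ K) (s : Finset ι) (q : ι) :
    JJ g (insert q s) = JJ g s ⊔ Ideal.span {g q} := by
  rw [JJ, Finset.coe_insert, Set.image_insert_eq, Ideal.span_insert, sup_comm, JJ]

lemma JJ_mono (g : ι → MvPolynomial σ K) {s t : Finset ι} (h : s ⊆ t) : JJ g s ≤ JJ g t :=
  Ideal.span_mono (Set.image_mono h)

lemma mem_JJ (g : ι → MvPolynomial σ K) {s : Finset ι} {i : ι} (h : i ∈ s) : g i ∈ JJ g s :=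
  Ideal.subset_span ⟨i, h, rfl⟩

lemma JJ_congr {g g' : ι → MvPolynomial σ K} {s : Finset ι} (h : ∀ i ∈ s, g i = g' i) :
    JJ g s = JJ g' s := by
  rw [JJ, JJ, Set.image_congr h]

/-- all members homogeneous of positive degree -/
def Pos (g : ι → MvPolynomial σ K) (s : Finset ι) : Prop :=
  ∀ i ∈ s, ∃ δ, 0 < δ ∧ g i ∈ Hm K δ

lemma homog_JJ {g : ι → MvPolynomial σ K} {s : Finset ι} (h : Pos g s) : Homog (JJ g s) := by
  classical
  induction s using Finset.induction_on with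
  | empty =>
    intro p hp d
    rw [JJ_empty, Ideal.mem_bot] at hp
    simp [hp]
  | insert q s _ ih =>
    rw [JJ_insert]
    obtain ⟨δ, _, hδ⟩ := h q (Finset.mem_insert_self _ _)
    exact (ih fun i hi => h i (Finset.mem_insert_of_mem hi)).sup_span hδ

def Reg (g : ι → MvPolynomial σ K) (s : Finset ι) : Prop :=
  ∀ t ⊆ s, ∀ q ∈ s, q ∉ t → Nzd (JJ g t) (g q)

lemma Reg.mono {g : ι → MvPolynomial σ K} {s t : Finset ι} (h : Reg g s) (hts : t ⊆ s) :
    Reg g t := fun u hu q hq hqu => h u (hu.trans hts) q (hts hq) hqu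

lemma Pos.mono {g : ι → MvPolynomial σ K} {s t : Finset ι} (h : Pos g s) (hts : t ⊆ s) :
    Pos g t := fun i hi => h i (hts hi)

lemma Reg.congr {g g' : ι → MvPolynomial σ K} {s : Finset ι} (h : Reg g s)
    (he : ∀ i ∈ s, g i = g' i) : Reg g' s := by
  intro t ht q hq hqt
  rw [← he q hq, ← JJ_congr (g := g) fun i hi => he i (ht hi)]
  exact h t ht q hq hqt

lemma Reg.insert [DecidableEq ι] {g : ι → MvPolynomial σ K} {s : Finset ι} {p : ι} (h : Reg g s)
    (hp : Pos g (insert p s)) (hn : Nzd (JJ g s) (g p)) : Reg g (insert p s) := by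
  obtain ⟨δp, _, hδp⟩ := hp p (Finset.mem_insert_self _ _)
  have hps : Pos g s := hp.mono (Finset.subset_insert _ _)
  have key : ∀ k, ∀ t ⊆ s, s.card = t.card + k → Nzd (JJ g t) (g p) := by
    intro k
    induction k with
    | zero =>
      intro t ht hc
      rw [Finset.eq_of_subset_of_card_le ht (by omega)]
      exact hn
    | succ k ih =>
      intro t ht hc
      obtain ⟨q, hq, hqt⟩ := Finset.exists_mem_notMem_of_card_lt_card (s := t) (t := s) (by omega)
      obtain ⟨δ, hδ0, hδ⟩ := hps q hq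
      have := ih (Insert.insert q t) (Finset.insert_subset hq ht)
        (by rw [Finset.card_insert_of_notMem hqt]; omega)
      rw [JJ_insert] at this
      exact swap1 (homog_JJ (hps.mono ht)) hδ hδ0 hδp (h t ht q hq hqt) this
  have key2 : ∀ t ⊆ s, Nzd (JJ g t) (g p) := fun t ht =>
    key (s.card - t.card) t ht (by have := Finset.card_le_card ht; omega)
  intro t ht q hq hqt
  by_cases hpt : p ∈ t
  · have hq' : q ∈ s := by
      rcases Finset.mem_insert.mp hq with rfl | h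
      · exact absurd hpt hqt
      · exact h
    have ht' : t.erase p ⊆ s := Finset.subset_insert_iff.mp ht
    have hqt' : q ∉ t.erase p := fun hh => hqt (Finset.mem_of_mem_erase hh)
    rw [← Finset.insert_erase hpt, JJ_insert]
    apply swap2 (h _ ht' q hq' hqt')
    rw [← JJ_insert]
    exact key2 _ (Finset.insert_subset hq' ht')
  · have ht' : t ⊆ s := (Finset.subset_insert_iff_of_notMem hpt).mp ht
    rcases Finset.mem_insert.mp hq with rfl | hq'
    · exact key2 t ht'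
    · exact h t ht' q hq' hqt

lemma one_notMem_JJ {g : ι → MvPolynomial σ K} {s : Finset ι} (h : Pos g s) :
    (1 : MvPolynomial σ K) ∉ JJ g s := by
  have : ∀ p ∈ JJ g s, pr K 0 p = 0 := by
    intro p hp
    have h2 : ∀ r, pr K 0 (p * r) = 0 := by
      induction hp using Submodule.span_induction with
      | mem x hx =>
        obtain ⟨i, hi, rfl⟩ := hx
        obtain ⟨δ, h0, hδ⟩ := h i hi
        exact fun r => pr_mul_left_lt hδ r h0
      | zero => simp
      | add x y _ _ hx hy => intro r; rw [add_mul, map_add, hx, hy, add_zero]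
      | smul a x _ hx => intro r; rw [smul_eq_mul, mul_comm a, mul_assoc, hx]
    simpa using h2 1
  intro h1
  have h2 := this 1 h1
  rw [pr_self one_mem_Hm] at h2
  exact one_ne_zero h2

instance finHm [Finite σ] (d : ℕ) : Module.Finite K (Hm K d : Submodule K (MvPolynomial σ K)) := by
  rw [Hm_eq]
  exact Module.Finite.iff_fg.mpr (homogeneousSubmodule_fg σ K d)

noncomputable def pc (J : Ideal (MvPolynomial σ K)) (d : ℕ) : Submodule K (MvPolynomial σ K) :=
  J.restrictScalars K ⊓ Hm K d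

instance finPc [Finite σ] (J : Ideal (MvPolynomial σ K)) (d : ℕ) : Module.Finite K (pc J d) :=
  Submodule.finiteDimensional_of_le (inf_le_right : pc J d ≤ Hm K d)

noncomputable def hf (J : Ideal (MvPolynomial σ K)) (d : ℕ) : ℤ :=
  (finrank K (Hm K d : Submodule K (MvPolynomial σ K)) : ℤ) - finrank K (pc J d)

lemma pc_sup_lt {J : Ideal (MvPolynomial σ K)} (hJ : Homog J) {g : MvPolynomial σ K} {δ d : ℕ}
    (hg : g ∈ Hm K δ) (hd : d < δ) : pc (J ⊔ Ideal.span {g}) d = pc J d := by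
  refine le_antisymm ?_ (inf_le_inf_right _ fun x hx => Ideal.mem_sup_left hx)
  rintro p ⟨hp, hpd⟩
  obtain ⟨j, hj, s, hs⟩ := mem_sup_span.mp hp
  have h3 := congrArg (pr K d) hs
  rw [pr_self hpd, map_add, pr_mul_left_lt hg s hd, add_zero] at h3
  exact ⟨h3 ▸ hJ j hj d, hpd⟩

lemma hf_sup [Finite σ] {J : Ideal (MvPolynomial σ K)} (hJ : Homog J) {g : MvPolynomial σ K}
    {δ : ℕ} (hg : g ∈ Hm K δ) (hn : Nzd J g) (h1 : (1 : MvPolynomial σ K) ∉ J) (d : ℕ) :
    hf (J ⊔ Ideal.span {g}) (d + δ) = hf J (d + δ) - hf J d := by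
  have hg0 : g ≠ 0 := by
    rintro rfl
    exact h1 (hn 1 (by simp))
  have hinj : Function.Injective (LinearMap.mulLeft K g) := mul_right_injective₀ hg0
  have e1 : pc (J ⊔ Ideal.span {g}) (d + δ) =
      pc J (d + δ) ⊔ (Hm K d).map (LinearMap.mulLeft K g) := by
    apply le_antisymm
    · rintro p ⟨hp, hpd⟩
      obtain ⟨j, hj, s, hs⟩ := mem_sup_span.mp hp
      have h3 := congrArg (pr K (d + δ)) hs
      rw [pr_self hpd, map_add, pr_mul_left hg] at h3
      rw [h3]
      exact Submodule.add_mem_sup ⟨hJ j hj _, pr_mem _ _⟩ ⟨_, pr_mem _ _, rfl⟩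
    · refine sup_le (inf_le_inf_right _ fun x hx => Ideal.mem_sup_left hx) ?_
      rintro _ ⟨s, hs, rfl⟩
      refine ⟨mem_sup_span.mpr ⟨0, J.zero_mem, s, by simp⟩, ?_⟩
      rw [add_comm]
      exact mul_mem_Hm hg hs
  have e2 : pc J (d + δ) ⊓ (Hm K d).map (LinearMap.mulLeft K g) =
      (pc J d).map (LinearMap.mulLeft K g) := by
    apply le_antisymm
    · rintro _ ⟨⟨hp, _⟩, s, hs, rfl⟩
      exact ⟨s, ⟨hn s hp, hs⟩, rfl⟩
    · rintro _ ⟨s, ⟨hs1, hs2⟩, rfl⟩
      refine ⟨⟨J.mul_mem_left _ hs1, ?_⟩, s, hs2, rfl⟩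
      rw [add_comm]
      exact mul_mem_Hm hg hs2
  have e3 := Submodule.finrank_sup_add_finrank_inf_eq (pc J (d + δ))
    ((Hm K d).map (LinearMap.mulLeft K g))
  rw [← e1, e2, ← (Submodule.equivMapOfInjective _ hinj _).finrank_eq,
    ← (Submodule.equivMapOfInjective _ hinj _).finrank_eq] at e3
  have e4 : finrank K (pc (J ⊔ Ideal.span {g}) (d + δ)) + finrank K (pc J d) =
      finrank K (pc J (d + δ)) + finrank K (Hm K d : Submodule K (MvPolynomial σ K)) := e3
  simp only [hf]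
  omega

noncomputable def HS (J : Ideal (MvPolynomial σ K)) : PowerSeries ℤ := PowerSeries.mk (hf J)

lemma HS_sup [Finite σ] {J : Ideal (MvPolynomial σ K)} (hJ : Homog J) {g : MvPolynomial σ K}
    {δ : ℕ} (hg : g ∈ Hm K δ) (hn : Nzd J g) (h1 : (1 : MvPolynomial σ K) ∉ J) :
    HS (J ⊔ Ideal.span {g}) = (1 - PowerSeries.X ^ δ) * HS J := by
  ext d
  rw [sub_mul, one_mul, map_sub, PowerSeries.coeff_X_pow_mul']
  simp only [HS, PowerSeries.coeff_mk]
  split_ifs with h
  · have := hf_sup hJ hg hn h1 (d - δ)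
    rwa [Nat.sub_add_cancel h] at this
  · rw [hf, hf, pc_sup_lt hJ hg (not_le.mp h), sub_zero]

lemma HS_JJ [Finite σ] {g : ι → MvPolynomial σ K} (δ : ι → ℕ) {s : Finset ι} (h : Reg g s)
    (hδ : ∀ i ∈ s, 0 < δ i ∧ g i ∈ Hm K (δ i)) :
    HS (JJ g s) = (∏ i ∈ s, (1 - PowerSeries.X ^ δ i)) * HS (⊥ : Ideal (MvPolynomial σ K)) := by
  classical
  induction s using Finset.induction_on with
  | empty => simp [JJ_empty]
  | insert q s hq ih =>
    have hp : Pos g s := fun i hi => ⟨δ i, hδ i (Finset.mem_insert_of_mem hi)⟩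
    rw [JJ_insert, HS_sup (homog_JJ hp) (hδ q (Finset.mem_insert_self _ _)).2
      (h s (Finset.subset_insert _ _) q (Finset.mem_insert_self _ _) hq) (one_notMem_JJ hp),
      ih (h.mono (Finset.subset_insert _ _)) (fun i hi => hδ i (Finset.mem_insert_of_mem hi)),
      Finset.prod_insert hq, mul_assoc]

end

section
variable {τ : Type*} [Fintype τ] [DecidableEq τ]

noncomputable def AD (τ : Type*) [Fintype τ] [DecidableEq τ] (d : ℕ) : Finset (τ →₀ ℕ) :=
  Finset.univ.finsuppAntidiag d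

lemma mem_AD {d : ℕ} {m : τ →₀ ℕ} : m ∈ AD τ d ↔ m.degree = d := by
  simp [AD, Finset.mem_finsuppAntidiag, Finsupp.degree_eq_sum]

lemma card_AD {k : ℕ} (hk : Fintype.card τ = k + 1) (d : ℕ) :
    (AD τ d).card = (d + k).choose k := by
  rw [AD, Finset.card_finsuppAntidiag_nat_eq_choose, Finset.card_univ, hk,
    show k + 1 + d - 1 = d + k by omega, Nat.choose_symm_add]

lemma finrank_Hm {D : Type*} [DivisionRing D] (d : ℕ) :
    finrank D (Hm D d : Submodule D (NP D τ)) = (AD τ d).card := by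
  have : {m : τ →₀ ℕ | m.degree = d} = (AD τ d : Set (τ →₀ ℕ)) := by
    ext m
    simp [mem_AD]
  rw [Hm, this, (AddMonoidAlgebra.supportedEquivFinsupp _).finrank_eq]
  simp

lemma HS_bot {K : Type*} [Field K] {k : ℕ} (hk : Fintype.card τ = k + 1) :
    HS (⊥ : Ideal (MvPolynomial τ K)) = (PowerSeries.mk 1) ^ (k + 1) := by
  rw [PowerSeries.mk_one_pow_eq_mk_choose_add]
  ext d
  have : pc (⊥ : Ideal (MvPolynomial τ K)) d = ⊥ := by simp [pc]
  simp only [HS, PowerSeries.coeff_mk]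
  rw [hf, this, finrank_bot, Nat.cast_zero, sub_zero, finrank_Hm, card_AD hk, add_comm]

end
end Vale.Agent.P200
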