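import Vale.Agent.P200.Cliff
import Vale.Agent.P200.Hilb
import Vale.Agent.P200.HBT

/-! The graded Clifford algebra spanned by the model generators. -/

namespace Vale.Agent.P200

open AddMonoidAlgebra Module

lemma filter_mem_sublist {α : Type*} [DecidableEq α] {l' l : List α} (h : l'.Sublist l)
    (hl : l.Nodup) : l.filter (fun p => decide (p ∈ l')) = l' := by
  induction h with
  | slnil => rfl
  | @cons l1 l2 a h ih =>
    rw [List.nodup_cons] at hl
    have : a ∉ l1 := fun hh => hl.1 (h.subset hh)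
    rw [List.filter_cons_of_neg (by simpa using this), ih hl.2]
  | @cons_cons l1 l2 a h ih =>
    rw [List.nodup_cons] at hl
    rw [List.filter_cons_of_pos (by simp)]
    congr 1
    rw [← ih hl.2]
    rw [ih hl.2]
    conv_rhs => rw [← ih hl.2]
    apply List.filter_congr
    intro x hx
    have : x ≠ a := by rintro rfl; exact hl.1 hx
    simp [this]

section
variable {K D Ω τ P : Type*} [Field K] [DivisionRing D] [Algebra K D] [Ring Ω] [Algebra K Ω]
  [Module D Ω] [IsScalarTower K D Ω] [IsScalarTower D Ω Ω] [Fintype P] [DecidableEq P]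
  {β : P → P → P → K} {E : P → NP Ω τ} {Cm : (P →₀ ℕ) → NP Ω τ}

variable (D E Cm) in
noncomputable def Gl (l : List P) : Submodule D (NP Ω τ) :=
  Submodule.span D {x | ∃ μ l', List.Sublist l' l ∧ x = Cm μ * (l'.map E).prod}

variable (D) in
noncomputable def lm (a : NP Ω τ) (h : ∀ (d : D) x, a * (d • x) = d • (a * x)) :
    Module.End D (NP Ω τ) where
  toFun x := a * x
  map_add' := mul_add a
  map_smul' := h

variable (D) in
noncomputable def rm (b : NP Ω τ) : Module.End D (NP Ω τ) where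
  toFun x := x * b
  map_add' x y := add_mul x y b
  map_smul' d x := smul_mul_assoc d x b

lemma GC.C_smul (h : GC D β E Cm) (μ : P →₀ ℕ) (d : D) (x : NP Ω τ) :
    Cm μ * (d • x) = d • (Cm μ * x) := by
  rw [h.C_comm, smul_mul_assoc, ← h.C_comm]

lemma GC.Gl_C (h : GC D β E Cm) {l : List P} (ν : P →₀ ℕ) {x : NP Ω τ} (hx : x ∈ Gl D E Cm l) :
    Cm ν * x ∈ Gl D E Cm l := by
  have : Gl D E Cm l ≤ (Gl D E Cm l).comap (lm D _ (h.C_smul ν)) := by
    refine Submodule.span_le.mpr ?_
    rintro _ ⟨μ, l', hl, rfl⟩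
    refine Submodule.subset_span ⟨ν + μ, l', hl, ?_⟩
    rw [h.C_add, mul_assoc]
    rfl
  exact this hx

lemma GC.Gl_B (h : GC D β E Cm) {l : List P} (b : P → K) {x : NP Ω τ} (hx : x ∈ Gl D E Cm l) :
    (∑ q, b q • Cm (Finsupp.single q 1)) * x ∈ Gl D E Cm l := by
  rw [Finset.sum_mul]
  refine Submodule.sum_mem _ fun q _ => ?_
  rw [smul_mul_assoc]
  exact Submodule.smul_of_tower_mem _ _ (h.Gl_C _ hx)

lemma GC.Gl_cons (h : GC D β E Cm) (q : P) (l : List P) :
    Gl D E Cm (q :: l) = Gl D E Cm l ⊔ (Gl D E Cm l).map (lm D _ (h.E_smul q)) := by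
  apply le_antisymm
  · refine Submodule.span_le.mpr ?_
    rintro _ ⟨μ, l', hl, rfl⟩
    rcases List.sublist_cons_iff.mp hl with h1 | ⟨r, rfl, h1⟩
    · exact Submodule.mem_sup_left (Submodule.subset_span ⟨μ, l', h1, rfl⟩)
    · refine Submodule.mem_sup_right ⟨_, Submodule.subset_span ⟨μ, r, h1, rfl⟩, ?_⟩
      change E q * _ = _
      rw [List.map_cons, List.prod_cons, ← mul_assoc, ← h.C_comm, mul_assoc]
  · refine sup_le (Submodule.span_mono ?_) ?_
    · rintro _ ⟨μ, l', hl, rfl⟩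
      exact ⟨μ, l', hl.cons q, rfl⟩
    · rw [Submodule.map_le_iff_le_comap]
      refine Submodule.span_le.mpr ?_
      rintro _ ⟨μ, l', hl, rfl⟩
      refine Submodule.subset_span ⟨μ, q :: l', hl.cons_cons q, ?_⟩
      change E q * _ = _
      rw [List.map_cons, List.prod_cons, ← mul_assoc, ← h.C_comm, mul_assoc]

lemma GC.Gl_E (h : GC D β E Cm) {l : List P} {p : P} (hp : p ∈ l) :
    ∀ x ∈ Gl D E Cm l, E p * x ∈ Gl D E Cm l := by
  induction l with
  | nil => simp at hp
  | cons q l ih =>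
    intro x hx
    rw [h.Gl_cons] at hx ⊢
    obtain ⟨a, ha, _, ⟨b, hb, rfl⟩, rfl⟩ := Submodule.mem_sup.mp hx
    change E p * (a + E q * b) ∈ _
    rw [mul_add]
    rcases List.mem_cons.mp hp with rfl | hp'
    · refine Submodule.add_mem _ (Submodule.mem_sup_right ⟨a, ha, rfl⟩) (Submodule.mem_sup_left ?_)
      rw [← mul_assoc, h.E_sq]
      exact h.Gl_B _ hb
    · refine Submodule.add_mem _ (Submodule.mem_sup_left (ih hp' a ha)) ?_
      have : E p * (E q * b) = (E p * E q + E q * E p) * b - E q * (E p * b) := by noncomm_ring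
      rw [this, h.E_anti, add_mul]
      exact Submodule.sub_mem _ (Submodule.mem_sup_left (Submodule.add_mem _ (h.Gl_B _ hb)
        (h.Gl_B _ hb))) (Submodule.mem_sup_right ⟨_, ih hp' b hb, rfl⟩)

variable (D E Cm) in
noncomputable def UU : Submodule D (NP Ω τ) := Gl D E Cm Finset.univ.toList

lemma GC.U_E (h : GC D β E Cm) (p : P) {x : NP Ω τ} (hx : x ∈ UU D E Cm) : E p * x ∈ UU D E Cm :=
  h.Gl_E (by simp) x hx

lemma GC.U_C (h : GC D β E Cm) (μ : P →₀ ℕ) {x : NP Ω τ} (hx : x ∈ UU D E Cm) :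
    Cm μ * x ∈ UU D E Cm := h.Gl_C μ hx

lemma GC.one_mem (h : GC D β E Cm) : (1 : NP Ω τ) ∈ UU D E Cm :=
  Submodule.subset_span ⟨0, [], List.nil_sublist _, by simp [h.C_zero]⟩

lemma GC.mul_mem (h : GC D β E Cm) {x y : NP Ω τ} (hx : x ∈ UU D E Cm) (hy : y ∈ UU D E Cm) :
    x * y ∈ UU D E Cm := by
  have : UU D E Cm ≤ (UU D E Cm).comap (rm D y) := by
    refine Submodule.span_le.mpr ?_
    rintro _ ⟨μ, l', -, rfl⟩
    change Cm μ * (l'.map E).prod * y ∈ UU D E Cm
    rw [mul_assoc]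
    apply h.U_C
    induction l' with
    | nil => simpa using hy
    | cons p l ih =>
      rw [List.map_cons, List.prod_cons, mul_assoc]
      exact h.U_E p ih
  exact this hx

lemma GC.gen_mem (h : GC D β E Cm) (μ : P →₀ ℕ) (l : List P) :
    Cm μ * (l.map E).prod ∈ Hm D (2 * μ.degree + l.length) := by
  apply mul_mem_Hm (h.C_mem μ)
  induction l with
  | nil => simpa using one_mem_Hm
  | cons p l ih =>
    rw [List.map_cons, List.prod_cons, List.length_cons, add_comm]
    exact mul_mem_Hm (h.E_mem p) ih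

lemma GC.pr_mem_U (h : GC D β E Cm) (e : ℕ) {x : NP Ω τ} (hx : x ∈ UU D E Cm) :
    pr D e x ∈ UU D E Cm := by
  have : UU D E Cm ≤ (UU D E Cm).comap (pr D e) := by
    refine Submodule.span_le.mpr ?_
    rintro _ ⟨μ, l', hl, rfl⟩
    change pr D e _ ∈ UU D E Cm
    rw [pr_of_mem (h.gen_mem μ l')]
    split_ifs
    · exact Submodule.subset_span ⟨μ, l', hl, rfl⟩
    · exact Submodule.zero_mem _
  exact this hx

lemma GC.finrank_U (h : GC D β E Cm) (e : ℕ) :
    Module.Finite D (UU D E Cm ⊓ Hm D e : Submodule D (NP Ω τ)) ∧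
      finrank D (UU D E Cm ⊓ Hm D e : Submodule D (NP Ω τ)) ≤ (AD P e).card := by
  classical
  let g : (P →₀ ℕ) → NP Ω τ := fun ν => Cm (ν.mapRange (· / 2) (by simp)) *
    ((Finset.univ.toList.filter (fun p => decide (ν p % 2 = 1))).map E).prod
  have hl : ∀ l : List P, (∀ p, (l.map fun p => Finsupp.single p 1).sum p = l.count p) ∧
      ((l.map fun p => Finsupp.single p 1).sum).degree = l.length := by
    intro l
    induction l with
    | nil => simp
    | cons q l ih =>
      refine ⟨fun p => ?_, ?_⟩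
      · rw [List.map_cons, List.sum_cons, Finsupp.add_apply, ih.1, List.count_cons,
          Finsupp.single_apply, add_comm]
        simp
      · rw [List.map_cons, List.sum_cons, map_add, ih.2]
        simp [add_comm]
  have h1 : UU D E Cm ≤ (Submodule.span D ((AD P e).image g : Set (NP Ω τ))).comap (pr D e) := by
    refine Submodule.span_le.mpr ?_
    rintro _ ⟨μ, l', hl', rfl⟩
    change pr D e _ ∈ Submodule.span D _
    rw [pr_of_mem (h.gen_mem μ l')]
    split_ifs with he
    · apply Submodule.subset_span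
      rw [Finset.coe_image]
      have hn : l'.Nodup := hl'.nodup (Finset.nodup_toList _)
      have hc : ∀ p, l'.count p = if p ∈ l' then 1 else 0 := fun p => hn.count
      refine ⟨2 • μ + (l'.map fun p => Finsupp.single p 1).sum, ?_, ?_⟩
      · rw [Finset.mem_coe, mem_AD, map_add, (hl l').2, he, map_nsmul, smul_eq_mul]
      · simp only [g]
        congr 2
        · ext p
          rw [Finsupp.mapRange_apply, Finsupp.add_apply, (hl l').1, hc]
          simp only [Finsupp.smul_apply, smul_eq_mul]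
          split_ifs <;> omega
        · congr 1
          conv_rhs => rw [← filter_mem_sublist hl' (Finset.nodup_toList _)]
          apply List.filter_congr
          intro p _
          apply decide_eq_decide.mpr
          rw [Finsupp.add_apply, (hl l').1, hc]
          simp only [Finsupp.smul_apply, smul_eq_mul]
          split_ifs with hp
          · simp only [hp, iff_true]; omega
          · simp only [hp, iff_false]; omega
    · exact Submodule.zero_mem _
  have h2 : UU D E Cm ⊓ Hm D e ≤ Submodule.span D ((AD P e).image g : Set (NP Ω τ)) := by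
    rintro x ⟨hx1, hx2⟩
    have := h1 hx1
    rwa [Submodule.mem_comap, pr_self hx2] at this
  refine ⟨Submodule.finiteDimensional_of_le h2, (Submodule.finrank_mono h2).trans ?_⟩
  exact (finrank_span_finset_le_card _).trans Finset.card_image_le

variable (E) in
def G0 : Set (NP Ω τ) := {x | ∃ l', List.Sublist l' Finset.univ.toList ∧ x = (l'.map E).prod}

omit [DecidableEq P] in
lemma G0_finite : (G0 E).Finite := by
  refine ((List.finite_toSet (Finset.univ.toList (α := P)).sublists).image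
    (fun l => (l.map E).prod)).subset ?_
  rintro _ ⟨l', hl, rfl⟩
  exact ⟨l', List.mem_sublists.mpr hl, rfl⟩

noncomputable def GC.cop (h : GC D β E Cm) (q : P) : Module.End D (NP Ω τ) :=
  lm D _ (h.C_smul (Finsupp.single q 1))

lemma GC.cop_comm (h : GC D β E Cm) (p q : P) : Commute (h.cop p) (h.cop q) := by
  refine LinearMap.ext fun x => ?_
  change Cm _ * (Cm _ * x) = Cm _ * (Cm _ * x)
  rw [← mul_assoc, h.C_comm, mul_assoc]

lemma GC.U_le (h : GC D β E Cm) (M : Submodule D (NP Ω τ)) (h1 : G0 E ⊆ M)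
    (h2 : InvT (Set.range h.cop) M) : UU D E Cm ≤ M := by
  refine Submodule.span_le.mpr ?_
  rintro _ ⟨μ, l', hl, rfl⟩
  have h3 : (l'.map E).prod ∈ M := h1 ⟨l', hl, rfl⟩
  generalize (l'.map E).prod = x at h3
  induction μ using Finsupp.induction with
  | zero => simpa [h.C_zero] using h3
  | single_add q n μ _ _ ih =>
    rw [h.C_add, mul_assoc]
    clear * - h h2 ih
    induction n with
    | zero => simpa [h.C_zero] using ih
    | succ n ih2 =>
      rw [add_comm n, Finsupp.single_add, h.C_add, mul_assoc]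
      exact h2 _ ⟨q, rfl⟩ _ ih2

noncomputable def GC.Us (h : GC D β E Cm) : Subalgebra K (NP Ω τ) where
  carrier := UU D E Cm
  mul_mem' := h.mul_mem
  add_mem' := Submodule.add_mem _
  algebraMap_mem' k := by
    rw [Algebra.algebraMap_eq_smul_one]
    exact Submodule.smul_of_tower_mem _ k h.one_mem

lemma GC.mem_Us (h : GC D β E Cm) {x : NP Ω τ} : x ∈ h.Us ↔ x ∈ UU D E Cm := Iff.rfl

noncomputable def GC.toSub (h : GC D β E Cm) (I : Ideal h.Us) : Submodule D (NP Ω τ) where
  carrier := {x | ∃ hx : x ∈ h.Us, (⟨x, hx⟩ : h.Us) ∈ I}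
  add_mem' := fun ⟨hx, hx'⟩ ⟨hy, hy'⟩ => ⟨add_mem hx hy, I.add_mem hx' hy'⟩
  zero_mem' := ⟨zero_mem _, I.zero_mem⟩
  smul_mem' := by
    rintro d x ⟨hx, hx'⟩
    have h1 : d • (1 : NP Ω τ) ∈ h.Us := h.mem_Us.mpr ((UU D E Cm).smul_mem d h.one_mem)
    have h2 : d • x ∈ h.Us := h.mem_Us.mpr ((UU D E Cm).smul_mem d (h.mem_Us.mp hx))
    have h5 : (⟨d • x, h2⟩ : h.Us) = ⟨d • 1, h1⟩ * ⟨x, hx⟩ := Subtype.ext (smul_one_mul d x).symm
    refine ⟨h2, ?_⟩
    rw [h5]
    exact I.mul_mem_left _ hx'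

lemma GC.mem_toSub (h : GC D β E Cm) (I : Ideal h.Us) (x : NP Ω τ) :
    x ∈ h.toSub I ↔ ∃ hx : x ∈ h.Us, (⟨x, hx⟩ : h.Us) ∈ I := Iff.rfl

lemma GC.toSub_mono (h : GC D β E Cm) {I J : Ideal h.Us} (hIJ : I ≤ J) :
    h.toSub I ≤ h.toSub J := by
  intro x hx
  obtain ⟨hx, hx'⟩ := (h.mem_toSub _ _).mp hx
  exact (h.mem_toSub _ _).mpr ⟨hx, hIJ hx'⟩

lemma GC.toSub_le (h : GC D β E Cm) (I : Ideal h.Us) : h.toSub I ≤ UU D E Cm := by
  intro x hx
  obtain ⟨hx, hx'⟩ := (h.mem_toSub _ _).mp hx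
  exact h.mem_Us.mp hx

lemma GC.toSub_inv (h : GC D β E Cm) (I : Ideal h.Us) : InvT (Set.range h.cop) (h.toSub I) := by
  rintro _ ⟨q, rfl⟩ x hx
  obtain ⟨hx, hx'⟩ := (h.mem_toSub _ _).mp hx
  have hq : Cm (Finsupp.single q 1) ∈ UU D E Cm := by simpa using h.U_C _ h.one_mem
  have h1 := Ideal.mul_mem_left I ⟨_, h.mem_Us.mpr hq⟩ hx'
  exact (h.mem_toSub _ _).mpr ⟨h.Us.mul_mem (h.mem_Us.mpr hq) hx, h1⟩

lemma GC.toSub_inj (h : GC D β E Cm) {I J : Ideal h.Us} (hIJ : h.toSub I = h.toSub J) :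
    I ≤ J := by
  intro x hx
  have h5 : (x : NP Ω τ) ∈ h.toSub I := (h.mem_toSub _ _).mpr ⟨x.2, hx⟩
  rw [hIJ] at h5
  exact ((h.mem_toSub _ _).mp h5).2

lemma noeth_of {R : Type*} [Ring R]
    (h : ∀ f : ℕ → Ideal R, Monotone f → ∃ n, ∀ m, n ≤ m → f m ≤ f n) : IsNoetherianRing R := by
  refine monotone_stabilizes_iff_noetherian.mp fun f => ?_
  obtain ⟨n, hn⟩ := h f f.monotone
  exact ⟨n, fun m hm => le_antisymm (f.monotone hm) (hn m hm)⟩

lemma GC.noeth (h : GC D β E Cm) : IsNoetherianRing h.Us := by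
  have : Module.Finite D (Submodule.span D (G0 E)) := Module.Finite.span_of_finite D G0_finite
  obtain ⟨V1, h1, h2, h3⟩ := hbt h.cop h.cop_comm (Submodule.span D (G0 E))
  have h4 := h.U_le V1 (Submodule.subset_span.trans h1) h2
  refine noeth_of fun f hf => ?_
  obtain ⟨n, hn⟩ := h3 (fun i => h.toSub (f i)) (fun i j hij => h.toSub_mono (hf hij))
    (fun i => (h.toSub_le _).trans h4) (fun i => h.toSub_inv _)
  exact ⟨n, fun m hm => h.toSub_inj (hn m hm)⟩

end
end Vale.Agent.P200
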