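import Vale.Agent.P200.Lin
import Vale.Agent.P200.Uni

/-! Initial ideals with respect to commuting linear coordinates over a division ring. -/

namespace Vale.Agent.P200

open Module AddMonoidAlgebra

lemma finrank_sup_single {D V : Type*} [DivisionRing D] [AddCommGroup V] [Module D V]
    (p : Submodule D V) [Module.Finite D p] {v : V} (hv : v ∉ p) :
    finrank D (p ⊔ Submodule.span D {v} : Submodule D V) = finrank D p + 1 := by
  have h0 : v ≠ 0 := by rintro rfl; exact hv p.zero_mem
  have h1 := Submodule.finrank_sup_add_finrank_inf_eq p (Submodule.span D {v})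
  rw [finrank_span_singleton h0, (Submodule.disjoint_span_singleton_of_notMem hv).eq_bot,
    finrank_bot] at h1
  exact h1

open Classical in
lemma count_lead {D V A T : Type*} [DivisionRing D] [AddCommGroup V] [Module D V] [LinearOrder T]
    (κ : A → T) (hκ : Function.Injective κ) (Y : A → V) (N : Submodule D V) (s : Finset A)
    (hli : LinearIndepOn D Y s) :
    finrank D (N ⊓ Submodule.span D (Y '' s) : Submodule D V) =
      (s.filter fun α => ∃ u ∈ N, u - Y α ∈ Submodule.span D (Y '' {β | β ∈ s ∧ κ α < κ β})).card := by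
  induction s using Finset.induction_on_min_value κ with
  | empty =>
    rw [Finset.coe_empty, Set.image_empty, Submodule.span_empty, inf_bot_eq, finrank_bot]
    rfl
  | insert a s ha hmin ih =>
    rw [Finset.coe_insert, linearIndepOn_insert (by simpa using ha)] at hli
    have e1 : ∀ α ∈ insert a s, {β | β ∈ insert a s ∧ κ α < κ β} = {β | β ∈ s ∧ κ α < κ β} := by
      intro α hα
      ext β
      simp only [Finset.mem_insert, Set.mem_ofPred_eq] at hα ⊢
      refine ⟨fun ⟨h1, h2⟩ => ⟨h1.resolve_left ?_, h2⟩, fun ⟨h1, h2⟩ => ⟨Or.inr h1, h2⟩⟩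
      rintro rfl
      rcases hα with rfl | hα
      · exact lt_irrefl _ h2
      · exact absurd h2 (not_lt.mpr (hmin α hα))
    have e2 : {β | β ∈ s ∧ κ a < κ β} = (s : Set A) := by
      ext β
      refine ⟨fun h => h.1, fun h => ⟨h, lt_of_le_of_ne (hmin β h) fun he => ha ?_⟩⟩
      rw [hκ he]
      exact h
    rw [Finset.filter_congr (q := fun α => ∃ u ∈ N,
      u - Y α ∈ Submodule.span D (Y '' {β | β ∈ s ∧ κ α < κ β})) (fun α hα => by rw [e1 α hα]),
      Finset.filter_insert, e2, Finset.coe_insert, Set.image_insert_eq]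
    have : Module.Finite D (Submodule.span D (Y '' s)) :=
      Module.Finite.span_of_finite D (s.finite_toSet.image Y)
    have : Module.Finite D (N ⊓ Submodule.span D (Y '' s) : Submodule D V) :=
      Submodule.finiteDimensional_of_le inf_le_right
    split_ifs with h
    · obtain ⟨u, hu, huY⟩ := h
      have h1 : u ∉ N ⊓ Submodule.span D (Y '' s) := by
        intro hh
        apply hli.2
        simpa using Submodule.sub_mem _ hh.2 huY
      rw [Finset.card_insert_of_notMem (fun hh => ha (Finset.mem_filter.mp hh).1), ← ih hli.1,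
        ← finrank_sup_single _ h1]
      refine congrArg (fun W : Submodule D V => finrank D W) ?_
      · apply le_antisymm
        · rintro v ⟨hv1, hv2⟩
          obtain ⟨d, z, hz, rfl⟩ := Submodule.mem_span_insert.mp hv2
          have : d • Y a + z = (z - d • (u - Y a)) + d • u := by rw [smul_sub]; abel
          rw [this] at hv1 ⊢
          refine Submodule.add_mem_sup ⟨?_, Submodule.sub_mem _ hz (Submodule.smul_mem _ _ huY)⟩
            (Submodule.smul_mem _ _ (Submodule.mem_span_singleton_self u))
          simpa using N.sub_mem hv1 (N.smul_mem d hu)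
        · refine sup_le (inf_le_inf_left _ (Submodule.span_mono (Set.subset_insert _ _))) ?_
          rw [Submodule.span_singleton_le_iff_mem]
          exact ⟨hu, Submodule.mem_span_insert.mpr ⟨1, _, huY, by simp⟩⟩
    · rw [← ih hli.1]
      refine congrArg (fun W : Submodule D V => finrank D W) ?_
      refine le_antisymm ?_ (inf_le_inf_left _ (Submodule.span_mono (Set.subset_insert _ _)))
      rintro v ⟨hv1, hv2⟩
      obtain ⟨d, z, hz, rfl⟩ := Submodule.mem_span_insert.mp hv2
      by_cases hd : d = 0
      · exact ⟨hv1, by simpa [hd] using hz⟩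
      · refine absurd ⟨_, N.smul_mem d⁻¹ hv1, ?_⟩ h
        rw [smul_add, smul_smul, inv_mul_cancel₀ hd, one_smul, add_sub_cancel_left]
        exact Submodule.smul_mem _ _ hz

lemma exists_Y {M τ : Type*} [Monoid M] (y : τ → M) (h : ∀ i j, y i * y j = y j * y i) :
    ∃ Y : (τ →₀ ℕ) → M, Y 0 = 1 ∧ ∀ α k, Y (α + Finsupp.single k 1) = Y α * y k := by
  let := Submonoid.closureCommMonoidOfComm M (s := Set.range y) (by
    rintro _ ⟨i, rfl⟩ _ ⟨j, rfl⟩
    exact h i j)
  let y' : τ → Submonoid.closure (Set.range y) := fun i => ⟨y i, Submonoid.subset_closure ⟨i, rfl⟩⟩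
  refine ⟨fun α => (α.prod fun i k => y' i ^ k : Submonoid.closure (Set.range y)), rfl,
    fun α k => ?_⟩
  simp only
  rw [Finsupp.prod_add_index' (fun _ => pow_zero _) (fun _ _ _ => pow_add _ _ _),
    Finsupp.prod_single_index (h := fun i k => y' i ^ k) (pow_zero _), pow_one]
  rfl

section
variable {K D τ : Type*} [Field K] [DivisionRing D] [Algebra K D]

lemma io_comm (g : NP K τ) (x : NP D τ) : io D g * x = x * io D g := by
  induction g using np_induction with
  | h0 => simp
  | ha a b ha hb => simp [add_mul, mul_add, ha, hb]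
  | hs m a =>
    rw [io_single]
    exact (single_commute (fun m' => add_comm m m') (fun r => Algebra.commutes a r) x).eq

lemma io_smul (g : NP K τ) (d : D) (x : NP D τ) : io D g * (d • x) = d • (io D g * x) := by
  rw [io_comm, smul_mul_assoc, ← io_comm]

lemma io_ksmul (k : K) (g : NP K τ) : io D (k • g) = k • io D g := by
  refine AddMonoidAlgebra.ext (Finsupp.ext fun m => ?_)
  simp only [io, coeff_mapRingHom, coeff_smul, Finsupp.smul_apply, smul_eq_mul, map_mul]
  rw [Algebra.smul_def]

lemma io_mem {d : ℕ} {g : NP K τ} (hg : g ∈ Hm K d) : io D g ∈ Hm D d := by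
  rw [mem_Hm] at hg ⊢
  intro m hm
  simp [io, hg m hm]

variable (D) in
noncomputable def NI (I : Ideal (MvPolynomial τ K)) (d : ℕ) : Submodule D (NP D τ) :=
  Submodule.span D (io D '' (pc I d : Set (MvPolynomial τ K)))

lemma NI_le (I : Ideal (MvPolynomial τ K)) (d : ℕ) : NI D I d ≤ Hm D d := by
  refine Submodule.span_le.mpr ?_
  rintro _ ⟨g, hg, rfl⟩
  exact io_mem hg.2

lemma Hm_eq_span (d : ℕ) : (Hm D d : Submodule D (NP D τ)) =
    Submodule.span D ((fun m => single m 1) '' {m : τ →₀ ℕ | m.degree = d}) :=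
  supported_eq_span_single D _

lemma NI_mul {I : Ideal (MvPolynomial τ K)} {d : ℕ} {u v : NP D τ} (hu : u ∈ NI D I d)
    (hv : v ∈ Hm D 1) : u * v ∈ NI D I (d + 1) := by
  have : NI D I d ≤ (NI D I (d + 1)).comap (rm D v) := by
    refine Submodule.span_le.mpr ?_
    rintro _ ⟨g, hg, rfl⟩
    have : Hm D 1 ≤ (NI D I (d + 1)).comap (lm D _ (io_smul g)) := by
      rw [Hm_eq_span]
      refine Submodule.span_le.mpr ?_
      rintro _ ⟨m, hm, rfl⟩
      refine Submodule.subset_span ⟨g * single m 1, ⟨I.mul_mem_right _ hg.1, ?_⟩, ?_⟩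
      · exact mul_mem_Hm hg.2 (hm ▸ single_mem m 1)
      · rw [map_mul, io_single, map_one]
        rfl
    exact this hv
  exact this hu

lemma finrank_NI [Finite τ] (I : Ideal (MvPolynomial τ K)) (d : ℕ) :
    finrank D (NI D I d) = finrank K (pc I d) := by
  let b := Module.finBasis K (pc I d)
  have h1 : NI D I d = Submodule.span D (Set.range fun i => io D (b i : MvPolynomial τ K)) := by
    apply le_antisymm
    · refine Submodule.span_le.mpr ?_
      rintro _ ⟨g, hg, rfl⟩
      have := congrArg Subtype.val (b.sum_repr ⟨g, hg⟩)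
      simp only [AddSubmonoidClass.coe_finsetSum, SetLike.val_smul] at this
      rw [← this, map_sum]
      refine Submodule.sum_mem _ fun i _ => ?_
      rw [io_ksmul]
      exact Submodule.smul_of_tower_mem _ _ (Submodule.subset_span ⟨i, rfl⟩)
    · refine Submodule.span_mono ?_
      rintro _ ⟨i, rfl⟩
      exact ⟨b i, (b i).2, rfl⟩
  have h2 : LinearIndependent D fun i => io D (b i : MvPolynomial τ K) := by
    rw [Fintype.linearIndependent_iff]
    intro g hg i
    rw [← Module.forall_dual_apply_eq_zero_iff K]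
    intro lam
    have h3 := congrArg (cmap lam) hg
    have h4 : ∀ (a : D) (p : NP K τ), cmap lam (a • io D p) = lam a • p := by
      intro a p
      refine AddMonoidAlgebra.ext (Finsupp.ext fun m => ?_)
      simp only [coeff_cmap, coeff_smul, Finsupp.smul_apply, io, coeff_mapRingHom, smul_eq_mul]
      rw [← Algebra.commutes, ← Algebra.smul_def, map_smul, smul_eq_mul, mul_comm]
    simp only [map_sum, h4, map_zero] at h3
    refine Fintype.linearIndependent_iff.mp b.linearIndependent (fun i => lam (g i)) ?_ i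
    apply Subtype.ext
    simpa using h3
  rw [h1, finrank_span_eq_card h2, Fintype.card_fin]

end

section
variable {K D : Type*} [Field K] [DivisionRing D] [Algebra K D] {n : ℕ}

def wt (c : ℕ) (α : Fin n →₀ ℕ) : ℕ := ∑ i, if c ≤ i.val then α i else 0

lemma wt_add (c : ℕ) (α β : Fin n →₀ ℕ) : wt c (α + β) = wt c α + wt c β := by
  rw [wt, wt, wt, ← Finset.sum_add_distrib]
  refine Finset.sum_congr rfl fun i _ => ?_
  split_ifs <;> simp

lemma wt_single (c : ℕ) (i : Fin n) (a : ℕ) :
    wt c (Finsupp.single i a) = if c ≤ i.val then a else 0 := by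
  rw [wt, Finset.sum_eq_single i]
  · simp
  · intro j _ hj
    simp [hj]
  · simp

def key (c : ℕ) (α : Fin n →₀ ℕ) : ℕ ×ₗ Lex (Fin n →₀ ℕ) := toLex (wt c α, toLex α)

lemma key_inj (c : ℕ) : Function.Injective (key (n := n) c) := by
  intro α β h
  exact toLex.injective (congrArg Prod.snd (toLex.injective h))

lemma key_add {c : ℕ} {α β : Fin n →₀ ℕ} (h : key c α < key c β) (γ : Fin n →₀ ℕ) :
    key c (α + γ) < key c (β + γ) := by
  simp only [key, Prod.Lex.toLex_lt_toLex, wt_add] at h ⊢
  rcases h with h | ⟨h1, h2⟩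
  · left; omega
  · right
    exact ⟨by omega, by simpa using add_lt_add_left h2 (toLex γ)⟩

open Classical in
theorem init (y : Fin n → NP D (Fin n)) (hy : ∀ i, y i ∈ Hm D 1)
    (hc : ∀ i j, y i * y j = y j * y i)
    (hs : ∀ j, single (Finsupp.single j 1) 1 ∈ Submodule.span D (Set.range y))
    (I : Ideal (MvPolynomial (Fin n) K)) (c : ℕ) :
    ∃ L : Set (Fin n →₀ ℕ), (∀ α ∈ L, ∀ β, α ≤ β → β ∈ L) ∧
      (∀ d, ((AD (Fin n) d).filter (· ∈ L)).card = finrank K (pc I d)) ∧
      ∀ (i : Fin n) (a : ℕ), i.val < c → (∃ u ∈ NI D I (a + 1), u - y i ^ (a + 1) ∈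
        Submodule.span D {z | ∃ v ∈ Hm D a, ∃ r : Fin n, c ≤ r.val ∧ z = v * y r}) →
        Finsupp.single i (a + 1) ∈ L := by
  obtain ⟨Y, hY0, hY⟩ := exists_Y y hc
  have hmap : ∀ (s t : Set (Fin n →₀ ℕ)) (k : Fin n), (∀ α ∈ s, α + Finsupp.single k 1 ∈ t) →
      ∀ v ∈ Submodule.span D (Y '' s), v * y k ∈ Submodule.span D (Y '' t) := by
    intro s t k hst v hv
    have : Submodule.span D (Y '' s) ≤ (Submodule.span D (Y '' t)).comap (rm D (y k)) := by
      refine Submodule.span_le.mpr ?_
      rintro _ ⟨α, hα, rfl⟩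
      exact Submodule.subset_span ⟨_, hst α hα, hY α k⟩
    exact this hv
  have hAD : ∀ d k, ∀ α ∈ AD (Fin n) d, α + Finsupp.single k 1 ∈ AD (Fin n) (d + 1) := by
    intro d k α hα
    rw [mem_AD] at hα ⊢
    simp [hα]
  have hspan : ∀ d, Hm D d ≤ Submodule.span D (Y '' AD (Fin n) d) := by
    intro d
    induction d with
    | zero =>
      rw [Hm_eq_span]
      refine Submodule.span_mono ?_
      rintro _ ⟨m, hm, rfl⟩
      have : m = 0 := (Finsupp.degree_eq_zero_iff m).mp hm
      exact ⟨0, by simp [mem_AD], by rw [hY0, this]; rfl⟩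
    | succ d ih =>
      rw [Hm_eq_span]
      refine Submodule.span_le.mpr ?_
      rintro _ ⟨m, hm, rfl⟩
      have hm' : m.degree = d + 1 := hm
      obtain ⟨j, hj⟩ : ∃ j, m j ≠ 0 := by
        by_contra! h0
        have : m = 0 := Finsupp.ext h0
        simp [this] at hm'
      have e1 := Finsupp.sub_add_single_one_cancel hj
      generalize m - Finsupp.single j 1 = m' at e1
      subst e1
      have e2 : m'.degree = d := by simpa using hm'
      have e3 : io D (single m' (1 : K)) = single m' 1 := by rw [io_single, map_one]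
      have : Submodule.span D (Set.range y) ≤ (Submodule.span D (Y '' AD (Fin n) (d + 1))).comap
          (lm D _ (io_smul (single m' (1 : K)))) := by
        refine Submodule.span_le.mpr ?_
        rintro _ ⟨k, rfl⟩
        apply hmap _ _ k (hAD d k)
        rw [e3]
        exact ih (e2 ▸ single_mem m' 1)
      have h5 : io D (single m' (1 : K)) * single (Finsupp.single j 1) 1 ∈
        Submodule.span D (Y '' AD (Fin n) (d + 1)) := this (hs j)
      rwa [e3, single_mul_single, mul_one] at h5
  have hli : ∀ d, LinearIndepOn D Y (AD (Fin n) d) := by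
    intro d
    rw [LinearIndepOn, linearIndependent_iff_card_le_finrank_span, Set.finrank]
    have : Module.Finite D (Submodule.span D (Y '' AD (Fin n) d)) :=
      Module.Finite.span_of_finite D ((AD (Fin n) d).finite_toSet.image Y)
    have h1 := Submodule.finrank_mono (hspan d)
    rw [finrank_Hm] at h1
    rw [← Set.image_eq_range]
    simpa using h1
  let L : Set (Fin n →₀ ℕ) := {α | ∃ u ∈ NI D I α.degree,
    u - Y α ∈ Submodule.span D (Y '' {β | β ∈ AD (Fin n) α.degree ∧ key c α < key c β})}
  have hup : ∀ α ∈ L, ∀ k, α + Finsupp.single k 1 ∈ L := by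
    rintro α ⟨u, hu, huY⟩ k
    have e : (α + Finsupp.single k 1).degree = α.degree + 1 := by simp
    refine ⟨u * y k, e ▸ NI_mul hu (hy k), ?_⟩
    rw [hY, ← sub_mul, e]
    refine hmap _ _ k (fun β hβ => ?_) _ huY
    exact ⟨hAD _ k β hβ.1, key_add hβ.2 _⟩
  refine ⟨L, fun α hα β hαβ => ?_, fun d => ?_, fun i a hi ⟨u, hu, huY⟩ => ?_⟩
  · obtain ⟨γ, rfl⟩ := exists_add_of_le hαβ
    clear hαβ
    induction γ using Finsupp.induction with
    | zero => simpa using hα
    | single_add k m γ _ _ ih =>
      rw [add_comm (Finsupp.single k m), ← add_assoc]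
      clear * - ih hup
      induction m with
      | zero => simpa using ih
      | succ m ih2 =>
        rw [Finsupp.single_add, ← add_assoc]
        exact hup _ ih2 k
  · have h1 := count_lead (key c) (key_inj c) Y (NI D I d) (AD (Fin n) d) (hli d)
    rw [inf_eq_left.mpr ((NI_le I d).trans (hspan d)), finrank_NI] at h1
    rw [h1]
    congr 1
    refine Finset.filter_congr fun α hα => ?_
    simp only [L, Set.mem_ofPred_eq, mem_AD.mp hα]
  · have e : (Finsupp.single i (a + 1)).degree = a + 1 := by simp
    have e2 : ∀ m, Y (Finsupp.single i m) = y i ^ m := by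
      intro m
      induction m with
      | zero => simpa using hY0
      | succ m ih => rw [Finsupp.single_add, hY, ih, pow_succ]
    refine ⟨u, e.symm ▸ hu, ?_⟩
    rw [e2, e]
    refine Submodule.span_le.mpr ?_ huY
    rintro _ ⟨v, hv, r, hr, rfl⟩
    refine hmap _ _ r (fun β hβ => ?_) _ (hspan a hv)
    refine ⟨hAD _ r β hβ, ?_⟩
    simp only [key, Prod.Lex.toLex_lt_toLex, wt_add, wt_single, hr, not_le.mpr hi, if_true,
      if_false]
    left
    omega

end
end Vale.Agent.P200
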