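import Vale.Agent.P200.Domain

/-! Iterating the extension step: an invertible matrix of commuting Clifford rows. -/

namespace Vale.Agent.P200

open Module

universe u

theorem frame_aux {K : Type u} {P σ : Type} [Field K] [Fintype P]
    [DecidableEq P] [Nonempty P] [Finite σ] {β : P → P → P → K} {x f : P → MvPolynomial σ K}
    {J : Ideal (MvPolynomial σ K)} {Jq : P → Ideal (MvPolynomial σ K)} (hq : QD β x f J Jq)
    (i : ℕ) (hi : i ≤ Fintype.card P) :
    ∃ (D : Type u) (_ : DivisionRing D) (_ : Algebra K D) (E c : ℕ → P → D) (B : P → ℕ → D),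
      (∀ a < i, ∀ a' < a, ∀ p r, E a p * E a' r = E a' r * E a p) ∧
      (∀ a < i, (∀ p, E a p * E a p = ∑ q, β q p p • c a q) ∧
        ∀ p r, E a p * E a r + E a r * E a p = ∑ q, β q p r • c a q + ∑ q, β q r p • c a q) ∧
      (∀ a < i, ∀ a' < i, ∑ p, E a p * B p a' = if a = a' then 1 else 0) := by
  induction i with
  | zero => exact ⟨K, inferInstance, inferInstance, 0, 0, 0, by simp, by simp, by simp⟩
  | succ i ih =>
    obtain ⟨D, _, _, E, c, B, h1, h2, h3⟩ := ih (by omega)
    obtain ⟨D1, i1, i2, φ, E', c', g1, g2, g3, g4⟩ := step (D := D) hq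
    classical
    have hlt : Submodule.span D (((Finset.range i).image E : Finset (P → D)) : Set (P → D)) < ⊤ := by
      apply Submodule.lt_top_of_finrank_lt_finrank
      have := (finrank_span_finset_le_card (R := D) ((Finset.range i).image E)).trans
        Finset.card_image_le
      rw [Finset.card_range] at this
      rw [Module.finrank_fintype_fun_eq_card]
      exact lt_of_le_of_lt this (by omega)
    obtain ⟨lam, hl0, hl⟩ := Submodule.exists_le_ker_of_lt_top _ hlt
    let α : P → D := fun p => lam fun j => if p = j then 1 else 0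
    have hα : ∀ v, lam v = ∑ p, v p * α p := fun v => LinearMap.pi_apply_eq_sum_univ lam v
    have hα0 : α ≠ 0 := by
      intro h0
      apply hl0
      ext1 v
      exact LinearMap.ext fun w => by simp [hα, h0]
    have hγ : ∑ p, E' p * φ (α p) ≠ 0 := by
      intro h0
      apply hα0
      apply g4
      simpa only [g1] using h0
    let uu : P → D1 := fun p => φ (α p) * (∑ p, E' p * φ (α p))⁻¹
    have hu1 : ∑ p, E' p * uu p = 1 := by
      simp only [uu, ← mul_assoc, ← Finset.sum_mul]
      exact mul_inv_cancel₀ hγ
    have hu2 : ∀ a < i, ∑ p, φ (E a p) * uu p = 0 := by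
      intro a ha
      have : lam (E a) = 0 := hl (Submodule.subset_span (by
        rw [Finset.coe_image]
        exact ⟨a, by simpa using ha, rfl⟩))
      simp only [uu, ← mul_assoc, ← Finset.sum_mul, ← map_mul, ← map_sum, ← hα, this, map_zero,
        zero_mul]
    refine ⟨D1, i1, i2, fun a p => if a = i then E' p else φ (E a p),
      fun a p => if a = i then c' p else φ (c a p),
      fun p a => if a = i then uu p else φ (B p a) - uu p * ∑ r, E' r * φ (B r a), ?_, ?_, ?_⟩
    · intro a ha a' ha' p r
      have h4 : a' ≠ i := by omega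
      by_cases h5 : a = i
      · simp only [h4, h5, if_true, if_false, g1]
      · simp only [h4, h5, if_false, ← map_mul, h1 a (by omega) a' ha']
    · intro a ha
      by_cases h5 : a = i
      · simp only [h5, if_true]
        exact ⟨g2, g3⟩
      · simp only [h5, if_false, ← map_mul, ← map_add, ← map_smul, ← map_sum,
          (h2 a (by omega)).1, (h2 a (by omega)).2, implies_true, and_self]
    · intro a ha a' ha'
      by_cases h5 : a = i
      · by_cases h6 : a' = i
        · simp only [h5, h6, if_true, hu1]
        · simp only [h5, h6, if_true, if_false, mul_sub, Finset.sum_sub_distrib, ← mul_assoc,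
            ← Finset.sum_mul, hu1, one_mul, sub_self, Ne.symm h6]
      · by_cases h6 : a' = i
        · simp only [h5, h6, if_true, if_false, hu2 a (by omega)]
        · simp only [h5, h6, if_false, mul_sub, Finset.sum_sub_distrib, ← mul_assoc,
            ← Finset.sum_mul, hu2 a (by omega), zero_mul, sub_zero, ← map_mul, ← map_sum,
            h3 a (by omega) a' (by omega)]
          split_ifs <;> simp

theorem frame {K : Type u} {σ : Type} {c : ℕ} [Field K] [Nonempty (Fin c)] [Finite σ]
    {β : Fin c → Fin c → Fin c → K} {x f : Fin c → MvPolynomial σ K}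
    {J : Ideal (MvPolynomial σ K)} {Jq : Fin c → Ideal (MvPolynomial σ K)} (hq : QD β x f J Jq) :
    ∃ (D : Type u) (_ : DivisionRing D) (_ : Algebra K D) (E cc : Fin c → Fin c → D),
      (∀ a a', a ≠ a' → ∀ p r, E a p * E a' r = E a' r * E a p) ∧
      (∀ a p, E a p * E a p = ∑ q, β q p p • cc a q) ∧
      (∀ a p r, E a p * E a r + E a r * E a p = ∑ q, β q p r • cc a q + ∑ q, β q r p • cc a q) ∧
      (∀ p, ∃ d : Fin c → D, ∀ r, ∑ a, d a * E a r = if r = p then 1 else 0) := by
  obtain ⟨D, i1, i2, E, cc, B, h1, h2, h3⟩ := frame_aux hq c (by simp)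
  refine ⟨D, i1, i2, fun a => E a, fun a => cc a, fun a a' h p r => ?_, fun a => (h2 a a.2).1,
    fun a => (h2 a a.2).2, fun p => ?_⟩
  · rcases lt_or_gt_of_ne (Fin.val_ne_of_ne h) with h4 | h4
    · exact (h1 a' a'.2 a h4 r p).symm
    · exact h1 a a.2 a' h4 p r
  have hli : LinearIndependent D (fun a : Fin c => E a) := by
    rw [Fintype.linearIndependent_iff]
    intro g hg a'
    have h4 : ∑ p, (∑ a : Fin c, g a • E a) p * B p a' = 0 := by rw [hg]; simp
    simp only [Finset.sum_apply, Pi.smul_apply, smul_eq_mul, Finset.sum_mul, mul_assoc] at h4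
    rw [Finset.sum_comm] at h4
    simp only [← Finset.mul_sum, h3 _ (Fin.is_lt _) _ (Fin.is_lt _), Fin.val_inj] at h4
    simpa using h4
  have hsp := hli.span_eq_top_of_card_eq_finrank' (by simp)
  have hp : (fun r => if r = p then (1 : D) else 0) ∈
      Submodule.span D (Set.range fun a : Fin c => E a) := by
    rw [hsp]
    trivial
  obtain ⟨d, hd⟩ := (Submodule.mem_span_range_iff_exists_fun D).mp hp
  refine ⟨d, fun r => ?_⟩
  have := congrFun hd r
  simpa using this

end Vale.Agent.P200
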