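import Vale.Agent.P200.Init

/-! The Koszul complex on commuting linear elements over a division ring. -/

namespace Vale.Agent.P200

open Module AddMonoidAlgebra

abbrev CC (D : Type*) [Ring D] (n : ℕ) := Finset (Fin n) → NP D (Fin n)

abbrev Cell (n : ℕ) := Finset (Fin n) × (Fin n →₀ ℕ)

def sg {n : ℕ} (ρ : Finset (Fin n)) (i : Fin n) : ℤ := (-1) ^ (ρ.filter (· < i)).card

lemma sg_sq {n : ℕ} (ρ : Finset (Fin n)) (i : Fin n) : sg ρ i * sg ρ i = 1 := by
  rw [sg, ← mul_pow]
  simp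

lemma sg_insert {n : ℕ} {ρ : Finset (Fin n)} {i : Fin n} (hi : i ∉ ρ) (j : Fin n) :
    sg (insert i ρ) j = (if i < j then -1 else 1) * sg ρ j := by
  rw [sg, sg, Finset.filter_insert]
  split_ifs
  · rw [Finset.card_insert_of_notMem (fun h => hi (Finset.mem_filter.mp h).1), pow_succ']
  · rw [one_mul]

section
variable {D : Type*} [DivisionRing D] {n : ℕ}

noncomputable def dM (y : Fin n → NP D (Fin n)) : CC D n →ₗ[NP D (Fin n)] CC D n where
  toFun w ρ := ∑ i ∈ ρᶜ, sg ρ i • (w (insert i ρ) * y i)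
  map_add' v w := by
    funext ρ
    simp [add_mul, Finset.sum_add_distrib]
  map_smul' r w := by
    funext ρ
    simp only [Pi.smul_apply, smul_eq_mul, RingHom.id_apply, Finset.mul_sum, mul_smul_comm,
      mul_assoc]

noncomputable def dd (y : Fin n → NP D (Fin n)) : CC D n →ₗ[D] CC D n := (dM y).restrictScalars D

lemma dd_apply (y : Fin n → NP D (Fin n)) (w : CC D n) (ρ : Finset (Fin n)) :
    dd y w ρ = ∑ i ∈ ρᶜ, sg ρ i • (w (insert i ρ) * y i) := rfl

lemma dd_single (y : Fin n → NP D (Fin n)) (ρ : Finset (Fin n)) (z : NP D (Fin n)) :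
    dd y (Pi.single ρ z) = ∑ i ∈ ρ, sg (ρ.erase i) i • Pi.single (ρ.erase i) (z * y i) := by
  funext ρ'
  rw [dd_apply, Finset.sum_apply, ← Finset.sum_filter_add_sum_filter_not ρ'ᶜ (insert · ρ' = ρ),
    ← Finset.sum_filter_add_sum_filter_not ρ (ρ.erase · = ρ')]
  have e : ρ'ᶜ.filter (insert · ρ' = ρ) = ρ.filter (ρ.erase · = ρ') := by
    ext i
    simp only [Finset.mem_filter, Finset.mem_compl]
    constructor
    · rintro ⟨h1, rfl⟩
      exact ⟨Finset.mem_insert_self _ _, Finset.erase_insert h1⟩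
    · rintro ⟨h1, rfl⟩
      exact ⟨Finset.notMem_erase _ _, Finset.insert_erase h1⟩
  congr 1
  · rw [e]
    refine Finset.sum_congr rfl fun i hi => ?_
    obtain ⟨h1, rfl⟩ := Finset.mem_filter.mp hi
    simp [Finset.insert_erase h1]
  · rw [Finset.sum_eq_zero, Finset.sum_eq_zero]
    · intro i hi
      simp [Pi.single_eq_of_ne' (Finset.mem_filter.mp hi).2]
    · intro i hi
      simp [Pi.single_eq_of_ne (Finset.mem_filter.mp hi).2]

lemma dd_dd {y : Fin n → NP D (Fin n)} (hc : ∀ i j, y i * y j = y j * y i) (w : CC D n) :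
    dd y (dd y w) = 0 := by
  funext ρ
  let G : Fin n → Fin n → NP D (Fin n) := fun i j => if i ∉ ρ ∧ j ∉ insert i ρ then
    (sg ρ i * sg (insert i ρ) j) • (w (insert j (insert i ρ)) * y j * y i) else 0
  have h1 : dd y (dd y w) ρ = ∑ i, ∑ j, G i j := by
    rw [dd_apply, ← Finset.sum_subset (Finset.subset_univ ρᶜ) (by
      intro i _ hi
      simp only [Finset.mem_compl, not_not] at hi
      simp [G, hi])]
    refine Finset.sum_congr rfl fun i hi => ?_
    rw [dd_apply, Finset.sum_mul, Finset.smul_sum,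
      ← Finset.sum_subset (Finset.subset_univ (insert i ρ)ᶜ) (by
        intro j _ hj
        simp only [Finset.mem_compl, not_not] at hj
        simp only [G, hj, not_true, and_false, if_false])]
    refine Finset.sum_congr rfl fun j hj => ?_
    simp only [G, Finset.mem_compl.mp hi, Finset.mem_compl.mp hj, not_false_iff, and_self, if_true,
      smul_mul_assoc, mul_smul]
  rw [h1]
  apply sum_sum_antisymm
  · intro i
    simp [G]
  · intro i j
    by_cases h : i ∉ ρ ∧ j ∉ insert i ρ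
    · have hj : j ∉ ρ := fun hh => h.2 (Finset.mem_insert_of_mem hh)
      have hij : i ≠ j := fun hh => h.2 (hh ▸ Finset.mem_insert_self _ _)
      have h' : j ∉ ρ ∧ i ∉ insert j ρ := ⟨hj, by simp [hij, h.1]⟩
      simp only [G, if_pos h, if_pos h', sg_insert h.1, sg_insert hj]
      rw [Finset.insert_comm i j, mul_assoc _ (y i), hc i j, ← mul_assoc _ (y j), ← add_smul]
      rcases lt_or_gt_of_ne hij with h3 | h3
      · simp [h3, not_lt.mpr h3.le, mul_comm]
      · simp [h3, not_lt.mpr h3.le, mul_comm]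
    · have h' : ¬ (j ∉ ρ ∧ i ∉ insert j ρ) := by
        intro h'
        apply h
        simp only [Finset.mem_insert, not_or] at h' ⊢
        exact ⟨h'.2.2, fun hh => h'.2.1 hh.symm, h'.1⟩
      simp only [G, if_neg h, if_neg h', add_zero]

noncomputable def Cs (p : ℕ) (N : Submodule D (NP D (Fin n))) : Submodule D (CC D n) :=
  Submodule.pi Set.univ fun ρ => if ρ.card = p then N else ⊥

lemma mem_Cs {p : ℕ} {N : Submodule D (NP D (Fin n))} {w : CC D n} :
    w ∈ Cs p N ↔ ∀ ρ, (ρ.card = p → w ρ ∈ N) ∧ (ρ.card ≠ p → w ρ = 0) := by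
  simp only [Cs, Submodule.mem_pi, Set.mem_univ, true_implies]
  refine forall_congr' fun ρ => ?_
  split_ifs with h <;> simp [h]

lemma Cs_mono {p : ℕ} {N N' : Submodule D (NP D (Fin n))} (h : N ≤ N') : Cs p N ≤ Cs p N' :=
  fun _ hw => mem_Cs.mpr fun ρ => ⟨fun hρ => h ((mem_Cs.mp hw ρ).1 hρ), (mem_Cs.mp hw ρ).2⟩

lemma single_mem_Cs {p : ℕ} {N : Submodule D (NP D (Fin n))} {ρ : Finset (Fin n)}
    (hρ : ρ.card = p) {z : NP D (Fin n)} (hz : z ∈ N) : Pi.single ρ z ∈ Cs p N := by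
  refine mem_Cs.mpr fun ρ' => ?_
  by_cases h : ρ' = ρ
  · subst h
    simp [hz, hρ]
  · simp [h]

lemma Cs_le {p : ℕ} {N : Submodule D (NP D (Fin n))} {M : Submodule D (CC D n)}
    (h : ∀ ρ : Finset (Fin n), ρ.card = p → ∀ z ∈ N, Pi.single ρ z ∈ M) : Cs p N ≤ M := by
  intro w hw
  rw [← Finset.univ_sum_single w]
  refine M.sum_mem fun ρ _ => ?_
  by_cases hρ : ρ.card = p
  · exact h ρ hρ _ ((mem_Cs.mp hw ρ).1 hρ)
  · simp [(mem_Cs.mp hw ρ).2 hρ]

lemma finrank_Cs (p : ℕ) (N : Submodule D (NP D (Fin n))) [Module.Finite D N] :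
    Module.Finite D (Cs p N) ∧ finrank D (Cs p N) =
      (Finset.univ.filter fun ρ : Finset (Fin n) => ρ.card = p).card * finrank D N := by
  let M : Finset (Fin n) → Submodule D (NP D (Fin n)) := fun ρ => if ρ.card = p then N else ⊥
  have hM : ∀ ρ, Module.Finite D (M ρ) := by
    intro ρ
    by_cases h : ρ.card = p
    · have : M ρ = N := if_pos h
      rw [this]
      infer_instance
    · have : M ρ = ⊥ := if_neg h
      rw [this]
      infer_instance
  let Φ : (∀ ρ, M ρ) →ₗ[D] CC D n := LinearMap.pi fun ρ => (M ρ).subtype ∘ₗ LinearMap.proj ρ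
  have h1 : Function.Injective Φ := fun v w h => funext fun ρ => Subtype.ext (congrFun h ρ)
  have h2 : LinearMap.range Φ = Cs p N := by
    ext w
    constructor
    · rintro ⟨v, rfl⟩ ρ _
      exact (v ρ).2
    · intro hw
      exact ⟨fun ρ => ⟨w ρ, hw ρ trivial⟩, rfl⟩
  rw [← h2]
  refine ⟨inferInstance, ?_⟩
  rw [LinearMap.finrank_range_of_inj h1, Module.finrank_pi_fintype, Finset.card_filter,
    Finset.sum_mul]
  refine Finset.sum_congr rfl fun ρ _ => ?_
  by_cases h : ρ.card = p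
  · have : M ρ = N := if_pos h
    rw [this, if_pos h, one_mul]
  · have : M ρ = ⊥ := if_neg h
    rw [this, if_neg h, zero_mul, finrank_bot]

instance finHmD (k : ℕ) : Module.Finite D (Hm D k : Submodule D (NP D (Fin n))) := by
  rw [Hm_eq_span]
  exact Module.Finite.span_of_finite D ((Finsupp.finite_of_degree_eq k).image _)

instance finCs (p : ℕ) (N : Submodule D (NP D (Fin n))) [Module.Finite D N] :
    Module.Finite D (Cs p N) := (finrank_Cs p N).1

lemma dd_mem {y : Fin n → NP D (Fin n)} {p : ℕ} {N N' : Submodule D (NP D (Fin n))}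
    (h : ∀ z ∈ N, ∀ i, z * y i ∈ N') {w : CC D n} (hw : w ∈ Cs (p + 1) N) : dd y w ∈ Cs p N' := by
  have : Cs (p + 1) N ≤ (Cs p N').comap (dd y) := Cs_le fun ρ hρ z hz => by
    rw [Submodule.mem_comap, dd_single]
    refine Submodule.sum_mem _ fun i hi => Submodule.smul_of_tower_mem _ _ ?_
    exact single_mem_Cs (by rw [Finset.card_erase_of_mem hi]; omega) (h z hz i)
  exact this hw

lemma dd_zero (y : Fin n → NP D (Fin n)) {N : Submodule D (NP D (Fin n))} {w : CC D n}
    (hw : w ∈ Cs 0 N) : dd y w = 0 := by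
  have : Cs 0 N ≤ LinearMap.ker (dd y) := Cs_le fun ρ hρ z _ => by
    rw [LinearMap.mem_ker, dd_single, Finset.card_eq_zero.mp hρ, Finset.sum_empty]
  exact this hw

variable (D) in
noncomputable def xv (i : Fin n) : NP D (Fin n) := single (Finsupp.single i 1) 1

lemma xv_mem (i : Fin n) : xv D i ∈ Hm D 1 := by
  have := single_mem (D := D) (Finsupp.single i 1) (1 : D)
  rwa [Finsupp.degree_single] at this

lemma xv_comm (i : Fin n) (z : NP D (Fin n)) : xv D i * z = z * xv D i :=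
  (single_commute (fun m' => add_comm _ m') (fun r => Commute.one_left r) z).eq

variable (D) in
noncomputable def cell (x : Cell n) : CC D n := Pi.single x.1 (single x.2 1)

lemma dd_cell (ρ : Finset (Fin n)) (β : Fin n →₀ ℕ) : dd (xv D) (cell D (ρ, β)) =
    ∑ i ∈ ρ, sg (ρ.erase i) i • cell D (ρ.erase i, β + Finsupp.single i 1) := by
  simp only [cell, dd_single, xv, single_mul_single, mul_one]

variable (D) in
noncomputable def CS (Z : Set (Cell n)) : Submodule D (CC D n) := Submodule.span D (cell D '' Z)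

lemma cell_mem {Z : Set (Cell n)} {x : Cell n} (h : x ∈ Z) : cell D x ∈ CS D Z :=
  Submodule.subset_span ⟨x, h, rfl⟩

lemma CS_le {Z : Set (Cell n)} {M : Submodule D (CC D n)} (h : ∀ x ∈ Z, cell D x ∈ M) :
    CS D Z ≤ M := Submodule.span_le.mpr (by rintro _ ⟨x, hx, rfl⟩; exact h x hx)

variable (D) in
noncomputable def MS (s : Set (Fin n →₀ ℕ)) : Submodule D (NP D (Fin n)) :=
  AddMonoidAlgebra.supported D D s

lemma MS_eq_span (s : Set (Fin n →₀ ℕ)) :
    MS D s = Submodule.span D ((fun m => single m 1) '' s) := supported_eq_span_single D _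

lemma Cs_MS (p : ℕ) (s : Set (Fin n →₀ ℕ)) :
    Cs p (MS D s) = CS D {x | x.1.card = p ∧ x.2 ∈ s} := by
  apply le_antisymm
  · refine Cs_le fun ρ hρ z hz => ?_
    have : MS D s ≤ (CS D {x | x.1.card = p ∧ x.2 ∈ s}).comap
        (LinearMap.single D (fun _ : Finset (Fin n) => NP D (Fin n)) ρ) := by
      rw [MS_eq_span]
      refine Submodule.span_le.mpr ?_
      rintro _ ⟨m, hm, rfl⟩
      exact cell_mem (x := (ρ, m)) ⟨hρ, hm⟩
    exact this hz
  · refine CS_le fun x hx => single_mem_Cs hx.1 ?_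
    rw [MS_eq_span]
    exact Submodule.subset_span ⟨_, hx.2, rfl⟩

lemma Cs_Hm (p k : ℕ) :
    Cs p (Hm D k) = CS D {x : Cell n | x.1.card = p ∧ x.2.degree = k} := Cs_MS p _

open Classical in
variable (D) in
noncomputable def πZ (Z : Set (Cell n)) : CC D n →ₗ[D] CC D n where
  toFun w ρ := .ofCoeff ((w ρ).coeff.filter fun β => (ρ, β) ∈ Z)
  map_add' v w := by
    funext ρ
    refine AddMonoidAlgebra.ext (Finsupp.ext fun m => ?_)
    simp only [Pi.add_apply, coeff_add, Finsupp.add_apply, Finsupp.filter_apply]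
    split_ifs <;> simp
  map_smul' d w := by
    funext ρ
    refine AddMonoidAlgebra.ext (Finsupp.ext fun m => ?_)
    simp only [Pi.smul_apply, coeff_smul, Finsupp.smul_apply, Finsupp.filter_apply,
      RingHom.id_apply]
    split_ifs <;> simp

open Classical in
lemma πZ_cell (Z : Set (Cell n)) (x : Cell n) :
    πZ D Z (cell D x) = if x ∈ Z then cell D x else 0 := by
  obtain ⟨ρ, β⟩ := x
  funext ρ'
  refine AddMonoidAlgebra.ext (Finsupp.ext fun m => ?_)
  change ((cell D (ρ, β) ρ').coeff.filter fun β => (ρ', β) ∈ Z) m = _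
  rw [Finsupp.filter_apply]
  by_cases h1 : ρ' = ρ
  · subst h1
    by_cases h2 : β = m
    · subst h2
      split_ifs <;> simp
    · split_ifs <;> simp [cell, h2]
  · split_ifs <;> simp [cell, h1]

lemma πZ_zero {Z Z' : Set (Cell n)} (h : ∀ x ∈ Z', x ∉ Z) {w : CC D n} (hw : w ∈ CS D Z') :
    πZ D Z w = 0 := by
  have : CS D Z' ≤ LinearMap.ker (πZ D Z) := CS_le fun x hx => by
    rw [LinearMap.mem_ker, πZ_cell, if_neg (h x hx)]
  exact this hw

lemma cell_li : LinearIndependent D (cell D : Cell n → CC D n) := by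
  classical
  rw [linearIndependent_iff']
  intro s g hg x hx
  have h1 := congrArg (πZ D {x}) hg
  simp only [map_sum, map_smul, πZ_cell, Set.mem_singleton_iff, smul_ite, smul_zero,
    Finset.sum_ite_eq', hx, if_true, map_zero] at h1
  have h2 := congrArg (fun w : CC D n => (w x.1).coeff x.2) h1
  simpa [cell] using h2

lemma finrank_CS (Z : Finset (Cell n)) : finrank D (CS D (Z : Set (Cell n))) = Z.card := by
  have h1 := finrank_span_eq_card ((cell_li (D := D)).comp (fun m : Z => (m : Cell n))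
    Subtype.val_injective)
  have h2 : Set.range (cell D ∘ fun m : Z => (m : Cell n)) = cell D '' Z := by
    rw [Set.range_comp, Subtype.range_coe_subtype]
    rfl
  rw [h2] at h1
  exact h1.trans (by simp)

noncomputable def md (x : Cell n) : Fin n →₀ ℕ := x.2 + ∑ i ∈ x.1, Finsupp.single i 1

lemma md_apply (x : Cell n) (i : Fin n) : md x i = x.2 i + if i ∈ x.1 then 1 else 0 := by
  simp [md, Finsupp.single_apply]

lemma md_erase {ρ : Finset (Fin n)} {i : Fin n} (hi : i ∈ ρ) (β : Fin n →₀ ℕ) :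
    md (ρ.erase i, β + Finsupp.single i 1) = md (ρ, β) := by
  simp only [md]
  rw [← Finset.add_sum_erase _ _ hi, add_assoc]

def tau (c : ℕ) (α : Fin n →₀ ℕ) (i : Fin n) : Prop := α i ≠ 0 ∧ ¬ (i.val < c ∧ 2 ≤ α i)

def top (c : ℕ) (α : Fin n →₀ ℕ) (v : Fin n) : Prop := tau c α v ∧ ∀ i, tau c α i → i ≤ v

lemma top_unique {c : ℕ} {α : Fin n →₀ ℕ} {v v' : Fin n} (h : top c α v) (h' : top c α v') :
    v = v' := le_antisymm (h'.2 v h.1) (h.2 v' h'.1)

lemma exists_top {c : ℕ} {α : Fin n →₀ ℕ} {i : Fin n} (h : tau c α i) : ∃ v, top c α v := by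
  classical
  obtain ⟨v, hv, hm⟩ := (Finset.univ.filter (tau c α)).exists_max_image id ⟨i, by simpa using h⟩
  exact ⟨v, by simpa using hv, fun j hj => hm j (by simpa using hj)⟩

def Down (c : ℕ) (x : Cell n) : Prop := ∃ v, top c (md x) v ∧ v ∉ x.1

def VC (c : ℕ) (x : Cell n) : Prop := ∃ v, top c (md x) v ∧ v ∈ x.1

lemma VC.not_down {c : ℕ} {x : Cell n} (h : VC c x) : ¬ Down c x := by
  rintro ⟨v, h1, h2⟩
  obtain ⟨v', h3, h4⟩ := h
  exact h2 (top_unique h1 h3 ▸ h4)

lemma down_lift {c p k : ℕ} {x : Cell n} (h : Down c x) (hp : x.1.card = p) (hk : x.2.degree = k) :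
    ∃ k', k = k' + 1 ∧ ∃ z ∈ Cs (p + 1) (Hm D k'), dd (xv D) z - cell D x ∈
      CS D {x | VC c x ∧ x.1.card = p ∧ x.2.degree = k} := by
  obtain ⟨ρ, β⟩ := x
  obtain ⟨v, hv, hvρ⟩ := h
  have h1 : β v ≠ 0 := by
    have := hv.1.1
    rwa [md_apply, if_neg hvρ, add_zero] at this
  have e1 := Finsupp.sub_add_single_one_cancel h1
  generalize β - Finsupp.single v 1 = β' at e1
  subst e1
  simp only at hp hk hvρ
  have e2 : md (insert v ρ, β') = md (ρ, β' + Finsupp.single v 1) := by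
    rw [← md_erase (Finset.mem_insert_self v ρ), Finset.erase_insert hvρ]
  refine ⟨β'.degree, by simpa using hk.symm, sg ρ v • cell D (insert v ρ, β'),
    Submodule.smul_of_tower_mem _ _ (single_mem_Cs (by
      rw [Finset.card_insert_of_notMem hvρ, hp]) (single_mem β' 1)), ?_⟩
  rw [map_zsmul, dd_cell, Finset.sum_insert hvρ, Finset.erase_insert hvρ, smul_add, smul_smul,
    sg_sq, one_smul, add_sub_cancel_left]
  refine Submodule.smul_of_tower_mem _ _ (Submodule.sum_mem _ fun i hi =>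
    Submodule.smul_of_tower_mem _ _ (cell_mem ⟨⟨v, ?_, ?_⟩, ?_, ?_⟩))
  · rwa [md_erase (Finset.mem_insert_of_mem hi), e2]
  · exact Finset.mem_erase.mpr ⟨fun h => hvρ (h ▸ hi), Finset.mem_insert_self _ _⟩
  · simp only
    rw [Finset.card_erase_of_mem (Finset.mem_insert_of_mem hi), Finset.card_insert_of_notMem hvρ]
    omega
  · simpa using hk

noncomputable def cells (n p k : ℕ) : Finset (Cell n) :=
  (Finset.univ.filter fun ρ : Finset (Fin n) => ρ.card = p) ×ˢ AD (Fin n) k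

lemma mem_cells {p k : ℕ} {x : Cell n} : x ∈ cells n p k ↔ x.1.card = p ∧ x.2.degree = k := by
  simp [cells, mem_AD]

open Classical in
noncomputable def Dn (c : ℕ) (L : Set (Fin n →₀ ℕ)) (p k : ℕ) : Finset (Cell n) :=
  (cells n p k).filter fun x => Down c x ∧ x.2 ∉ L

lemma mem_Dn {c : ℕ} {L : Set (Fin n →₀ ℕ)} {p k : ℕ} {x : Cell n} :
    x ∈ Dn c L p k ↔ (x.1.card = p ∧ x.2.degree = k) ∧ Down c x ∧ x.2 ∉ L := by
  simp only [Dn, Finset.mem_filter, mem_cells]

noncomputable def WW (y : Fin n → NP D (Fin n)) (N : Submodule D (NP D (Fin n))) (p k : ℕ) :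
    Submodule D (CC D n) := (Cs (p + 1) (Hm D k)).map (dd y) ⊔ Cs p N

variable (D) in
noncomputable def ML (L : Set (Fin n →₀ ℕ)) (k : ℕ) : Submodule D (NP D (Fin n)) :=
  MS D {β | β ∈ L ∧ β.degree = k}

lemma ML_le (L : Set (Fin n →₀ ℕ)) (k : ℕ) : ML D L k ≤ Hm D k :=
  AddMonoidAlgebra.supported_mono fun _ h => h.2

instance finML (L : Set (Fin n →₀ ℕ)) (k : ℕ) : Module.Finite D (ML D L k) :=
  Submodule.finiteDimensional_of_le (ML_le L k)

lemma lowerW (c : ℕ) (L : Set (Fin n →₀ ℕ)) (p k : ℕ) :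
    (Dn c L p (k + 1)).card + finrank D (Cs p (ML D L (k + 1))) ≤
      finrank D (WW (xv D) (ML D L (k + 1)) p k) := by
  set W := WW (xv D) (ML D L (k + 1)) p k with hW
  have : Module.Finite D W := by rw [hW, WW]; infer_instance
  have h3 := LinearMap.finrank_range_add_finrank_ker ((πZ D (Dn c L p (k + 1))).domRestrict W)
  rw [LinearMap.range_domRestrict, LinearMap.ker_domRestrict] at h3
  have h1 : CS D (Dn c L p (k + 1) : Set (Cell n)) ≤ W.map (πZ D (Dn c L p (k + 1))) := by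
    refine CS_le fun x hx => ?_
    obtain ⟨⟨h1, h2⟩, h4, _⟩ := mem_Dn.mp hx
    obtain ⟨k', hk', z, hz, hz2⟩ := down_lift (D := D) h4 h1 h2
    obtain rfl : k = k' := by omega
    refine ⟨_, Submodule.mem_sup_left ⟨z, hz, rfl⟩, ?_⟩
    have := πZ_zero (Z := Dn c L p (k + 1)) (fun x hx hh => hx.1.not_down (mem_Dn.mp hh).2.1) hz2
    rwa [map_sub, πZ_cell, if_pos hx, sub_eq_zero] at this
  have h2 : (Cs p (ML D L (k + 1))).comap W.subtype ≤
      (LinearMap.ker (πZ D (Dn c L p (k + 1)))).comap W.subtype := by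
    apply Submodule.comap_mono
    rw [ML, Cs_MS]
    exact fun w hw => πZ_zero (fun x hx hh => (mem_Dn.mp hh).2.2 hx.2.1) hw
  have h4 := Submodule.finrank_mono h1
  have h5 := Submodule.finrank_mono h2
  rw [finrank_CS] at h4
  have hle : Cs p (ML D L (k + 1)) ≤ W := le_sup_right
  rw [(Submodule.comapSubtypeEquivOfLe hle).finrank_eq] at h5
  omega

open Classical in
noncomputable def Up (c : ℕ) (L : Set (Fin n →₀ ℕ)) (p k : ℕ) : Finset (Cell n) :=
  (cells n p k).filter fun x => ∃ v, top c (md x) v ∧ v ∈ x.1 ∧ x.2 + Finsupp.single v 1 ∉ L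

lemma mem_Up {c : ℕ} {L : Set (Fin n →₀ ℕ)} {p k : ℕ} {x : Cell n} :
    x ∈ Up c L p k ↔ (x.1.card = p ∧ x.2.degree = k) ∧
      ∃ v, top c (md x) v ∧ v ∈ x.1 ∧ x.2 + Finsupp.single v 1 ∉ L := by
  simp only [Up, Finset.mem_filter, mem_cells]

lemma card_Up (c : ℕ) (L : Set (Fin n →₀ ℕ)) (p k : ℕ) :
    (Up c L (p + 1) k).card ≤ (Dn c L p (k + 1)).card := by
  refine Finset.card_le_card_of_forall_subsingleton (fun y x => ∃ v, top c (md x) v ∧ v ∈ y.1 ∧
    x = (y.1.erase v, y.2 + Finsupp.single v 1)) ?_ ?_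
  · rintro ⟨ρ, β⟩ hy
    simp only [Up, Finset.mem_filter, mem_cells] at hy
    obtain ⟨⟨h1, h2⟩, v, h3, h4, h5⟩ := hy
    rw [← md_erase h4] at h3
    refine ⟨_, mem_Dn.mpr ⟨⟨?_, ?_⟩, ⟨v, h3, Finset.notMem_erase _ _⟩, h5⟩, v, h3, h4, rfl⟩
    · simp only
      rw [Finset.card_erase_of_mem h4]
      omega
    · simp [h2]
  · rintro x _ ⟨ρ, β⟩ ⟨_, v, h1, h2, h3⟩ ⟨ρ', β'⟩ ⟨_, v', h4, h5, h6⟩
    obtain rfl := top_unique h1 h4
    rw [h3, Prod.mk.injEq] at h6
    simp only at h2 h5 h6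
    rw [← Finset.insert_erase h2, ← Finset.insert_erase h5, h6.1, add_right_cancel h6.2]

def InP (c : ℕ) (α : Fin n →₀ ℕ) : Prop := ∃ i : Fin n, i.val < c ∧ 2 ≤ α i

def StabAt (c : ℕ) (L : Set (Fin n →₀ ℕ)) (d : ℕ) : Prop :=
  ∀ (β : Fin n →₀ ℕ) (i j : Fin n), β.degree + 1 = d → i < j → β + Finsupp.single j 1 ∈ L →
    ¬ InP c (β + Finsupp.single j 1) → β + Finsupp.single i 1 ∈ L

lemma upperW (c : ℕ) (L : Set (Fin n →₀ ℕ)) (p k : ℕ) (hP : ∀ α, InP c α → α ∈ L)
    (hS : StabAt c L (k + 1)) :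
    finrank D (WW (xv D) (ML D L (k + 1)) p k) ≤
      (Dn c L p (k + 1)).card + finrank D (Cs p (ML D L (k + 1))) := by
  let T := (CS D (Up c L (p + 1) k : Set (Cell n))).map (dd (xv D)) ⊔ Cs p (ML D L (k + 1))
  have hL : ∀ ρ β, ρ.card = p + 1 → β.degree = k → (∀ i ∈ ρ, β + Finsupp.single i 1 ∈ L) →
      dd (xv D) (cell D (ρ, β)) ∈ T := by
    intro ρ β h1 h2 h3
    apply Submodule.mem_sup_right
    rw [dd_cell, ML, Cs_MS]
    refine Submodule.sum_mem _ fun i hi => Submodule.smul_of_tower_mem _ _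
      (cell_mem ⟨?_, h3 i hi, by simp [h2]⟩)
    simp only
    rw [Finset.card_erase_of_mem hi]
    omega
  have hσ : ∀ ρ β i, i ∈ ρ → ¬ tau c (md (ρ, β)) i → β + Finsupp.single i 1 ∈ L := by
    intro ρ β i hi h
    rw [tau, md_apply, if_pos hi, not_and, not_not] at h
    obtain ⟨h1, h2⟩ := h (by omega)
    exact hP _ ⟨i, h1, by simpa using h2⟩
  have hVC : CS D {x | VC c x ∧ x.1.card = p + 1 ∧ x.2.degree = k} ≤ T.comap (dd (xv D)) := by
    refine CS_le ?_
    rintro ⟨ρ, β⟩ ⟨⟨v, hv, hvρ⟩, h1, h2⟩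
    by_cases h3 : β + Finsupp.single v 1 ∈ L
    · refine hL ρ β h1 h2 fun i hi => ?_
      by_cases h4 : tau c (md (ρ, β)) i
      · rcases (hv.2 i h4).lt_or_eq with h5 | rfl
        · by_cases h6 : InP c (β + Finsupp.single v 1)
          · obtain ⟨l, hl1, hl2⟩ := h6
            have h7 : l ≠ v := by
              rintro rfl
              apply hv.1.2
              rw [md_apply, if_pos hvρ]
              exact ⟨hl1, by simpa using hl2⟩
            refine hP _ ⟨l, hl1, ?_⟩
            simp only [Finsupp.add_apply, Finsupp.single_eq_of_ne h7] at hl2 ⊢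
            omega
          · exact hS β i v (by rw [← h2]) h5 h3 h6
        · exact h3
      · exact hσ ρ β i hi h4
    · refine Submodule.mem_sup_left ⟨_, cell_mem ?_, rfl⟩
      simp only [Up, Finset.coe_filter, mem_cells]
      exact ⟨⟨h1, h2⟩, v, hv, hvρ, h3⟩
  have h1 : WW (xv D) (ML D L (k + 1)) p k ≤ T := by
    refine sup_le ?_ le_sup_right
    rw [Submodule.map_le_iff_le_comap, Cs_Hm]
    refine CS_le ?_
    rintro ⟨ρ, β⟩ ⟨h1, h2⟩
    by_cases h3 : ∃ i, tau c (md (ρ, β)) i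
    · obtain ⟨i, hi⟩ := h3
      obtain ⟨v, hv⟩ := exists_top hi
      by_cases h4 : v ∈ ρ
      · exact hVC (cell_mem ⟨⟨v, hv, h4⟩, h1, h2⟩)
      · obtain ⟨k', _, z, _, hz⟩ := down_lift (D := D) ⟨v, hv, h4⟩ h1 h2
        have h5 := T.neg_mem (hVC hz)
        rwa [map_sub, dd_dd (fun i j => xv_comm i _), zero_sub, neg_neg] at h5
    · exact hL ρ β h1 h2 fun i hi => hσ ρ β i hi fun h => h3 ⟨i, h⟩
  have : Module.Finite D (CS D (Up c L (p + 1) k : Set (Cell n))) :=
    Module.Finite.span_of_finite D ((Finset.finite_toSet _).image _)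
  have h2 := Submodule.finrank_mono h1
  have h3 := Submodule.finrank_add_le_finrank_add_finrank
    ((CS D (Up c L (p + 1) k : Set (Cell n))).map (dd (xv D))) (Cs p (ML D L (k + 1)))
  have h4 := Submodule.finrank_map_le (dd (xv D)) (CS D (Up c L (p + 1) k : Set (Cell n)))
  rw [finrank_CS] at h4
  have h5 := card_Up c L p k
  exact h2.trans (h3.trans (by omega))

lemma exact_one (p : ℕ) {w : CC D n} (hw : w ∈ Cs p (Hm D 1)) (h0 : dd (xv D) w = 0) :
    ∃ t ∈ Cs (p + 1) (Hm D 0), dd (xv D) t = w := by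
  classical
  have hB : ∀ p k, (Dn (n := n) 0 ∅ p (k + 1)).card ≤
      finrank D ((Cs (p + 1) (Hm D k)).map (dd (xv (n := n) D))) := by
    intro p k
    have h1 := lowerW (D := D) (n := n) 0 ∅ p k
    have h2 := Submodule.finrank_add_le_finrank_add_finrank
      ((Cs (p + 1) (Hm D k)).map (dd (xv (n := n) D))) (Cs p (ML D ∅ (k + 1)))
    rw [WW] at h1
    omega
  have h1 : (Cs (p + 1) (Hm D 0)).map (dd (xv D)) ≤
      Cs p (Hm D 1) ⊓ LinearMap.ker (dd (xv (n := n) D)) := by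
    rintro _ ⟨t, ht, rfl⟩
    exact ⟨dd_mem (fun z hz i => mul_mem_Hm hz (xv_mem i)) ht, dd_dd (fun i j => xv_comm i _) t⟩
  have h3 := LinearMap.finrank_range_add_finrank_ker
    ((dd (xv (n := n) D)).domRestrict (Cs p (Hm D 1)))
  rw [LinearMap.range_domRestrict, LinearMap.ker_domRestrict] at h3
  have h4 : (LinearMap.ker (dd (xv (n := n) D))).comap (Cs p (Hm D 1)).subtype =
      (Cs p (Hm D 1) ⊓ LinearMap.ker (dd (xv D))).comap (Cs p (Hm D 1)).subtype := by
    ext v
    simp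
  rw [h4, (Submodule.comapSubtypeEquivOfLe inf_le_left).finrank_eq] at h3
  have h5 : finrank D (Cs (n := n) p (Hm D 1)) = (cells n p 1).card := by
    rw [← finrank_CS (D := D), Cs_Hm]
    refine congrArg (fun Z => finrank D (CS D Z)) ?_
    ext x
    simp [mem_cells]
  have h6 : cells n p 1 ⊆ Dn 0 ∅ p 1 ∪ Up 0 ∅ p 1 := by
    intro x hx
    have h7 := mem_cells.mp hx
    obtain ⟨i, hi⟩ : ∃ i, x.2 i ≠ 0 := by
      by_contra! hh
      have : x.2 = 0 := Finsupp.ext hh
      simp [this] at h7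
    obtain ⟨v, hv⟩ := exists_top (c := 0) (α := md x) (i := i) ⟨by rw [md_apply]; omega, by simp⟩
    by_cases h8 : v ∈ x.1
    · exact Finset.mem_union_right _ (mem_Up.mpr ⟨h7, v, hv, h8, by simp⟩)
    · exact Finset.mem_union_left _ (mem_Dn.mpr ⟨h7, ⟨v, hv, h8⟩, by simp⟩)
  have h7 := (Finset.card_le_card h6).trans (Finset.card_union_le _ _)
  have h8 : (Up (n := n) 0 ∅ p 1).card ≤ finrank D ((Cs p (Hm D 1)).map (dd (xv (n := n) D))) := by
    cases p with
    | zero =>
      have : Up (n := n) 0 ∅ 0 1 = ∅ := by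
        rw [Finset.eq_empty_iff_forall_notMem]
        intro x hx
        obtain ⟨hx, v, _, hv, _⟩ := mem_Up.mp hx
        rw [Finset.card_eq_zero.mp hx.1] at hv
        simp at hv
      simp [this]
    | succ p => exact (card_Up 0 ∅ p 1).trans (hB p 1)
  have h9 := hB p 0
  have : Module.Finite D (Cs p (Hm D 1) ⊓ LinearMap.ker (dd (xv (n := n) D)) :
      Submodule D (CC D n)) := Submodule.finiteDimensional_of_le inf_le_left
  have h10 := Submodule.eq_of_le_of_finrank_le h1 (by rw [zero_add] at h9; omega)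
  have h11 : w ∈ (Cs (p + 1) (Hm D 0)).map (dd (xv D)) := by
    rw [h10]
    exact ⟨hw, h0⟩
  exact h11

end
end Vale.Agent.P200
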