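import Mathlib

/-! Graded Betti numbers through the Koszul complex, and the lex-plus-squares subspace. -/

namespace Vale.Agent.P200

open MvPolynomial

variable {K : Type*} [Field K] {n : ℕ}

/-- The differential of the Koszul complex `Λ ⊗ A` on `x_1, …, x_n ∈ A`; an element is given by its
coordinates on the basis `e_ρ`, and `e_σ ↦ ∑_{i ∈ σ} (-1)^{|{k ∈ σ | k < i}|} x_i e_{σ \ i}`. -/
noncomputable def kosDiff (K : Type*) [Field K] {A : Type*} [CommRing A] [Algebra K A]
    (x : Fin n → A) : (Finset (Fin n) → A) →ₗ[K] (Finset (Fin n) → A) :=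
  LinearMap.pi fun ρ => ∑ i ∈ ρᶜ, ((-1 : K) ^ (ρ.filter (· < i)).card) •
    (LinearMap.mulLeft K (x i) ∘ₗ LinearMap.proj (insert i ρ))

/-- Koszul chains of homological degree `p` and internal degree `j`: `Λ^p ⊗ A_{j-p}`. -/
noncomputable def chains (n : ℕ) {A : Type*} [AddCommGroup A] [Module K A]
    (G : ℕ → Submodule K A) (p j : ℕ) : Submodule K (Finset (Fin n) → A) :=
  Submodule.pi Set.univ fun ρ => if ρ.card = p ∧ p ≤ j then G (j - p) else ⊥

/-- Dimension of `Z / (B ∩ Z)`. -/
noncomputable def quotDim {V : Type*} [AddCommGroup V] [Module K V] (Z B : Submodule K V) : ℕ :=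
  Module.finrank K (Z ⧸ B.comap Z.subtype)

/-- Dimension of cycles in `C` modulo boundaries coming from `C'`. -/
noncomputable def homDim {V : Type*} [AddCommGroup V] [Module K V] (d : V →ₗ[K] V)
    (C C' : Submodule K V) : ℕ :=
  quotDim (C ⊓ LinearMap.ker d) (C'.map d)

/-- `dim_K H_p(x; A)_j` for an algebra `A` with graded pieces `G`. -/
noncomputable def kosHom {A : Type*} [CommRing A] [Algebra K A] (x : Fin n → A)
    (G : ℕ → Submodule K A) (p j : ℕ) : ℕ :=
  homDim (kosDiff K x) (chains n G p j) (chains n G (p + 1) j)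

/-- The graded piece `(S/I)_d`. -/
noncomputable def quotPart (I : Ideal (MvPolynomial (Fin n) K)) (d : ℕ) :
    Submodule K (MvPolynomial (Fin n) K ⧸ I) :=
  (homogeneousSubmodule (Fin n) K d).map (Ideal.Quotient.mkₐ K I).toLinearMap

/-- `β_{p,j}(S/I) = dim_K H_p(x_1, …, x_n; S/I)_j`. -/
noncomputable def betti (I : Ideal (MvPolynomial (Fin n) K)) (p j : ℕ) : ℕ :=
  kosHom (fun i : Fin n => Ideal.Quotient.mk I (X i)) (quotPart I) p j

/-- The degree `d` part `I_d` of an ideal. -/
noncomputable def degPart (I : Ideal (MvPolynomial (Fin n) K)) (d : ℕ) :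
    Submodule K (MvPolynomial (Fin n) K) :=
  I.restrictScalars K ⊓ homogeneousSubmodule (Fin n) K d

/-- `P = (x_1^2, …, x_c^2)`. -/
noncomputable def squares (K : Type*) [Field K] (n c : ℕ) : Ideal (MvPolynomial (Fin n) K) :=
  Ideal.span {f | ∃ i : Fin n, i.val < c ∧ f = X i ^ 2}

/-- `q_d = dim I_d - dim P_d`. -/
noncomputable def qDim (I : Ideal (MvPolynomial (Fin n) K)) (c d : ℕ) : ℕ :=
  Module.finrank K (degPart I d) - Module.finrank K (degPart (squares K n c) d)

/-- Exponents of the degree `d` monomials outside `P`. -/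
def outside (K : Type*) [Field K] (n c d : ℕ) : Set (Fin n →₀ ℕ) :=
  {α | α.degree = d ∧ monomial α 1 ∉ squares K n c}

/-- The `q` lex-greatest members of `A`. -/
def lexTop (A : Set (Fin n →₀ ℕ)) (q : ℕ) : Set (Fin n →₀ ℕ) :=
  {α | α ∈ A ∧ {β | β ∈ A ∧ toLex α < toLex β}.ncard < q}

/-- `J_d`: the span of `P_d` and the `q_d` lex-greatest degree `d` monomials outside `P`. -/
noncomputable def lexPart (I : Ideal (MvPolynomial (Fin n) K)) (c d : ℕ) :
    Submodule K (MvPolynomial (Fin n) K) :=
  degPart (squares K n c) d ⊔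
    Submodule.span K ((fun α => monomial α 1) '' lexTop (outside K n c d) (qDim I c d))

end Vale.Agent.P200
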