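import Vale.Agent.P200.Kos2

/-! Lex segments versus stable sets of monomials outside the squares. -/

namespace Vale.Agent.P200

section
variable {n c : ℕ}

def Sup (m : ℕ) (u : Fin n →₀ ℕ) : Prop := ∀ i : Fin n, m ≤ i.val → u i = 0

def th (c i : ℕ) : ℕ := if i < c then i else i + 1

open Classical in
noncomputable def AA (n c m d : ℕ) : Finset (Fin n →₀ ℕ) :=
  (AD (Fin n) d).filter fun u => ¬ InP c u ∧ Sup m u

lemma mem_AA {m d : ℕ} {u : Fin n →₀ ℕ} :
    u ∈ AA n c m d ↔ u.degree = d ∧ ¬ InP c u ∧ Sup m u := by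
  simp only [AA, Finset.mem_filter, mem_AD]

open Classical in
noncomputable def sh (c d : ℕ) (i : Fin n) (S : Finset (Fin n →₀ ℕ)) : Finset (Fin n →₀ ℕ) :=
  (AA n c (th c i) d).filter fun w => w + Finsupp.single i 1 ∈ S

lemma mem_sh {d : ℕ} {i : Fin n} {S : Finset (Fin n →₀ ℕ)} {w : Fin n →₀ ℕ} :
    w ∈ sh c d i S ↔ w ∈ AA n c (th c i) d ∧ w + Finsupp.single i 1 ∈ S := by
  simp only [sh, Finset.mem_filter]

open Classical in
noncomputable def rs (m : ℕ) (S : Finset (Fin n →₀ ℕ)) : Finset (Fin n →₀ ℕ) := S.filter (Sup m)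

lemma mem_rs {m : ℕ} {S : Finset (Fin n →₀ ℕ)} {w : Fin n →₀ ℕ} :
    w ∈ rs m S ↔ w ∈ S ∧ Sup m w := by
  simp only [rs, Finset.mem_filter]

lemma Sup.mono {m m' : ℕ} {u : Fin n →₀ ℕ} (h : Sup m u) (hm : m ≤ m') : Sup m' u :=
  fun i hi => h i (by omega)

lemma th_le (c i : ℕ) : th c i ≤ i + 1 := by
  rw [th]
  split_ifs <;> omega

lemma sup_add {m : ℕ} {u : Fin n →₀ ℕ} {i : Fin n} :
    Sup m (u + Finsupp.single i 1) ↔ Sup m u ∧ i.val < m := by
  constructor
  · intro h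
    refine ⟨fun j hj => ?_, ?_⟩
    · have := h j hj
      simp only [Finsupp.add_apply] at this
      omega
    · by_contra h1
      simpa using h i (by omega)
  · rintro ⟨h1, h2⟩ j hj
    have : i ≠ j := by
      rintro rfl
      omega
    simp [h1 j hj, this]

lemma InP.add {u : Fin n →₀ ℕ} (h : InP c u) (v : Fin n →₀ ℕ) : InP c (u + v) := by
  obtain ⟨i, h1, h2⟩ := h
  exact ⟨i, h1, by simp only [Finsupp.add_apply]; omega⟩

lemma AA_add {d : ℕ} {i : Fin n} {w : Fin n →₀ ℕ} (h : w ∈ AA n c (th c i) d) :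
    w + Finsupp.single i 1 ∈ AA n c (i + 1) (d + 1) := by
  obtain ⟨h1, h2, h3⟩ := mem_AA.mp h
  refine mem_AA.mpr ⟨by simp [h1], ?_, sup_add.mpr ⟨h3.mono (th_le _ _), by omega⟩⟩
  rintro ⟨l, h4, h5⟩
  by_cases h6 : i = l
  · subst h6
    have := h3 i (by rw [th, if_pos h4])
    simp [this] at h5
  · exact h2 ⟨l, h4, by simpa [h6] using h5⟩

lemma AA_sub {d : ℕ} {i : Fin n} {u : Fin n →₀ ℕ} (h : u ∈ AA n c (i + 1) (d + 1)) (hi : u i ≠ 0) :
    ∃ w ∈ AA n c (th c i) d, w + Finsupp.single i 1 = u := by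
  have e1 := Finsupp.sub_add_single_one_cancel hi
  generalize u - Finsupp.single i 1 = w at e1
  subst e1
  obtain ⟨h1, h2, h3⟩ := mem_AA.mp h
  refine ⟨w, mem_AA.mpr ⟨by simpa using h1, fun h => h2 (h.add _), fun j hj => ?_⟩, rfl⟩
  by_cases h4 : i.val + 1 ≤ j.val
  · exact (sup_add.mp h3).1 j h4
  · rw [th] at hj
    split_ifs at hj with h5
    · obtain rfl : i = j := Fin.ext (by omega)
      by_contra h6
      exact h2 ⟨i, h5, by simp; omega⟩
    · omega

lemma AA_mono {m m' d : ℕ} (h : m ≤ m') : AA n c m d ⊆ AA n c m' d := fun _ hu =>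
  mem_AA.mpr ⟨(mem_AA.mp hu).1, (mem_AA.mp hu).2.1, (mem_AA.mp hu).2.2.mono h⟩

lemma sum_split {m d : ℕ} {S : Finset (Fin n →₀ ℕ)} (hS : S ⊆ AA n c m (d + 1)) (i : Fin n)
    (f : (Fin n →₀ ℕ) → ℕ) : ∑ u ∈ rs (i + 1) S, f u =
      ∑ u ∈ rs i S, f u + ∑ w ∈ sh c d i S, f (w + Finsupp.single i 1) := by
  rw [← Finset.sum_filter_add_sum_filter_not (rs (i + 1) S) (fun u => u i = 0)]
  congr 1
  · refine Finset.sum_congr ?_ fun _ _ => rfl
    ext u
    simp only [Finset.mem_filter, mem_rs, and_assoc]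
    refine and_congr_right fun _ => ⟨fun ⟨h1, h2⟩ j hj => ?_, fun h => ⟨h.mono (by omega), h i le_rfl⟩⟩
    by_cases h3 : i = j
    · exact h3 ▸ h2
    · exact h1 j (by have := Fin.val_ne_of_ne h3; omega)
  · symm
    refine Finset.sum_bij (fun w _ => w + Finsupp.single i 1) (fun w hw => ?_)
      (fun _ _ _ _ h => add_right_cancel h) (fun u hu => ?_) (fun _ _ => rfl)
    · obtain ⟨h1, h2⟩ := mem_sh.mp hw
      exact Finset.mem_filter.mpr ⟨mem_rs.mpr ⟨h2, (mem_AA.mp (AA_add h1)).2.2⟩, by simp⟩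
    · obtain ⟨h1, h2⟩ := Finset.mem_filter.mp hu
      obtain ⟨h3, h4⟩ := mem_rs.mp h1
      have h5 := mem_AA.mp (hS h3)
      obtain ⟨w, hw, rfl⟩ := AA_sub (mem_AA.mpr ⟨h5.1, h5.2.1, h4⟩) h2
      exact ⟨w, mem_sh.mpr ⟨hw, h3⟩, rfl⟩

lemma card_split {m d : ℕ} {S : Finset (Fin n →₀ ℕ)} (hS : S ⊆ AA n c m (d + 1)) (i : Fin n) :
    (rs (i + 1) S).card = (rs i S).card + (sh c d i S).card := by
  simpa using sum_split hS i fun _ => 1

lemma rs_self {m m' d : ℕ} {S : Finset (Fin n →₀ ℕ)} (hS : S ⊆ AA n c m d) (h : m ≤ m') :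
    rs m' S = S := by
  ext u
  rw [mem_rs]
  exact and_iff_left_of_imp fun hu => (mem_AA.mp (hS hu)).2.2.mono h

lemma AA_zero (d : ℕ) : AA n c 0 (d + 1) = ∅ := by
  refine Finset.eq_empty_of_forall_notMem fun u hu => ?_
  obtain ⟨h1, _, h2⟩ := mem_AA.mp hu
  have : u = 0 := Finsupp.ext fun i => h2 i (Nat.zero_le _)
  simp [this] at h1

lemma card_rs {m d : ℕ} {S : Finset (Fin n →₀ ℕ)} (hS : S ⊆ AA n c m (d + 1)) (t : ℕ) (ht : t ≤ n) :
    (rs t S).card = ∑ i ∈ lt' n t, (sh c d i S).card := by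
  induction t with
  | zero =>
    have : rs 0 S ⊆ AA n c 0 (d + 1) := fun u hu => by
      obtain ⟨h1, h2⟩ := mem_rs.mp hu
      exact mem_AA.mpr ⟨(mem_AA.mp (hS h1)).1, (mem_AA.mp (hS h1)).2.1, h2⟩
    rw [AA_zero, Finset.subset_empty] at this
    simp [this, lt']
  | succ t ih =>
    rw [lt'_succ ht, Finset.sum_insert (by simp [mem_lt']), ← ih (by omega)]
    exact (card_split hS ⟨t, ht⟩).trans (add_comm _ _)

lemma lex_low {w w' : Fin n →₀ ℕ} {i j : Fin n} (hd : w'.degree = w.degree) (hs : Sup (j + 1) w')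
    (h : toLex (w + Finsupp.single i 1) ≤ toLex (w' + Finsupp.single j 1)) :
    toLex w ≤ toLex w' := by
  by_contra! h1
  obtain ⟨k, h2, h3⟩ := Finsupp.Lex.lt_iff.mp h1
  simp only [ofLex_toLex] at h2 h3
  have h4 : k < j := by
    by_contra! h4
    have : w'.degree < w.degree := by
      rw [Finsupp.degree_eq_sum, Finsupp.degree_eq_sum]
      refine Finset.sum_lt_sum (fun l _ => ?_) ⟨k, Finset.mem_univ _, h3⟩
      rcases lt_trichotomy l k with h5 | rfl | h5
      · exact (h2 l h5).le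
      · exact h3.le
      · rw [hs l (by have : j < l := lt_of_le_of_lt h4 h5; omega)]
        exact Nat.zero_le _
    omega
  have h5 : toLex (w' + Finsupp.single j 1) < toLex w := by
    refine Finsupp.Lex.lt_iff.mpr ⟨k, fun l hl => ?_, ?_⟩
    · simp [h2 l hl, (hl.trans h4).ne']
    · simpa [h4.ne'] using h3
  exact absurd (h5.trans_le (Finsupp.toLex_monotone le_self_add)) (not_lt.mpr h)

def IsLex (c m d : ℕ) (S : Finset (Fin n →₀ ℕ)) : Prop :=
  S ⊆ AA n c m d ∧ ∀ u ∈ S, ∀ v ∈ AA n c m d, toLex u ≤ toLex v → v ∈ S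

def IsSt (c m d : ℕ) (S : Finset (Fin n →₀ ℕ)) : Prop :=
  S ⊆ AA n c m d ∧ ∀ (β : Fin n →₀ ℕ) (i j : Fin n), i < j → β + Finsupp.single j 1 ∈ S →
    ¬ InP c (β + Finsupp.single i 1) → β + Finsupp.single i 1 ∈ S

lemma rs_sub {m d : ℕ} {S : Finset (Fin n →₀ ℕ)} (hS : S ⊆ AA n c m d) (t : ℕ) :
    rs t S ⊆ AA n c t d := fun _ hu =>
  mem_AA.mpr ⟨(mem_AA.mp (hS (mem_rs.mp hu).1)).1, (mem_AA.mp (hS (mem_rs.mp hu).1)).2.1,
    (mem_rs.mp hu).2⟩

lemma IsLex.rs {m d t : ℕ} {S : Finset (Fin n →₀ ℕ)} (h : IsLex c m d S) (ht : t ≤ m) :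
    IsLex c t d (rs t S) :=
  ⟨rs_sub h.1 t, fun u hu v hv huv =>
    mem_rs.mpr ⟨h.2 u (mem_rs.mp hu).1 v (AA_mono ht hv) huv, (mem_AA.mp hv).2.2⟩⟩

lemma IsSt.rs {m d : ℕ} {S : Finset (Fin n →₀ ℕ)} (h : IsSt c m d S) (t : ℕ) :
    IsSt c t d (rs t S) := by
  refine ⟨rs_sub h.1 t, fun β i j hij h1 h2 => ?_⟩
  obtain ⟨h3, h4⟩ := mem_rs.mp h1
  rw [sup_add] at h4
  exact mem_rs.mpr ⟨h.2 β i j hij h3 h2, sup_add.mpr ⟨h4.1, lt_trans hij h4.2⟩⟩

lemma IsLex.sh {d : ℕ} {i : Fin n} {S : Finset (Fin n →₀ ℕ)} (h : IsLex c (i + 1) (d + 1) S) :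
    IsLex c (th c i) d (sh c d i S) :=
  ⟨fun _ hu => (mem_sh.mp hu).1, fun _ hu _ hv huv => mem_sh.mpr ⟨hv, h.2 _ (mem_sh.mp hu).2 _
    (AA_add hv) (add_le_add_left (α := Lex (Fin n →₀ ℕ)) huv _)⟩⟩

lemma IsSt.sh {m d : ℕ} (i : Fin n) {S : Finset (Fin n →₀ ℕ)} (h : IsSt c m (d + 1) S) :
    IsSt c (th c i) d (sh c d i S) := by
  refine ⟨fun _ hu => (mem_sh.mp hu).1, fun β k j hkj h1 h2 => ?_⟩
  obtain ⟨h3, h4⟩ := mem_sh.mp h1
  obtain ⟨h5, _, h6⟩ := mem_AA.mp h3
  rw [sup_add] at h6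
  have h7 : β + Finsupp.single k 1 ∈ AA n c (th c i) d :=
    mem_AA.mpr ⟨by simpa using h5, h2, sup_add.mpr ⟨h6.1, lt_trans hkj h6.2⟩⟩
  refine mem_sh.mpr ⟨h7, ?_⟩
  have h8 := (mem_AA.mp (AA_add h7)).2.1
  rw [add_right_comm] at h4 h8 ⊢
  exact h.2 _ k j hkj h4 h8

lemma isLex_ge (m d : ℕ) (w : Fin n →₀ ℕ) :
    IsLex c m d ((AA n c m d).filter fun v => toLex w ≤ toLex v) :=
  ⟨Finset.filter_subset _ _, fun _ hu _ hv h =>
    Finset.mem_filter.mpr ⟨hv, (Finset.mem_filter.mp hu).2.trans h⟩⟩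

theorem bigatti (d : ℕ) : ∀ m ≤ n, ∀ L B : Finset (Fin n →₀ ℕ), IsLex c m d L → IsSt c m d B →
    L.card ≤ B.card → ∀ s, (rs s L).card ≤ (rs s B).card := by
  induction d with
  | zero =>
    intro m _ L B hL hB h s
    have : ∀ S ⊆ AA n c m 0, rs s S = S := by
      intro S hS
      ext u
      rw [mem_rs]
      refine and_iff_left_of_imp fun hu i _ => ?_
      simp [(Finsupp.degree_eq_zero_iff u).mp (mem_AA.mp (hS hu)).1]
    rwa [this L hL.1, this B hB.1]
  | succ d ihd =>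
    intro m
    induction m with
    | zero =>
      intro _ L B hL _ _ s
      have := rs_sub hL.1 s
      have h1 := hL.1
      rw [AA_zero, Finset.subset_empty] at h1
      simp [h1, rs]
    | succ t iht =>
      intro ht L B hL hB h s
      by_cases hs : t + 1 ≤ s
      · rwa [rs_self hL.1 hs, rs_self hB.1 hs]
      have key : (rs t L).card ≤ (rs t B).card := by
        by_contra! hlt
        let τ : Fin n := ⟨t, ht⟩
        have h1 := card_split hL.1 τ
        have h2 := card_split hB.1 τ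
        rw [rs_self hL.1 le_rfl] at h1
        rw [rs_self hB.1 le_rfl] at h2
        have h3 : (sh c d τ L).card < (sh c d τ B).card := by
          simp only [τ] at h1 h2 ⊢
          omega
        obtain ⟨w, hw, hmax⟩ := (AA n c (th c τ) d \ sh c d τ L).exists_max_image toLex (by
          obtain ⟨w, h4, h5⟩ := Finset.exists_mem_notMem_of_card_lt_card h3
          exact ⟨w, Finset.mem_sdiff.mpr ⟨(mem_sh.mp h4).1, h5⟩⟩)
        obtain ⟨hw1, hw2⟩ := Finset.mem_sdiff.mp hw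
        have h4 : ((AA n c (th c τ) d).filter fun v => toLex w ≤ toLex v) ⊆
            insert w (sh c d τ L) := by
          intro v hv
          obtain ⟨h5, h6⟩ := Finset.mem_filter.mp hv
          by_cases h7 : v ∈ sh c d τ L
          · exact Finset.mem_insert_of_mem h7
          · rw [toLex.injective (le_antisymm (hmax v (Finset.mem_sdiff.mpr ⟨h5, h7⟩)) h6)]
            exact Finset.mem_insert_self _ _
        have h5 := ihd (th c τ) ((th_le _ _).trans ht) _ _ (isLex_ge _ d w) (hB.sh τ)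
          (((Finset.card_le_card h4).trans (Finset.card_insert_le _ _)).trans h3)
        refine absurd hlt (not_lt.mpr ?_)
        rw [card_rs hL.1 t (by omega), card_rs hB.1 t (by omega)]
        refine Finset.sum_le_sum fun i hi => ?_
        have hi' : i < τ := mem_lt'.mp hi
        refine ((Finset.card_le_card fun v hv => ?_).trans (h5 (th c i))).trans
          (Finset.card_le_card fun v hv => ?_)
        · obtain ⟨h6, h7⟩ := mem_sh.mp hv
          obtain ⟨h8, h9, h10⟩ := mem_AA.mp h6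
          refine mem_rs.mpr ⟨Finset.mem_filter.mpr ⟨mem_AA.mpr ⟨h8, h9, h10.mono ?_⟩, ?_⟩, h10⟩
          · have : i.val < τ.val := hi'
            have := th_le c i
            rw [th.eq_1 c τ]
            split_ifs <;> omega
          · refine lex_low (i := τ) (j := i) (h8.trans (mem_AA.mp hw1).1.symm)
              (h10.mono (th_le _ _)) ?_
            by_contra! h11
            exact hw2 (mem_sh.mpr ⟨hw1, hL.2 _ h7 _ (AA_add hw1) h11.le⟩)
        · obtain ⟨h6, h7⟩ := mem_rs.mp hv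
          obtain ⟨h8, h9⟩ := mem_sh.mp h6
          have h10 : v ∈ AA n c (th c i) d :=
            mem_AA.mpr ⟨(mem_AA.mp h8).1, (mem_AA.mp h8).2.1, h7⟩
          exact mem_sh.mpr ⟨h10, hB.2 v i τ hi' h9 (mem_AA.mp (AA_add h10)).2.1⟩
      have e : ∀ S : Finset (Fin n →₀ ℕ), rs s (rs t S) = rs s S := by
        intro S
        ext u
        simp only [mem_rs, and_assoc]
        exact and_congr_right fun _ => and_iff_right_of_imp fun h => h.mono (by omega)
      have := iht (by omega) _ _ (hL.rs (by omega)) (hB.rs t) key s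
      rwa [e, e] at this

theorem shadow {d : ℕ} {L B L' B' : Finset (Fin n →₀ ℕ)} (hL : IsLex c n d L) (hB : IsSt c n d B)
    (h : L.card ≤ B.card) (hL' : IsLex c n (d + 1) L') (hB' : B' ⊆ AA n c n (d + 1))
    (h' : B'.card ≤ L'.card)
    (hup : ∀ w ∈ B, ∀ i, ¬ InP c (w + Finsupp.single i 1) → w + Finsupp.single i 1 ∈ B')
    {w : Fin n →₀ ℕ} (hw : w ∈ L) (i : Fin n) (hi : ¬ InP c (w + Finsupp.single i 1)) :
    w + Finsupp.single i 1 ∈ L' := by
  by_contra h0
  have hd := (mem_AA.mp (hL.1 hw)).1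
  have hs : ∀ u : Fin n →₀ ℕ, Sup n u := fun u j hj => absurd j.2 (by omega)
  have h1 : w + Finsupp.single i 1 ∈ AA n c n (d + 1) := mem_AA.mpr ⟨by simp [hd], hi, hs _⟩
  have hU := isLex_ge (c := c) n (d + 1) (w + Finsupp.single i 1)
  set U := (AA n c n (d + 1)).filter fun v => toLex (w + Finsupp.single i 1) ≤ toLex v with hUd
  have h2 : L'.card < U.card := by
    refine Finset.card_lt_card ⟨fun v hv => Finset.mem_filter.mpr ⟨hL'.1 hv, ?_⟩,
      fun hh => h0 (hh (Finset.mem_filter.mpr ⟨h1, le_rfl⟩))⟩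
    by_contra! h3
    exact h0 (hL'.2 v hv _ h1 h3.le)
  refine absurd (h2.trans_le ?_) (not_lt.mpr h')
  rw [← rs_self hU.1 le_rfl, ← rs_self hB' le_rfl, card_rs hU.1 n le_rfl, card_rs hB' n le_rfl]
  refine Finset.sum_le_sum fun j _ => ?_
  refine ((Finset.card_le_card fun v hv => ?_).trans
    (bigatti d n le_rfl L B hL hB h (th c j))).trans (Finset.card_le_card fun v hv => ?_)
  · obtain ⟨h6, h7⟩ := mem_sh.mp hv
    obtain ⟨h8, h9, h10⟩ := mem_AA.mp h6
    exact mem_rs.mpr ⟨hL.2 w hw v (mem_AA.mpr ⟨h8, h9, hs _⟩) (lex_low (h8.trans hd.symm)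
      (h10.mono (th_le _ _)) (Finset.mem_filter.mp h7).2), h10⟩
  · obtain ⟨h6, h7⟩ := mem_rs.mp hv
    have h10 : v ∈ AA n c (th c j) d :=
      mem_AA.mpr ⟨(mem_AA.mp (hB.1 h6)).1, (mem_AA.mp (hB.1 h6)).2.1, h7⟩
    exact mem_sh.mpr ⟨h10, hup v h6 j (mem_AA.mp (AA_add h10)).2.1⟩

open Classical in
noncomputable def bS (c p : ℕ) (u : Fin n →₀ ℕ) : Finset (Finset (Fin n)) :=
  Finset.univ.filter fun ρ => ρ.card = p ∧ Down c (ρ, u)

lemma mem_bS {p : ℕ} {u : Fin n →₀ ℕ} {ρ : Finset (Fin n)} :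
    ρ ∈ bS c p u ↔ ρ.card = p ∧ Down c (ρ, u) := by
  simp only [bS, Finset.mem_filter, Finset.mem_univ, true_and]

lemma Down.sub {m : ℕ} {u : Fin n →₀ ℕ} {ρ : Finset (Fin n)} (h : Down c (ρ, u)) (hs : Sup m u) :
    ρ ⊆ lt' n m := by
  obtain ⟨v, hv, hvρ⟩ := h
  have h1 : v.val < m := by
    by_contra h2
    have := hv.1.1
    rw [md_apply, if_neg hvρ] at this
    exact this (hs v (by omega))
  intro i hi
  rw [mem_lt']
  by_contra h2
  have h3 : md (ρ, u) i = 1 := by
    rw [md_apply, if_pos hi]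
    simp [hs i (by omega)]
  have : i.val ≤ v.val := hv.2 i ⟨by omega, by omega⟩
  omega

lemma bS_le {m : ℕ} (hm : m ≤ n) (p : ℕ) {u : Fin n →₀ ℕ} (hs : Sup m u) :
    (bS c p u).card ≤ m.choose p := by
  conv_rhs => rw [← card_lt' hm, ← Finset.card_powersetCard]
  exact Finset.card_le_card fun ρ hρ =>
    Finset.mem_powersetCard.mpr ⟨(mem_bS.mp hρ).2.sub hs, (mem_bS.mp hρ).1⟩

lemma bS_zero (p : ℕ) : bS c p (0 : Fin n →₀ ℕ) = ∅ := by
  refine Finset.eq_empty_of_forall_notMem fun ρ hρ => ?_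
  obtain ⟨_, v, hv, hvρ⟩ := mem_bS.mp hρ
  have := hv.1.1
  rw [md_apply, if_neg hvρ] at this
  exact this rfl

noncomputable def bm (c p t : ℕ) (w : Fin n →₀ ℕ) : ℕ :=
  if t < c ∧ 0 < p then (bS c (p - 1) w).card else 0

lemma bS_add {d : ℕ} {t : Fin n} {w : Fin n →₀ ℕ} (hw : w ∈ AA n c (th c t) d) (p : ℕ) :
    (bS c p (w + Finsupp.single t 1)).card = t.val.choose p + bm c p t w := by
  obtain ⟨_, h2, h3⟩ := mem_AA.mp (AA_add hw)
  rw [← Finset.card_filter_add_card_filter_not (fun ρ => t ∉ ρ)]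
  congr 1
  · rw [← card_lt' t.2.le, ← Finset.card_powersetCard]
    congr 1
    ext ρ
    simp only [Finset.mem_filter, mem_bS, Finset.mem_powersetCard]
    constructor
    · rintro ⟨⟨h4, h5⟩, h6⟩
      refine ⟨fun i hi => mem_lt'.mpr ?_, h4⟩
      have h7 := mem_lt'.mp (h5.sub h3 hi)
      have : i.val ≠ t.val := fun h => h6 (Fin.ext h ▸ hi)
      omega
    · rintro ⟨h4, h5⟩
      have h6 : t ∉ ρ := fun h => lt_irrefl _ (mem_lt'.mp (h4 h))
      refine ⟨⟨h5, t, ⟨⟨?_, fun h => h2 ⟨t, h.1, ?_⟩⟩, fun i hi => ?_⟩, h6⟩, h6⟩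
      · simp [md_apply]
      · simpa [md_apply, h6] using h.2
      · by_contra! h7
        have h8 : i ∉ ρ := fun h => absurd (mem_lt'.mp (h4 h)) (not_lt.mpr h7.le)
        apply hi.1
        rw [md_apply, if_neg h8]
        exact h3 i h7
  · simp only [not_not]
    rw [bm]
    split_ifs with h4
    · have h5 : Sup t w := by
        have := (mem_AA.mp hw).2.2
        rwa [th, if_pos h4.1] at this
      have h6 : ∀ ρ : Finset (Fin n), t ∉ ρ →
          (Down c (insert t ρ, w + Finsupp.single t 1) ↔ Down c (ρ, w)) := by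
        intro ρ hρ
        have h7 : ∀ i, tau c (md (insert t ρ, w + Finsupp.single t 1)) i ↔ tau c (md (ρ, w)) i := by
          intro i
          by_cases h8 : i = t
          · subst h8
            simp [tau, md_apply, hρ, h5 i le_rfl, h4.1]
          · simp [tau, md_apply, h8]
        have h8 : ¬ tau c (md (ρ, w)) t := by simp [tau, md_apply, hρ, h5 t le_rfl]
        simp only [Down, top, h7, Finset.mem_insert, not_or]
        refine exists_congr fun v => and_congr_right fun hv => and_iff_right ?_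
        rintro rfl
        exact h8 hv.1
      symm
      refine Finset.card_bij (fun ρ _ => insert t ρ) (fun ρ hρ => ?_) (fun ρ hρ ρ' hρ' h => ?_)
        (fun ρ hρ => ?_)
      · obtain ⟨h7, h8⟩ := mem_bS.mp hρ
        have h9 : t ∉ ρ := fun h => lt_irrefl _ (mem_lt'.mp (h8.sub h5 h))
        refine Finset.mem_filter.mpr ⟨mem_bS.mpr ⟨?_, (h6 ρ h9).mpr h8⟩, Finset.mem_insert_self _ _⟩
        rw [Finset.card_insert_of_notMem h9]
        omega
      · have h9 : t ∉ ρ := fun h => lt_irrefl _ (mem_lt'.mp ((mem_bS.mp hρ).2.sub h5 h))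
        have h10 : t ∉ ρ' := fun h => lt_irrefl _ (mem_lt'.mp ((mem_bS.mp hρ').2.sub h5 h))
        rw [← Finset.erase_insert h9, h, Finset.erase_insert h10]
      · obtain ⟨h7, h8⟩ := Finset.mem_filter.mp hρ
        obtain ⟨h9, h10⟩ := mem_bS.mp h7
        refine ⟨ρ.erase t, mem_bS.mpr ⟨by rw [Finset.card_erase_of_mem h8, h9], ?_⟩,
          Finset.insert_erase h8⟩
        rwa [← h6 _ (Finset.notMem_erase _ _), Finset.insert_erase h8]
    · rw [Finset.card_eq_zero]
      refine Finset.eq_empty_of_forall_notMem fun ρ hρ => h4 ?_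
      obtain ⟨h7, h8⟩ := Finset.mem_filter.mp hρ
      obtain ⟨h9, h10⟩ := mem_bS.mp h7
      refine ⟨?_, h9 ▸ Finset.card_pos.mpr ⟨t, h8⟩⟩
      by_contra h11
      obtain ⟨v, hv, hvρ⟩ := h10
      have h12 : t ≤ v := hv.2 t ⟨by simp [md_apply], fun h => h11 h.1⟩
      have h13 : t ≠ v := fun h => hvρ (h ▸ h8)
      apply hv.1.1
      rw [md_apply, if_neg hvρ]
      exact h3 v (lt_of_le_of_ne h12 h13)

lemma shrink {m d : ℕ} (k : ℕ) : ∀ L : Finset (Fin n →₀ ℕ), IsLex c m d L → k ≤ L.card →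
    ∃ L' ⊆ L, IsLex c m d L' ∧ L'.card = k := by
  classical
  intro L
  induction L using Finset.induction_on_min_value
    (toLex : (Fin n →₀ ℕ) → Lex (Fin n →₀ ℕ)) with
  | empty => exact fun h hk => ⟨∅, subset_rfl, h, by simpa using hk.antisymm' (Nat.zero_le _)⟩
  | insert a s ha hmin ih =>
    intro h hk
    rcases hk.eq_or_lt with h1 | h1
    · exact ⟨_, subset_rfl, h, h1.symm⟩
    rw [Finset.card_insert_of_notMem ha] at h1
    have hs : IsLex c m d s := by
      refine ⟨(Finset.subset_insert _ _).trans h.1, fun u hu v hv huv => ?_⟩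
      refine (Finset.mem_insert.mp (h.2 u (Finset.mem_insert_of_mem hu) v hv huv)).resolve_left ?_
      rintro rfl
      exact ha (toLex.injective (le_antisymm huv (hmin u hu)) ▸ hu)
    obtain ⟨L', h2, h3⟩ := ih hs (by omega)
    exact ⟨L', h2.trans (Finset.subset_insert _ _), h3⟩

theorem weight (m : ℕ) (hm : m ≤ n) : ∀ d p, ∀ L B : Finset (Fin n →₀ ℕ), IsLex c m d L →
    IsSt c m d B → ∑ u ∈ B, (bS c p u).card ≤
      ∑ u ∈ L, (bS c p u).card + (B.card - L.card) * m.choose p := by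
  have h0 : ∀ m p, ∀ B ⊆ AA n c m 0, ∑ u ∈ B, (bS c p u).card = 0 := by
    intro m p B hB
    refine Finset.sum_eq_zero fun u hu => ?_
    rw [(Finsupp.degree_eq_zero_iff u).mp (mem_AA.mp (hB hu)).1, bS_zero, Finset.card_empty]
  induction m with
  | zero =>
    intro d p L B _ hB
    cases d with
    | zero => simp [h0 0 p B hB.1]
    | succ d =>
      have := hB.1
      rw [AA_zero, Finset.subset_empty] at this
      simp [this]
  | succ t ih =>
    intro d p L B hL hB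
    cases d with
    | zero => simp [h0 _ p B hB.1]
    | succ d =>
      wlog h : L.card ≤ B.card generalizing L
      · obtain ⟨L', h1, h2, h3⟩ := shrink B.card L hL (by omega)
        have h4 := this L' h2 h3.le
        rw [h3, Nat.sub_self, zero_mul, add_zero] at h4
        exact h4.trans ((Finset.sum_le_sum_of_subset h1).trans (Nat.le_add_right _ _))
      let τ : Fin n := ⟨t, hm⟩
      have h1 := bigatti _ _ hm L B hL hB h t
      have h2 := ih (by omega) _ p _ _ (hL.rs (Nat.le_succ t)) (hB.rs t)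
      have h3 : ∀ S ⊆ AA n c (t + 1) (d + 1), ∑ u ∈ S, (bS c p u).card =
          ∑ u ∈ rs t S, (bS c p u).card + ((sh c d τ S).card * t.choose p +
            ∑ w ∈ sh c d τ S, bm c p t w) := by
        intro S hS
        have := sum_split hS τ fun u => (bS c p u).card
        rw [rs_self hS le_rfl] at this
        rw [this, Finset.sum_congr rfl fun w hw => bS_add (mem_sh.mp hw).1 p,
          Finset.sum_add_distrib, Finset.sum_const, smul_eq_mul]
      have h4 := card_split hL.1 τ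
      have h5 := card_split hB.1 τ
      rw [rs_self hL.1 le_rfl] at h4
      rw [rs_self hB.1 le_rfl] at h5
      simp only [τ] at h4 h5
      have h6 : ∃ e, (t + 1).choose p = t.choose p + e ∧ ∑ w ∈ sh c d τ B, bm c p t w ≤
          ∑ w ∈ sh c d τ L, bm c p t w + (B.card - L.card) * e := by
        by_cases h7 : t < c ∧ 0 < p
        · obtain ⟨p, rfl⟩ : ∃ p', p = p' + 1 := ⟨p - 1, by omega⟩
          have h8 := hL.sh (i := τ)
          have h9 := hB.sh τ
          have e : th c τ = t := if_pos h7.1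
          rw [e] at h8 h9
          refine ⟨t.choose p, by rw [Nat.choose_succ_succ', add_comm], ?_⟩
          simp only [bm, if_pos h7, Nat.add_sub_cancel]
          refine (ih (by omega) _ p _ _ h8 h9).trans (Nat.add_le_add_left ?_ _)
          refine Nat.mul_le_mul_right _ ?_
          simp only [τ]
          omega
        · obtain ⟨e, he⟩ := Nat.exists_eq_add_of_le (Nat.choose_le_succ t p)
          exact ⟨e, he, by simp [bm, h7]⟩
      obtain ⟨e, h7, h8⟩ := h6
      rw [h3 B hB.1, h3 L hL.1, h7, mul_add]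
      have h9 : ((rs t B).card - (rs t L).card) * t.choose p + (sh c d τ B).card * t.choose p =
          (sh c d τ L).card * t.choose p + (B.card - L.card) * t.choose p := by
        rw [← add_mul, ← add_mul]
        congr 1
        simp only [τ]
        omega
      omega

lemma card_Dn (L : Set (Fin n →₀ ℕ)) (hP : ∀ α, InP c α → α ∈ L) (p d : ℕ)
    {B : Finset (Fin n →₀ ℕ)} (hB : ∀ u, u ∈ B ↔ u ∈ AA n c n d ∧ u ∈ L) :
    (Dn c L p d).card + ∑ u ∈ B, (bS c p u).card = ∑ u ∈ AA n c n d, (bS c p u).card := by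
  have h1 : B ⊆ AA n c n d := fun u hu => ((hB u).mp hu).1
  rw [← Finset.sum_sdiff h1]
  congr 1
  rw [← Finset.card_sigma]
  refine Finset.card_bij (fun x _ => ⟨x.2, x.1⟩) (fun x hx => ?_) (fun x _ x' _ h => ?_)
    (fun x hx => ?_)
  · obtain ⟨⟨h2, h3⟩, h4, h5⟩ := mem_Dn.mp hx
    exact Finset.mem_sigma.mpr ⟨Finset.mem_sdiff.mpr ⟨mem_AA.mpr ⟨h3, fun h => h5 (hP _ h),
      fun j hj => absurd j.2 (by omega)⟩, fun h => h5 ((hB _).mp h).2⟩, mem_bS.mpr ⟨h2, h4⟩⟩
  · simp only [Sigma.mk.injEq, heq_eq_eq] at h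
    exact Prod.ext h.2 h.1
  · obtain ⟨h2, h3⟩ := Finset.mem_sigma.mp hx
    obtain ⟨h4, h5⟩ := Finset.mem_sdiff.mp h2
    obtain ⟨h6, h7⟩ := mem_bS.mp h3
    exact ⟨(x.2, x.1), mem_Dn.mpr ⟨⟨h6, (mem_AA.mp h4).1⟩, h7, fun h => h5 ((hB _).mpr ⟨h4, h⟩)⟩, rfl⟩

lemma card_top {α β : Type*} [LinearOrder β] (f : α → β) (hf : Function.Injective f) (A : Finset α)
    (q : ℕ) (hq : q ≤ A.card) :
    (A.filter fun a => (A.filter fun b => f a < f b).card < q).card = q := by
  classical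
  let g : α → ℕ := fun a => (A.filter fun b => f a < f b).card
  have h1 : ∀ a ∈ A, ∀ b ∈ A, f a < f b → g b < g a := by
    intro a _ b hb h
    refine Finset.card_lt_card ⟨fun x hx => Finset.mem_filter.mpr
      ⟨(Finset.mem_filter.mp hx).1, h.trans (Finset.mem_filter.mp hx).2⟩, fun hh => ?_⟩
    exact lt_irrefl _ (Finset.mem_filter.mp (hh (Finset.mem_filter.mpr ⟨hb, h⟩))).2
  have h2 : Set.InjOn g A := by
    intro a ha b hb h
    apply hf
    rcases lt_trichotomy (f a) (f b) with h3 | h3 | h3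
    · exact absurd h (h1 a ha b hb h3).ne'
    · exact h3
    · exact absurd h (h1 b hb a ha h3).ne
  have h3 : A.image g = Finset.range A.card := by
    refine Finset.eq_of_subset_of_card_le (fun x hx => ?_)
      (by rw [Finset.card_image_of_injOn h2, Finset.card_range])
    obtain ⟨a, ha, rfl⟩ := Finset.mem_image.mp hx
    exact Finset.mem_range.mpr (Finset.card_lt_card ⟨Finset.filter_subset _ _,
      fun hh => lt_irrefl _ (Finset.mem_filter.mp (hh ha)).2⟩)
  rw [← Finset.card_image_of_injOn (h2.mono (Finset.coe_subset.mpr (Finset.filter_subset _ _))),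
    ← Finset.filter_image (f := g) (p := fun x => x < q), h3]
  have : (Finset.range A.card).filter (fun x => x < q) = Finset.range q := by
    ext x
    simp only [Finset.mem_filter, Finset.mem_range]
    omega
  rw [this, Finset.card_range]

end
end Vale.Agent.P200
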