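import Mathlib

/-! The quantum plane embeds in a division ring. -/

namespace Vale.Agent.P200

open AddMonoidAlgebra Module
open scoped nonZeroDivisors

universe u

theorem qp_aux {F Ω : Type u} [Field F] [Ring Ω] [Algebra F Ω] (q : F) (hq : q ≠ 0)
    (w : ℕ × ℕ → Ω) (hw0 : ∀ m, w m ≠ 0) (hw1 : w 0 = 1)
    (hw : ∀ m m', w m * w m' = q ^ (m.1 * m'.2) • w (m + m')) :
    ∃ (D : Type u) (_ : DivisionRing D) (_ : Algebra F D) (a b : D),
      a ≠ 0 ∧ b ≠ 0 ∧ a * b = q • (b * a) := by
  let e : ℕ × ℕ → AddMonoidAlgebra Ω (ℕ × ℕ) := fun m => single m (w m)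
  have he : ∀ m m', e m * e m' = q ^ (m.1 * m'.2) • e (m + m') := by
    intro m m'
    simp only [e, single_mul_single, hw, smul_single]
  have hmul : ∀ (s t r : Set (ℕ × ℕ)), (∀ m ∈ s, ∀ m' ∈ t, m + m' ∈ r) →
      ∀ x ∈ Submodule.span F (e '' s), ∀ y ∈ Submodule.span F (e '' t),
        x * y ∈ Submodule.span F (e '' r) := by
    intro s t r hr x hx y hy
    have := Submodule.mul_mem_mul hx hy
    rw [Submodule.span_mul_span] at this
    refine Submodule.span_le.mpr ?_ this
    rintro _ ⟨_, ⟨m, hm, rfl⟩, _, ⟨m', hm', rfl⟩, rfl⟩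
    simp only [he]
    exact Submodule.smul_mem _ _ (Submodule.subset_span ⟨_, hr m hm m' hm', rfl⟩)
  have hone : e 0 = 1 := by simp [e, hw1, one_def]
  let U : Subalgebra F (AddMonoidAlgebra Ω (ℕ × ℕ)) :=
    (Submodule.span F (e '' Set.univ)).toSubalgebra
      (Submodule.subset_span ⟨0, trivial, hone⟩)
      (fun x y hx hy => hmul _ _ _ (fun _ _ _ _ => Set.mem_univ _) x hx y hy)
  have hU : ∀ x, x ∈ U ↔ x ∈ Submodule.span F (e '' Set.univ) := fun _ => Iff.rfl
  have hco : ∀ x ∈ Submodule.span F (e '' Set.univ), ∀ m, ∃ l : F, x.coeff m = l • w m := by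
    intro x hx
    induction hx using Submodule.span_induction with
    | mem x hx =>
      obtain ⟨m', -, rfl⟩ := hx
      intro m
      by_cases h : m' = m
      · exact ⟨1, by simp [e, h]⟩
      · exact ⟨0, by simp [e, h]⟩
    | zero => exact fun m => ⟨0, by simp⟩
    | add x y _ _ hx hy =>
      intro m
      obtain ⟨a, ha⟩ := hx m
      obtain ⟨b, hb⟩ := hy m
      exact ⟨a + b, by simp [ha, hb, add_smul]⟩
    | smul c x _ hx =>
      intro m
      obtain ⟨a, ha⟩ := hx m
      exact ⟨c * a, by simp [ha, mul_smul]⟩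
  have hdom : ∀ x ∈ U, ∀ y ∈ U, x ≠ 0 → y ≠ 0 → x * y ≠ 0 := by
    intro x hx y hy hx0 hy0 h
    obtain ⟨m, hm, n, hn, hu⟩ := UniqueSums.uniqueAdd_of_nonempty (A := x.coeff.support)
      (B := y.coeff.support) (Finsupp.support_nonempty_iff.mpr (by simpa using hx0))
      (Finsupp.support_nonempty_iff.mpr (by simpa using hy0))
    have h4 := coeff_mul_add_of_uniqueAdd hu
    obtain ⟨a, ha⟩ := hco x hx m
    obtain ⟨b, hb⟩ := hco y hy n
    rw [Finsupp.mem_support_iff] at hm hn
    have ha0 : a ≠ 0 := by rintro rfl; simp [ha] at hm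
    have hb0 : b ≠ 0 := by rintro rfl; simp [hb] at hn
    rw [h, ha, hb, smul_mul_smul_comm, hw, smul_smul] at h4
    exact hw0 _ ((smul_eq_zero_iff_right (mul_ne_zero (mul_ne_zero ha0 hb0)
      (pow_ne_zero _ hq))).mp h4.symm)
  have hnt : Nontrivial Ω := ⟨⟨_, _, hw0 0⟩⟩
  have : NoZeroDivisors U := ⟨fun {x y} h => by
    by_contra! hh
    exact hdom x x.2 y y.2 (fun h0 => hh.1 (Subtype.ext h0)) (fun h0 => hh.2 (Subtype.ext h0))
      (congrArg Subtype.val h)⟩
  let box : ℕ → Finset (ℕ × ℕ) := fun d => Finset.range (d + 1) ×ˢ Finset.range (d + 1)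
  have hbox : ∀ d m, m ∈ box d ↔ m.1 ≤ d ∧ m.2 ≤ d := by
    intro d m
    simp [box]
  let V : ℕ → Submodule F (AddMonoidAlgebra Ω (ℕ × ℕ)) := fun d => Submodule.span F (e '' box d)
  have hli : LinearIndependent F e := by
    rw [linearIndependent_iff']
    intro s g hg m hm
    have := congrArg (fun x : AddMonoidAlgebra Ω (ℕ × ℕ) => x.coeff m) hg
    simp only [e, coeff_sum, coeff_smul, coeff_single, Finsupp.finsetSum_apply, Finsupp.smul_apply,
      Finsupp.single_apply, smul_ite, smul_zero, Finset.sum_ite_eq', hm, if_true, coeff_zero,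
      Finsupp.zero_apply] at this
    exact (smul_eq_zero_iff_left (hw0 m)).mp this
  have hV : ∀ d, finrank F (V d) = (d + 1) * (d + 1) := by
    intro d
    have h1 := finrank_span_eq_card (hli.comp (fun m : box d => (m : ℕ × ℕ)) Subtype.val_injective)
    have h2 : Set.range (e ∘ fun m : box d => (m : ℕ × ℕ)) = e '' box d := by
      rw [Set.range_comp, Subtype.range_coe_subtype]
      rfl
    rw [h2] at h1
    simpa [box] using h1
  have hVf : ∀ d, Module.Finite F (V d) := fun d =>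
    Module.Finite.span_of_finite F ((box d).finite_toSet.image e)
  have hex : ∀ x ∈ Submodule.span F (e '' Set.univ), ∃ d, ∀ d', d ≤ d' → x ∈ V d' := by
    intro x hx
    induction hx using Submodule.span_induction with
    | mem x hx =>
      obtain ⟨m, -, rfl⟩ := hx
      exact ⟨m.1 + m.2, fun d' hd => Submodule.subset_span
        ⟨m, (hbox _ _).mpr ⟨by omega, by omega⟩, rfl⟩⟩
    | zero => exact ⟨0, fun _ _ => Submodule.zero_mem _⟩
    | add x y _ _ hx hy =>
      obtain ⟨a, ha⟩ := hx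
      obtain ⟨b, hb⟩ := hy
      exact ⟨a + b, fun d hd => Submodule.add_mem _ (ha d (by omega)) (hb d (by omega))⟩
    | smul c x _ hx =>
      obtain ⟨a, ha⟩ := hx
      exact ⟨a, fun d hd => Submodule.smul_mem _ _ (ha d hd)⟩
  have hVU : ∀ d, ∀ x ∈ V d, x ∈ U := fun d x hx =>
    Submodule.span_mono (Set.image_mono (Set.subset_univ _)) hx
  obtain ⟨inst⟩ : Nonempty (OreLocalization.OreSet U⁰) := by
    rw [OreLocalization.nonempty_oreSet_iff_of_noZeroDivisors]
    intro r s
    have hs0 : ((s : U) : AddMonoidAlgebra Ω (ℕ × ℕ)) ≠ 0 := fun h =>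
      nonZeroDivisors.coe_ne_zero s (Subtype.ext h)
    obtain ⟨d1, h1⟩ := hex r r.2
    obtain ⟨d2, h2⟩ := hex s (s : U).2
    have hm : ∀ y ∈ V (d1 + d2), ∀ x ∈ V (3 * (d1 + d2)), x * y ∈ V (4 * (d1 + d2)) := by
      intro y hy x hx
      refine hmul _ _ _ (fun m hm m' hm' => ?_) x hx y hy
      rw [Finset.mem_coe, hbox] at hm hm' ⊢
      simp only [Prod.fst_add, Prod.snd_add]
      omega
    let φ : V (3 * (d1 + d2)) × V (3 * (d1 + d2)) →ₗ[F] V (4 * (d1 + d2)) :=
      LinearMap.codRestrict _ ((LinearMap.mulRight F (r : AddMonoidAlgebra Ω (ℕ × ℕ)) ∘ₗ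
        Submodule.subtype _).coprod (-(LinearMap.mulRight F
          ((s : U) : AddMonoidAlgebra Ω (ℕ × ℕ)) ∘ₗ Submodule.subtype _)))
        (fun x => Submodule.add_mem _ (hm _ (h1 _ (by omega)) _ x.1.2)
          (Submodule.neg_mem _ (hm _ (h2 _ (by omega)) _ x.2.2)))
    have hk := LinearMap.ker_ne_bot_of_finrank_lt (f := φ) (by
      rw [Module.finrank_prod, hV, hV]
      nlinarith)
    obtain ⟨⟨x, y⟩, hxy, hne⟩ := Submodule.exists_mem_ne_zero_of_ne_bot hk
    have h3 : (x : AddMonoidAlgebra Ω (ℕ × ℕ)) * r = y * (s : U) := by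
      have := congrArg Subtype.val (LinearMap.mem_ker.mp hxy)
      exact add_neg_eq_zero.mp this
    have hx0 : (x : AddMonoidAlgebra Ω (ℕ × ℕ)) ≠ 0 := by
      intro h0
      rw [h0, zero_mul] at h3
      by_cases hy0 : (y : AddMonoidAlgebra Ω (ℕ × ℕ)) = 0
      · exact hne (Prod.ext (Subtype.ext h0) (Subtype.ext hy0))
      · exact hdom _ (hVU _ _ y.2) _ (s : U).2 hy0 hs0 h3.symm
    exact ⟨⟨y, hVU _ _ y.2⟩, ⟨⟨x, hVU _ _ x.2⟩, mem_nonZeroDivisors_of_ne_zero
      fun h => hx0 (congrArg Subtype.val h)⟩, Subtype.ext h3⟩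
  let ψ : U →ₐ[F] OreLocalization U⁰ U :=
    { OreLocalization.numeratorRingHom with commutes' := fun _ => rfl }
  have hψ : Function.Injective ψ := OreLocalization.numeratorHom_inj (fun x hx => hx.1)
  have heU : ∀ m, e m ∈ U := fun m => Submodule.subset_span ⟨m, trivial, rfl⟩
  have hne : ∀ m, ψ ⟨e m, heU m⟩ ≠ 0 := by
    intro m h
    rw [← map_zero ψ] at h
    exact hli.ne_zero m (congrArg Subtype.val (hψ h))
  refine ⟨OreLocalization U⁰ U, inferInstance, inferInstance, ψ ⟨_, heU (1, 0)⟩, ψ ⟨_, heU (0, 1)⟩,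
    hne _, hne _, ?_⟩
  rw [← map_mul, ← map_mul, ← map_smul]
  congr 1
  apply Subtype.ext
  change e (1, 0) * e (0, 1) = q • (e (0, 1) * e (1, 0))
  rw [he, he]
  simp

theorem quantum_plane {F : Type u} [Field F] (q : F) (hq : q ≠ 0) :
    ∃ (D : Type u) (_ : DivisionRing D) (_ : Algebra F D) (a b : D),
      a ≠ 0 ∧ b ≠ 0 ∧ a * b = q • (b * a) := by
  let A : Module.End F (Polynomial F) :=
    (Polynomial.aeval (Polynomial.C q * Polynomial.X)).toLinearMap
  let B : Module.End F (Polynomial F) := LinearMap.mulLeft F Polynomial.X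
  have hAB : A * B = q • (B * A) := by
    refine LinearMap.ext fun p => ?_
    simp [A, B, Polynomial.smul_eq_C_mul, mul_assoc]
  have h1 : ∀ j, A * B ^ j = q ^ j • (B ^ j * A) := by
    intro j
    induction j with
    | zero => simp
    | succ j ih =>
      rw [pow_succ, ← mul_assoc, ih, smul_mul_assoc, mul_assoc, hAB, mul_smul_comm, smul_smul,
        ← mul_assoc, ← pow_succ]
  have h2 : ∀ i j, A ^ i * B ^ j = q ^ (i * j) • (B ^ j * A ^ i) := by
    intro i j
    induction i with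
    | zero => simp
    | succ i ih =>
      rw [pow_succ', mul_assoc, ih, mul_smul_comm, ← mul_assoc, h1, smul_mul_assoc, smul_smul,
        ← pow_add, mul_assoc, add_mul, one_mul]
  refine qp_aux q hq (fun m => B ^ m.2 * A ^ m.1) (fun m h => ?_) (by simp) (fun m m' => ?_)
  · have h3 : ∀ i, (A ^ i) 1 = 1 := by
      intro i
      induction i with
      | zero => rfl
      | succ i ih => rw [pow_succ', Module.End.mul_apply, ih]; simp [A]
    have h4 : ∀ j, (B ^ j) 1 = Polynomial.X ^ j := by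
      intro j
      induction j with
      | zero => simp
      | succ j ih => rw [pow_succ', Module.End.mul_apply, ih, pow_succ']; rfl
    have := LinearMap.congr_fun h 1
    rw [Module.End.mul_apply, h3, h4] at this
    exact pow_ne_zero _ Polynomial.X_ne_zero this
  · simp only [Prod.fst_add, Prod.snd_add, pow_add]
    rw [mul_assoc, ← mul_assoc (A ^ m.1), h2, smul_mul_assoc, mul_smul_comm]
    simp only [mul_assoc]

end Vale.Agent.P200
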