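import Vale.Agent.P200.Lead
import Vale.Agent.P200.QP

/-! Shifting towards stable monomial ideals with quantum-plane coordinates. -/

namespace Vale.Agent.P200

open Module AddMonoidAlgebra

section
variable {D : Type*} [DivisionRing D] {n : ℕ}

def dk (α : Fin n →₀ ℕ) : (Lex (Fin n →₀ ℕ))ᵒᵈ := OrderDual.toDual (toLex α)

lemma dk_lt {α β : Fin n →₀ ℕ} : dk α < dk β ↔ toLex β < toLex α := Iff.rfl

lemma dk_le {α β : Fin n →₀ ℕ} : dk α ≤ dk β ↔ toLex β ≤ toLex α := Iff.rfl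

lemma key_dk : Key (dk (n := n)) :=
  ⟨fun _ _ h => h, fun _ _ γ h => dk_lt.mpr (add_lt_add_left (dk_lt.mp h) (toLex γ))⟩

lemma MS_mul' {s t : Set (Fin n →₀ ℕ)} {e : Fin n →₀ ℕ} (h : ∀ m ∈ s, m + e ∈ t) (r : D)
    {z : NP D (Fin n)} (hz : z ∈ MS D s) : z * single e r ∈ MS D t := by
  have : MS D s ≤ (MS D t).comap (rm D (single e r)) := MS_le fun m hm => by
    change single m 1 * single e r ∈ MS D t
    rw [single_mul_single]
    exact single_mem_MS (h m hm) _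
  exact this hz

noncomputable def ys (i j : Fin n) (a b : D) (k : Fin n) : NP D (Fin n) :=
  if k = j then single (Finsupp.single i 1) a + single (Finsupp.single j 1) b else xv D k

lemma ys_self (i j : Fin n) (a b : D) :
    ys i j a b j = single (Finsupp.single i 1) a + single (Finsupp.single j 1) b := if_pos rfl

lemma ys_ne {i j k : Fin n} (a b : D) (h : k ≠ j) : ys i j a b k = xv D k := if_neg h

lemma fr_ys {i j : Fin n} (hij : i < j) (a : D) {b : D} (hb : b ≠ 0) : Fr (ys i j a b) := by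
  refine ⟨fun k => ?_, fun k l => ?_, fun k => ?_⟩
  · by_cases h : k = j
    · rw [h, ys_self, single_eq_smul, single_eq_smul _ b]
      exact Submodule.add_mem _ (Submodule.smul_mem _ _ (xv_mem i))
        (Submodule.smul_mem _ _ (xv_mem j))
    · rw [ys_ne _ _ h]
      exact xv_mem k
  · by_cases h : k = j
    · by_cases h' : l = j
      · rw [h, h']
      · rw [ys_ne _ _ h', xv_comm]
    · rw [ys_ne _ _ h, xv_comm]
  · by_cases h : k = j
    · have : xv D k = b⁻¹ • (ys i j a b j - a • ys i j a b i) := by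
        rw [ys_self, ys_ne _ _ hij.ne, single_eq_smul, single_eq_smul _ b, xv, xv,
          add_sub_cancel_left, smul_smul, inv_mul_cancel₀ hb, one_smul, h]
      rw [this]
      exact Submodule.smul_mem _ _ (Submodule.sub_mem _ (Submodule.subset_span ⟨j, rfl⟩)
        (Submodule.smul_mem _ _ (Submodule.subset_span ⟨i, rfl⟩)))
    · exact Submodule.subset_span ⟨k, ys_ne _ _ h⟩

lemma Ph.single_add {y : Fin n → NP D (Fin n)} {Φ : NP D (Fin n) →ₗ[D] NP D (Fin n)} (h : Ph y Φ)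
    (m : Fin n →₀ ℕ) (k : Fin n) :
    Φ (single (m + Finsupp.single k 1) 1) = Φ (single m 1) * y k := by
  rw [← h.mul, xv, single_mul_single, mul_one]

def geS (γ : Fin n →₀ ℕ) : Set (Fin n →₀ ℕ) := {δ | toLex γ ≤ toLex δ}

def gtS (γ : Fin n →₀ ℕ) : Set (Fin n →₀ ℕ) := {δ | toLex γ < toLex δ}

lemma mem_geS {γ δ : Fin n →₀ ℕ} : δ ∈ geS γ ↔ toLex γ ≤ toLex δ := Iff.rfl

lemma mem_gtS {γ δ : Fin n →₀ ℕ} : δ ∈ gtS γ ↔ toLex γ < toLex δ := Iff.rfl

def Upp (U : Set (Fin n →₀ ℕ)) : Prop := ∀ γ ∈ U, ∀ δ, toLex γ ≤ toLex δ → δ ∈ U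

lemma upp_ge (γ : Fin n →₀ ℕ) : Upp (geS γ) := fun _ h1 _ h2 => mem_geS.mpr (le_trans h1 h2)

lemma upp_gt (γ : Fin n →₀ ℕ) : Upp (gtS γ) := fun _ h1 _ h2 => mem_gtS.mpr (lt_of_lt_of_le h1 h2)

lemma mem_ML {L : Set (Fin n →₀ ℕ)} {m : Fin n →₀ ℕ} {d : ℕ} (h : m ∈ L) (hd : m.degree = d)
    (r : D) : single m r ∈ ML D L d := single_mem_MS (s := {β | β ∈ L ∧ β.degree = d}) ⟨h, hd⟩ r

open Classical in
noncomputable def cnS (L U : Set (Fin n →₀ ℕ)) (d : ℕ) : Finset (Fin n →₀ ℕ) :=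
  (AD (Fin n) d).filter fun δ => δ ∈ L ∧ δ ∈ U

lemma mem_cnS {L U : Set (Fin n →₀ ℕ)} {d : ℕ} {δ : Fin n →₀ ℕ} :
    δ ∈ cnS L U d ↔ δ.degree = d ∧ δ ∈ L ∧ δ ∈ U := by
  simp only [cnS, Finset.mem_filter, mem_AD]

def Tri (Φ : NP D (Fin n) →ₗ[D] NP D (Fin n)) : Prop := ∀ γ, Φ (single γ 1) ∈ MS D (geS γ)

lemma tri_ys {i j : Fin n} (hij : i < j) {a b : D} {Φ : NP D (Fin n) →ₗ[D] NP D (Fin n)}
    (h : Ph (ys i j a b) Φ) : Tri Φ := by
  intro γ
  induction γ using deg_induction with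
  | h0 =>
    rw [← one_def, h.one]
    exact single_mem_MS (mem_geS.mpr le_rfl) (1 : D)
  | h m k ih =>
    rw [h.single_add]
    have h1 : ∀ l ≤ k, ∀ δ ∈ geS m, δ + Finsupp.single l 1 ∈
        geS (m + Finsupp.single k 1) := fun l hl δ hδ =>
      add_le_add (α := Lex (Fin n →₀ ℕ)) hδ (Finsupp.Lex.single_le_iff.mpr hl)
    by_cases hk : k = j
    · subst hk
      rw [ys_self, mul_add]
      exact Submodule.add_mem _ (MS_mul' (h1 i hij.le) a ih) (MS_mul' (h1 k le_rfl) b ih)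
    · rw [ys_ne _ _ hk]
      exact MS_mul (h1 k le_rfl) ih

lemma Tri.surj {y : Fin n → NP D (Fin n)} {Φ : NP D (Fin n) →ₗ[D] NP D (Fin n)} (h : Ph y Φ)
    (ht : Tri Φ) (U : Set (Fin n →₀ ℕ)) (hU : Upp U) (d : ℕ) :
    (∀ z ∈ MS D U ⊓ Hm D d, Φ z ∈ MS D U ⊓ Hm D d) ∧
      ∀ z ∈ MS D U ⊓ Hm D d, ∃ w ∈ MS D U ⊓ Hm D d, Φ w = z := by
  have h1 : ∀ z ∈ MS D U ⊓ Hm D d, Φ z ∈ MS D U ⊓ Hm D d := by
    intro z hz
    have : MS D U ≤ (MS D U).comap Φ := MS_le fun m hm => MS_mono (hU m hm) (ht m)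
    exact ⟨this hz.1, h.mem hz.2⟩
  refine ⟨h1, fun z hz => ?_⟩
  have : Module.Finite D (MS D U ⊓ Hm D d : Submodule D _) :=
    Submodule.finiteDimensional_of_le inf_le_right
  have h2 : Function.Surjective (Φ.restrict h1) := by
    rw [← LinearMap.injective_iff_surjective, injective_iff_map_eq_zero]
    intro v hv
    exact Subtype.ext (h.inj d v v.2.2 (congrArg Subtype.val hv))
  obtain ⟨w, hw⟩ := h2 ⟨z, hz⟩
  exact ⟨w, w.2, congrArg Subtype.val hw⟩

open Classical in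
lemma Tri.dom {y : Fin n → NP D (Fin n)} {Φ : NP D (Fin n) →ₗ[D] NP D (Fin n)} (h : Ph y Φ)
    (ht : Tri Φ) (L U : Set (Fin n →₀ ℕ)) (hU : Upp U) (d : ℕ) :
    (cnS L U d).card ≤ (cnS (Ld dk fun d => (ML D L d).comap Φ ⊓ Hm D d) U d).card := by
  let A : Submodule D (NP D (Fin n)) := ((ML D L d).comap Φ ⊓ Hm D d) ⊓ MS D U
  have hA : A ≤ Hm D d := inf_le_left.trans inf_le_right
  have : Module.Finite D A := Submodule.finiteDimensional_of_le hA
  have h1 : MS D (cnS L U d) ≤ A.map Φ := by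
    refine MS_le fun m hm => ?_
    replace hm := mem_cnS.mp hm
    obtain ⟨w, hw, hw2⟩ := (ht.surj h U hU d).2 (single m 1)
      ⟨single_mem_MS hm.2.2 1, hm.1 ▸ single_mem m 1⟩
    refine ⟨w, ⟨⟨?_, hw.2⟩, hw.1⟩, hw2⟩
    change Φ w ∈ ML D L d
    rw [hw2]
    exact mem_ML hm.2.1 hm.1 1
  rw [← finrank_MS (D := D)]
  refine ((Submodule.finrank_mono h1).trans (Submodule.finrank_map_le _ _)).trans ?_
  rw [count_Lead key_dk hA]
  refine Finset.card_le_card fun α hα => ?_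
  obtain ⟨h2, u, hu, h3⟩ := Finset.mem_filter.mp hα
  refine mem_cnS.mpr ⟨mem_AD.mp h2, ⟨u, ?_, h3⟩, ?_⟩
  · rw [mem_AD.mp h2]
    exact hu.1
  · by_contra h4
    have h5 := mem_MS.mp h3 α (fun hh => lt_irrefl _ hh.2)
    simp [mem_MS.mp hu.2 α h4] at h5

open Classical in
lemma Tri.fix {y : Fin n → NP D (Fin n)} {Φ : NP D (Fin n) →ₗ[D] NP D (Fin n)} (h : Ph y Φ)
    (ht : Tri Φ) (L : Set (Fin n →₀ ℕ)) (d : ℕ)
    (he : ∀ γ, γ.degree = d → Lead dk ((ML D L d).comap Φ ⊓ Hm D d) γ → γ ∈ L) :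
    ∀ γ ∈ L, γ.degree = d → Φ (single γ 1) ∈ ML D L d := by
  by_contra! hh
  obtain ⟨γ, hγ, hmax⟩ := ((AD (Fin n) d).filter fun γ => γ ∈ L ∧
    Φ (single γ 1) ∉ ML D L d).exists_max_image toLex
    (hh.imp fun γ h => Finset.mem_filter.mpr ⟨mem_AD.mpr h.2.1, h.1, h.2.2⟩)
  simp only [Finset.mem_filter, mem_AD] at hγ hmax
  obtain ⟨hd, hL, hγ⟩ := hγ
  obtain ⟨w, hw, hw2⟩ := (ht.surj h _ (upp_ge γ) d).2
    (single γ 1) ⟨single_mem_MS (mem_geS.mpr le_rfl) (1 : D), hd ▸ single_mem γ 1⟩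
  obtain ⟨w1, c1⟩ : ∃ w1 : NP D (Fin n), ∀ δ, w1.coeff δ =
      if δ ∈ L ∧ toLex γ < toLex δ then w.coeff δ else 0 :=
    ⟨.ofCoeff (w.coeff.filter fun δ => δ ∈ L ∧ toLex γ < toLex δ),
      fun δ => Finsupp.filter_apply _ _ _⟩
  have h1 : w1 ∈ MS D {δ | δ.degree = d ∧ δ ∈ L ∧ toLex γ < toLex δ} := by
    refine mem_MS.mpr fun m hm => ?_
    rw [c1]
    split_ifs with h2
    · exact mem_Hm.mp hw.2 m fun h3 => hm ⟨h3, h2⟩
    · rfl
  have h2 : MS D {δ | δ.degree = d ∧ δ ∈ L ∧ toLex γ < toLex δ} ≤ (ML D L d).comap Φ ⊓ Hm D d := by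
    refine MS_le fun m hm => ⟨?_, hm.1 ▸ single_mem m 1⟩
    by_contra h3
    exact absurd (hmax m ⟨hm.1, hm.2.1, h3⟩) (not_le.mpr hm.2.2)
  have h3 : w - w1 ∈ (ML D L d).comap Φ ⊓ Hm D d := by
    refine Submodule.sub_mem _ ⟨?_, hw.2⟩ (h2 h1)
    change Φ w ∈ ML D L d
    rw [hw2]
    exact mem_ML hL hd 1
  have c2 : ∀ δ, (w - w1).coeff δ ≠ 0 → toLex γ ≤ toLex δ ∧ ¬ (δ ∈ L ∧ toLex γ < toLex δ) := by
    intro δ hδ
    rw [coeff_sub, Finsupp.sub_apply, c1] at hδ
    split_ifs at hδ with h4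
    · simp at hδ
    · refine ⟨?_, h4⟩
      by_contra h5
      exact hδ (by simp [mem_MS.mp hw.1 δ h5])
  by_cases h0 : w - w1 = 0
  · rw [sub_eq_zero] at h0
    have h4 := ((ht.surj h _ (upp_gt γ) d).1 w
      ⟨h0 ▸ MS_mono (fun _ h => h.2.2) h1, hw.2⟩).1
    rw [hw2] at h4
    simpa using mem_MS.mp h4 γ (lt_irrefl (toLex γ))
  · obtain ⟨m, hm1, hm2, hm3⟩ := lead_of_min key_dk inf_le_right h3 h0
    have h4 : m.degree = d := by
      by_contra h5
      exact hm1 (mem_Hm.mp h3.2 m h5)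
    obtain rfl : γ = m := toLex.injective ((c2 m hm1).1.eq_of_not_lt fun h5 =>
      (c2 m hm1).2 ⟨he m h4 hm2, h5⟩)
    have h5 : w - w1 = single γ ((w - w1).coeff γ) := by
      refine AddMonoidAlgebra.ext (Finsupp.ext fun δ => ?_)
      by_cases h6 : δ = γ
      · simp [h6]
      · have : (w - w1).coeff δ = 0 := by
          by_contra h7
          exact h6 (toLex.injective (le_antisymm (dk_le.mp (hm3 δ h7)) (c2 δ h7).1))
        rw [this]
        simp [h6]
    have h6 := (Submodule.smul_mem _ ((w - w1).coeff γ)⁻¹ h3).1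
    rw [h5, smul_single, coeff_single, Finsupp.single_eq_same, smul_eq_mul,
      inv_mul_cancel₀ hm1] at h6
    exact hγ h6

lemma ys_coeff {F : Type*} [Field F] [Algebra F D] {i j : Fin n} (hij : i < j) {a b : D} {q : F}
    (hq : a * b = q • (b * a)) {Φ : NP D (Fin n) →ₗ[D] NP D (Fin n)} (h : Ph (ys i j a b) Φ)
    (β : Fin n →₀ ℕ) : (Φ (single (β + Finsupp.single j 1) 1)).coeff (β + Finsupp.single i 1) =
      (∑ r ∈ Finset.range (β j + 1), q ^ r) • (b ^ β j * a) := by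
  have h1 : ∀ m : Fin n →₀ ℕ, m j = 0 → Φ (single m 1) = single m 1 := by
    intro m
    induction m using deg_induction with
    | h0 => intro _; exact h.one
    | h m k ih =>
      intro hm
      have hk : k ≠ j := by
        rintro rfl
        simp at hm
      rw [h.single_add, ih (by simpa [hk] using hm), ys_ne _ _ hk, xv, single_mul_single, mul_one]
  obtain ⟨β0, s, hβ, rfl⟩ : ∃ β0 s, β0 j = 0 ∧ β = β0 + Finsupp.single j s :=
    ⟨β.erase j, β j, by simp, (Finsupp.erase_add_single j β).symm⟩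
  have e : ∀ s, β0 + Finsupp.single j (s + 1) = β0 + Finsupp.single j s + Finsupp.single j 1 := by
    intro s
    rw [Finsupp.single_add, add_assoc]
  have h2 : ∀ s, Φ (single (β0 + Finsupp.single j s) 1) ∈ MS D {δ | δ j ≤ s} ∧
      (Φ (single (β0 + Finsupp.single j s) 1)).coeff (β0 + Finsupp.single j s) = b ^ s := by
    intro s
    induction s with
    | zero =>
      rw [Finsupp.single_zero, add_zero, h1 _ hβ]
      exact ⟨single_mem_MS hβ.le 1, by simp⟩
    | succ s ih =>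
      have h3 : Φ (single (β0 + Finsupp.single j s) 1) * single (Finsupp.single i 1) a ∈
          MS D {δ | δ j ≤ s} := MS_mul' (fun m hm => by simpa [hij.ne] using hm) a ih.1
      rw [e, h.single_add, ys_self, mul_add]
      refine ⟨Submodule.add_mem _ (MS_mono (fun m hm => Nat.le_succ_of_le hm) h3)
        (MS_mul' (fun m hm => by simpa using hm) b ih.1), ?_⟩
      rw [coeff_add, Finsupp.add_apply, coeff_mul_single_add, ih.2, mem_MS.mp h3 _ (by simp [hβ]),
        zero_add, pow_succ]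
  have h3 : (β0 + Finsupp.single j s) j = s := by simp [hβ]
  rw [h3, h.single_add, ys_self, mul_add, coeff_add, Finsupp.add_apply, coeff_mul_single_add,
    (h2 s).2]
  clear h3
  induction s with
  | zero =>
    rw [coeff_mul_single_of_forall_add_ne]
    · simp
    · intro d hd
      have := congrArg (· j) hd
      simp [hβ, hij.ne] at this
  | succ s ih =>
    rw [e, add_right_comm _ (Finsupp.single j 1), coeff_mul_single_add, h.single_add, ys_self,
      mul_add, coeff_add, Finsupp.add_apply, coeff_mul_single_add, (h2 s).2, ih, smul_mul_assoc,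
      mul_assoc _ a, hq, mul_smul_comm, smul_smul, ← mul_assoc, ← pow_succ, geom_sum_succ (n := s + 1),
      add_smul, one_smul, add_comm, mul_comm q]

end

section
universe u
variable {K : Type u} [Field K] {n : ℕ}

lemma exists_q (F : Type*) [Field F] [Infinite F] (s : ℕ) :
    ∃ q : F, q ≠ 0 ∧ ∑ r ∈ Finset.range (s + 1), q ^ r ≠ 0 := by
  by_contra! h
  have h1 : (Polynomial.X * ∑ r ∈ Finset.range (s + 1), Polynomial.X ^ r : Polynomial F) = 0 := by
    apply Polynomial.funext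
    intro q
    by_cases hq : q = 0
    · simp [hq]
    · simp [Polynomial.eval_finsetSum, h q hq]
  have h2 := congrArg (Polynomial.eval 0) ((mul_eq_zero.mp h1).resolve_left Polynomial.X_ne_zero)
  simp [Finset.sum_range_succ', Polynomial.eval_finsetSum] at h2

open Classical in
lemma finrank_ML {D : Type*} [DivisionRing D] (L : Set (Fin n →₀ ℕ)) (d : ℕ) :
    finrank D (ML D L d) = ((AD (Fin n) d).filter (· ∈ L)).card := by
  rw [← finrank_MS (D := D), ML]
  refine congrArg (fun s => finrank D (MS D s)) ?_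
  ext m
  simp [mem_AD, and_comm]

lemma InP.of_up {c : ℕ} {L : Set (Fin n →₀ ℕ)} (h : UpC L)
    (h2 : ∀ i : Fin n, i.val < c → Finsupp.single i 2 ∈ L) (α : Fin n →₀ ℕ) (hα : InP c α) :
    α ∈ L := by
  obtain ⟨i, hi, h3⟩ := hα
  exact h.le _ (h2 i hi) α (Finsupp.single_le_iff.mpr h3)

open Classical in
theorem shift {c : ℕ} {L : Set (Fin n →₀ ℕ)} (hL : UpC L) (hP : ∀ α, InP c α → α ∈ L) {d : ℕ}
    (hS : ¬ StabAt c L d) : ∃ L', Deg (ML K L) L' ∧ (∀ α, InP c α → α ∈ L') ∧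
      (∀ U, Upp U → ∀ e, (cnS L U e).card ≤ (cnS L' U e).card) ∧
      ∃ γ, γ.degree = d ∧ γ ∈ L' ∧ γ ∉ L := by
  simp only [StabAt, not_forall] at hS
  obtain ⟨β, i, j, hd, hij, h1, h2, h3⟩ := hS
  let F := AlgebraicClosure K
  obtain ⟨q, hq0, hq1, hq2⟩ : ∃ q : F, q ≠ 0 ∧ ∑ r ∈ Finset.range (β j + 1), q ^ r ≠ 0 ∧
      (j.val < c → q = -1) := by
    by_cases hj : j.val < c
    · have : β j = 0 := by
        by_contra h
        exact h2 ⟨j, hj, by simp; omega⟩
      exact ⟨-1, by simp, by simp [this], fun _ => rfl⟩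
    · obtain ⟨q, h4, h5⟩ := exists_q F (β j)
      exact ⟨q, h4, h5, fun h => absurd h hj⟩
  obtain ⟨D, i1, i2, a, b, ha, hb, hab⟩ := quantum_plane q hq0
  let : Algebra K D := ((algebraMap F D).comp (algebraMap K F)).toAlgebra'
    fun k x => Algebra.commutes _ x
  have hy := fr_ys hij a hb
  obtain ⟨Φ, hΦ⟩ := exists_Ph hy
  have ht := tri_ys hij hΦ
  have h4 := degen (K := K) (M := ML K L) (ML_le L) (fun d z hz k => by
    refine MS_mul (fun m hm => ?_) hz
    exact ⟨hL m hm.1 k, by simp [hm.2]⟩) hy hΦ key_dk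
  have e : ∀ d, bc D (ML K L d) = ML D L d := fun d => bc_MS _
  simp only [e] at h4
  refine ⟨_, h4, InP.of_up h4.up fun l hl => ?_, fun U hU e => ht.dom hΦ L U hU e, ?_⟩
  · have e2 : ∀ l : Fin n, (Finsupp.single l 2 : Fin n →₀ ℕ) =
        Finsupp.single l 1 + Finsupp.single l 1 := fun l => by rw [← Finsupp.single_add]
    have h5 : ∀ l : Fin n, l.val < c → ∀ r : D,
        single (Finsupp.single l 1 + Finsupp.single l 1) r ∈ ML D L 2 := fun l hl r =>
      mem_ML (hP _ ⟨l, hl, by simp⟩) (by simp) r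
    refine ⟨single (Finsupp.single l 2) 1, ⟨?_, single_mem _ 1⟩, by simp⟩
    change Φ (single (Finsupp.single l 2) 1) ∈ ML D L (Finsupp.single l 2).degree
    rw [Finsupp.degree_single, e2, hΦ.single_add, ← zero_add (Finsupp.single l 1), hΦ.single_add,
      ← one_def, hΦ.one, one_mul]
    by_cases hlj : l = j
    · subst hlj
      rw [hq2 hl, neg_smul, one_smul] at hab
      rw [ys_self, add_mul, mul_add, mul_add, single_mul_single, single_mul_single,
        single_mul_single, single_mul_single, hab, add_comm (Finsupp.single l 1), single_neg,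
        add_assoc, neg_add_cancel_left]
      exact Submodule.add_mem _ (h5 i (lt_trans hij hl) _) (h5 l hl _)
    · rw [ys_ne _ _ hlj, xv, single_mul_single]
      exact h5 l hl _
  · by_contra! hh
    have h5 := ht.fix hΦ L d (fun γ hγ h6 => hh γ hγ (by subst hγ; exact h6)) _ h1 (by simp [hd])
    have h6 := mem_MS.mp h5 _ (fun h => h3 h.1)
    rw [ys_coeff hij hab hΦ, smul_eq_zero] at h6
    exact h6.elim hq1 (mul_ne_zero (pow_ne_zero _ hb) ha)

noncomputable def pot (B : ℕ) (L : Set (Fin n →₀ ℕ)) : ℕ :=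
  ∑ x ∈ (Finset.range (B + 1)).sigma (AD (Fin n)),
    ((cnS L (geS x.2) x.1).card + (cnS L (gtS x.2) x.1).card)

open Classical in
lemma card_ge_eq (L : Set (Fin n →₀ ℕ)) {d : ℕ} {γ : Fin n →₀ ℕ} (hγ : γ.degree = d) :
    (cnS L (geS γ) d).card = (cnS L (gtS γ) d).card + if γ ∈ L then 1 else 0 := by
  split_ifs with h
  · rw [← Finset.card_insert_of_notMem (a := γ) (by simp [mem_cnS, mem_gtS])]
    congr 1
    ext δ
    simp only [mem_cnS, Finset.mem_insert, mem_geS, mem_gtS, le_iff_eq_or_lt, toLex_inj]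
    constructor
    · rintro ⟨h1, h2, h3 | h3⟩
      · exact Or.inl h3.symm
      · exact Or.inr ⟨h1, h2, h3⟩
    · rintro (rfl | ⟨h1, h2, h3⟩)
      · exact ⟨hγ, h, Or.inl rfl⟩
      · exact ⟨h1, h2, Or.inr h3⟩
  · rw [add_zero]
    congr 1
    ext δ
    simp only [mem_cnS, mem_geS, mem_gtS, le_iff_eq_or_lt, toLex_inj]
    refine and_congr_right fun _ => and_congr_right fun h1 => ?_
    exact or_iff_right (by rintro rfl; exact h h1)

theorem stabilize {c : ℕ} (B : ℕ) {M : ℕ → Submodule K (NP K (Fin n))} {L : Set (Fin n →₀ ℕ)}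
    (h : Deg M L) (hP : ∀ α, InP c α → α ∈ L) :
    ∃ L', Deg M L' ∧ (∀ α, InP c α → α ∈ L') ∧ ∀ d ≤ B, StabAt c L' d := by
  generalize hm : pot B (Set.univ : Set (Fin n →₀ ℕ)) - pot B L = m
  induction m using Nat.strong_induction_on generalizing L with
  | _ m ih =>
    by_cases hS : ∀ d ≤ B, StabAt c L d
    · exact ⟨L, h, hP, hS⟩
    push Not at hS
    obtain ⟨d, hd, hS⟩ := hS
    obtain ⟨L', h1, h2, h3, γ, h4, h5, h6⟩ := shift (K := K) h.up hP hS
    have h7 : pot B L' ≤ pot B (Set.univ : Set (Fin n →₀ ℕ)) := by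
      refine Finset.sum_le_sum fun x _ => add_le_add ?_ ?_ <;>
        exact Finset.card_le_card fun δ hδ =>
          mem_cnS.mpr ⟨(mem_cnS.mp hδ).1, trivial, (mem_cnS.mp hδ).2.2⟩
    have h10 : pot B L < pot B L' := by
      refine Finset.sum_lt_sum (fun x _ => add_le_add (h3 _ (upp_ge _) _) (h3 _ (upp_gt _) _))
        ⟨⟨d, γ⟩, by simp [mem_AD, h4]; omega, ?_⟩
      have := h3 _ (upp_gt γ) d
      simp only [card_ge_eq _ h4, if_pos h5, if_neg h6]
      omega
    refine ih _ (by omega) ⟨h1.up, fun e => ?_, fun p k => (h1.rk p k).trans (h.rk p k)⟩ h2 rfl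
    rw [h1.cnt, finrank_ML, h.cnt]

end
end Vale.Agent.P200
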