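import Vale.Agent.P200.Main
import Vale.Agent.P200.Shift
import Vale.Agent.P200.Lex
import Vale.Agent.P200.LDefs

/-! The lex-plus-squares theorem. -/

namespace Vale.Agent.P200

open Module MvPolynomial

universe u

theorem first_deg {K : Type u} [Field K] {n c : ℕ} (hc : 1 ≤ c) (hcn : c ≤ n)
    (f : Fin c → MvPolynomial (Fin n) K) (hf2 : ∀ i, f i ∈ Hm K 2)
    (hreg : ∀ i, Nzd (Ideal.span (f '' {j | j < i})) (f i))
    (I : Ideal (MvPolynomial (Fin n) K)) (hfI : ∀ i, f i ∈ I) :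
    ∃ L : Set (Fin n →₀ ℕ), Deg (pc I) L ∧ ∀ α, InP c α → α ∈ L := by
  let g0 : Fin n → MvPolynomial (Fin n) K := fun i => if h : i.val < c then f ⟨i, h⟩ else 0
  have hg0 : ∀ q : Fin c, g0 (Fin.castLE hcn q) = f q := fun q => dif_pos q.2
  have hg1 : ∀ i : Fin n, i.val < c → g0 i ∈ Hm K 2 := fun i hi => by
    simp only [g0, dif_pos hi, hf2]
  have hr0 : ∀ k, k ≤ c → Reg g0 (lt' n k) := by
    intro k
    induction k with
    | zero => intro _ t _ q hq; simp [mem_lt'] at hq
    | succ k ih =>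
      intro hk
      rw [lt'_succ (by omega : k < n)]
      apply (ih (by omega)).insert
      · intro i hi
        rw [← lt'_succ, mem_lt'] at hi
        exact ⟨2, two_pos, hg1 i (by omega)⟩
      · have e : g0 '' (lt' n k : Set (Fin n)) = f '' {j | j < ⟨k, hk⟩} := by
          ext p
          constructor
          · rintro ⟨i, hi, rfl⟩
            have hi' : i.val < k := mem_lt'.mp hi
            exact ⟨⟨i, by omega⟩, hi', (hg0 ⟨i, by omega⟩).symm⟩
          · rintro ⟨j, hj, rfl⟩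
            exact ⟨Fin.castLE hcn j, mem_lt'.mpr hj, hg0 j⟩
        rw [JJ, e]
        have := hg0 ⟨k, hk⟩
        exact this ▸ hreg ⟨k, hk⟩
  let F := AlgebraicClosure K
  obtain ⟨g, hg2, hg3, hg4⟩ := extend (g0 := fun i => (io F (g0 i) : MvPolynomial (Fin n) F))
    (fun i hi => ⟨2, two_pos, io_mem (hg1 i (mem_lt'.mp hi))⟩) (hr0 c le_rfl).base n hcn le_rfl
  have hu : lt' n n = Finset.univ := by
    ext i
    simp [mem_lt']
  rw [hu] at hg4
  obtain ⟨D, i1, i2, y, hy1, hy2, hy3, hy4⟩ := coords hc hcn (g := g)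
    (fun i hi => by rw [hg2 i hi]; exact io_mem (hg1 i hi)) (fun i hi => hg3 i hi i.2) hg4
  let : Algebra K D := ((algebraMap F D).comp (algebraMap K F)).toAlgebra'
    fun k x => Algebra.commutes _ x
  have hio : ∀ p : MvPolynomial (Fin n) K, io D (io F p) = io D p := fun p =>
    AddMonoidAlgebra.ext (Finsupp.ext fun m => by
      simp only [io, AddMonoidAlgebra.coeff_mapRingHom]
      rfl)
  have hy : Fr y := ⟨hy1, hy2, hy3⟩
  obtain ⟨Φ, hΦ⟩ := exists_Ph hy
  have h4 := degen (K := K) (M := pc I) (fun d => inf_le_right) (fun d z hz k =>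
    ⟨I.mul_mem_right _ hz.1, mul_mem_Hm hz.2 (xv_mem k)⟩) hy hΦ
    (κ := key c) ⟨key_inj c, fun _ _ γ h => key_add h γ⟩
  refine ⟨_, h4, InP.of_up h4.up fun i hi => ?_⟩
  obtain ⟨cc, hcc⟩ := hy4 i hi
  have h5 : Submodule.span D {z | ∃ v ∈ Hm D 1, ∃ r : Fin n, c ≤ r.val ∧ z = v * y r} ≤
      (MS D {β | β.degree = 2 ∧ key c (Finsupp.single i 2) < key c β}).map Φ := by
    refine Submodule.span_le.mpr ?_
    rintro _ ⟨v, hv, r, hr, rfl⟩
    rw [← hΦ.map 1] at hv
    obtain ⟨v', hv', rfl⟩ := hv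
    refine ⟨v' * xv D r, MS_mul (s := {m | m.degree = 1}) (fun m hm => ?_) hv', hΦ.mul _ _⟩
    constructor
    · have : m.degree = 1 := hm
      simp [this]
    · simp only [key, Prod.Lex.toLex_lt_toLex, wt_add, wt_single, hr, not_le.mpr hi, if_true,
        if_false]
      left
      omega
  obtain ⟨z, hz, hz2⟩ := h5 hcc
  have h6 : Φ (AddMonoidAlgebra.single (Finsupp.single i 2) 1) = y i ^ 2 := by
    rw [show (Finsupp.single i 2 : Fin n →₀ ℕ) = 0 + Finsupp.single i 1 + Finsupp.single i 1 by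
      rw [zero_add, ← Finsupp.single_add], hΦ.single_add, hΦ.single_add,
      ← AddMonoidAlgebra.one_def, hΦ.one, one_mul, pow_two]
  change Lead _ (_ ⊓ Hm D (Finsupp.single i 2).degree) _
  rw [Lead, Finsupp.degree_single]
  refine ⟨z + AddMonoidAlgebra.single (Finsupp.single i 2) 1, ⟨?_, Submodule.add_mem _
    (MS_mono (fun _ h => h.1) hz) ?_⟩, by simpa using hz⟩
  · change Φ _ ∈ bc D (pc I 2)
    rw [map_add, hz2, h6, sub_add_cancel]
    refine Submodule.sum_mem _ fun q _ => Submodule.smul_mem _ _ ?_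
    rw [hg2 _ q.2, hg0, hio]
    exact Submodule.subset_span ⟨f q, ⟨hfI q, hf2 q⟩, rfl⟩
  · have := single_mem (D := D) (Finsupp.single i 2) (1 : D)
    rwa [Finsupp.degree_single] at this

section
variable {K : Type u} [Field K] {n c : ℕ}

lemma pc_monomial {L : Set (Fin n →₀ ℕ)} (hL : UpC L) :
    (Ideal.span ((fun s => monomial s (1 : K)) '' L)).restrictScalars K = MS K L := by
  ext p
  rw [Submodule.restrictScalars_mem, mem_ideal_span_monomial_image, mem_MS]
  constructor
  · intro h1 m hm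
    by_contra h0
    obtain ⟨s, hs, hsm⟩ := h1 m (mem_support_iff.mpr h0)
    exact hm (hL.le s hs m hsm)
  · intro h m hm
    refine ⟨m, ?_, le_rfl⟩
    by_contra h0
    exact mem_support_iff.mp hm (h m h0)

lemma pc_eq_ML {J : Ideal (MvPolynomial (Fin n) K)} {L : Set (Fin n →₀ ℕ)}
    (h : J.restrictScalars K = MS K L) (d : ℕ) : pc J d = ML K L d := by
  rw [pc, h]
  ext z
  rw [Submodule.mem_inf, mem_MS, mem_Hm, ML, mem_MS]
  refine ⟨fun ⟨h1, h2⟩ m hm => ?_,
    fun h => ⟨fun m hm => h m fun h1 => hm h1.1, fun m hm => h m fun h1 => hm h1.2⟩⟩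
  by_contra h3
  exact hm ⟨by_contra fun h => h3 (h1 m h), by_contra fun h => h3 (h2 m h)⟩

lemma squares_eq : (squares K n c).restrictScalars K = MS K {α | InP c α} := by
  have hU : UpC {α : Fin n →₀ ℕ | InP c α} := fun α hα i => InP.add (c := c) (u := α) hα _
  rw [← pc_monomial hU]
  congr 1
  apply le_antisymm
  · refine Ideal.span_mono ?_
    rintro _ ⟨i, hi, rfl⟩
    exact ⟨Finsupp.single i 2, ⟨i, hi, by simp⟩, X_pow_eq_monomial.symm⟩
  · refine Ideal.span_le.mpr ?_
    rintro _ ⟨α, ⟨i, hi, h⟩, rfl⟩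
    obtain ⟨γ, rfl⟩ := exists_add_of_le (Finsupp.single_le_iff.mpr h)
    simp only
    rw [← one_mul (1 : K), ← monomial_mul, ← X_pow_eq_monomial]
    exact Ideal.mul_mem_right _ _ (Ideal.subset_span ⟨i, hi, rfl⟩)

lemma monomial_mem_squares {α : Fin n →₀ ℕ} : monomial α (1 : K) ∈ squares K n c ↔ InP c α := by
  rw [← Submodule.restrictScalars_mem K, squares_eq]
  refine ⟨fun h => ?_, fun h => single_mem_MS h 1⟩
  by_contra h0
  have : coeff α (monomial α (1 : K)) = 0 := mem_MS.mp h α h0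
  simp at this

noncomputable def LL (n c q d : ℕ) : Finset (Fin n →₀ ℕ) :=
  (AA n c n d).filter fun a => ((AA n c n d).filter fun b => toLex a < toLex b).card < q

lemma isLex_LL (q d : ℕ) : IsLex c n d (LL n c q d) := by
  refine ⟨Finset.filter_subset _ _, fun u hu v hv h => Finset.mem_filter.mpr ⟨hv,
    lt_of_le_of_lt (Finset.card_le_card fun b hb => ?_) (Finset.mem_filter.mp hu).2⟩⟩
  exact Finset.mem_filter.mpr ⟨(Finset.mem_filter.mp hb).1, h.trans_lt (Finset.mem_filter.mp hb).2⟩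

def LJ (n c : ℕ) (q : ℕ → ℕ) : Set (Fin n →₀ ℕ) :=
  {α | InP c α ∨ α ∈ LL n c (q α.degree) α.degree}

lemma sup_n (u : Fin n →₀ ℕ) : Sup n u := fun j hj => absurd j.2 (by omega)

lemma mem_LL_iff {q : ℕ → ℕ} {d : ℕ} (u : Fin n →₀ ℕ) :
    u ∈ LL n c (q d) d ↔ u ∈ AA n c n d ∧ u ∈ LJ n c q := by
  constructor
  · intro h
    have h1 := (isLex_LL _ _).1 h
    exact ⟨h1, Or.inr ((mem_AA.mp h1).1.symm ▸ h)⟩
  · rintro ⟨h1, h2 | h2⟩
    · exact absurd h2 (mem_AA.mp h1).2.1
    · rwa [(mem_AA.mp h1).1] at h2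

lemma finrank_ML_eq {L : Set (Fin n →₀ ℕ)} (hP : ∀ α, InP c α → α ∈ L) {d : ℕ}
    {B : Finset (Fin n →₀ ℕ)} (hB : ∀ u, u ∈ B ↔ u ∈ AA n c n d ∧ u ∈ L) :
    finrank K (ML K L d) = finrank K (ML K {α : Fin n →₀ ℕ | InP c α} d) + B.card := by
  classical
  rw [finrank_ML, finrank_ML, ← Finset.card_union_of_disjoint]
  · congr 1
    ext u
    simp only [Finset.mem_filter, Finset.mem_union, hB, mem_AA, mem_AD, Set.mem_ofPred_eq]
    have := hP u
    have := sup_n u
    tauto
  · rw [Finset.disjoint_left]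
    intro u h1 h2
    exact (mem_AA.mp ((hB u).mp h2).1).2.1 (Finset.mem_filter.mp h1).2

theorem deg_LJ {M : ℕ → Submodule K (NP K (Fin n))} {L0 : Set (Fin n →₀ ℕ)} (h0 : Deg M L0)
    (hP0 : ∀ α, InP c α → α ∈ L0) : Deg M (LJ n c fun d =>
      finrank K (M d) - finrank K (ML K {α : Fin n →₀ ℕ | InP c α} d)) := by
  classical
  set q : ℕ → ℕ := fun d => finrank K (M d) - finrank K (ML K {α : Fin n →₀ ℕ | InP c α} d)
    with hq
  have hPJ : ∀ α, InP c α → α ∈ LJ n c q := fun _ h => Or.inl h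
  have h1 : ∀ L, Deg M L → (∀ α, InP c α → α ∈ L) → ∀ d,
      ((AA n c n d).filter (· ∈ L)).card = q d ∧ (LL n c (q d) d).card = q d ∧
        finrank K (ML K (LJ n c q) d) = finrank K (ML K L d) ∧
        finrank K (ML K L d) = finrank K (M d) := by
    intro L hL hP d
    have e1 := finrank_ML_eq (K := K) hP (B := (AA n c n d).filter (· ∈ L))
      fun u => Finset.mem_filter
    have e2 : finrank K (ML K L d) = finrank K (M d) := by rw [finrank_ML, hL.cnt]
    have e3 : ((AA n c n d).filter (· ∈ L)).card = q d := by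
      simp only [hq]
      omega
    have e4 : (LL n c (q d) d).card = q d :=
      card_top toLex toLex.injective _ _ (e3 ▸ Finset.card_filter_le _ _)
    refine ⟨e3, e4, ?_, e2⟩
    rw [finrank_ML_eq hPJ mem_LL_iff, e1, e3, e4]
  have h2 : ∀ L : Set (Fin n →₀ ℕ), ∀ d, StabAt c L d →
      IsSt c n d ((AA n c n d).filter (· ∈ L)) := by
    refine fun L d hS => ⟨Finset.filter_subset _ _, fun β i j hij h3 h4 => ?_⟩
    obtain ⟨h5, h6⟩ := Finset.mem_filter.mp h3
    obtain ⟨h7, h8, _⟩ := mem_AA.mp h5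
    exact Finset.mem_filter.mpr ⟨mem_AA.mpr ⟨by simpa using h7, h4, sup_n _⟩,
      hS β i j (by simpa using h7) hij h6 h8⟩
  refine ⟨fun α hα i => ?_, fun d => ?_, fun p k => ?_⟩
  · by_cases h3 : InP c (α + Finsupp.single i 1)
    · exact Or.inl h3
    obtain ⟨L, hL, hP, hS⟩ := stabilize α.degree h0 hP0
    have h4 := h1 L hL hP α.degree
    have h5 := h1 L hL hP (α.degree + 1)
    refine ((mem_LL_iff _).mp (shadow (isLex_LL _ _) (h2 L _ (hS _ le_rfl)) (by omega)
      (isLex_LL (q (α.degree + 1)) _) (Finset.filter_subset (· ∈ L) _) (by omega)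
      (fun w hw j hj => ?_) (hα.resolve_left fun h => h3 (h.add _)) i h3)).2
    obtain ⟨h6, h7⟩ := Finset.mem_filter.mp hw
    exact Finset.mem_filter.mpr ⟨mem_AA.mpr ⟨by simp [(mem_AA.mp h6).1], hj, sup_n _⟩,
      hL.up w h7 j⟩
  · have h4 := h1 L0 h0 hP0 d
    rw [← finrank_ML (D := K), h4.2.2.1, h4.2.2.2]
  · obtain ⟨L, hL, hP, hS⟩ := stabilize (k + 1) h0 hP0
    have h4 := h1 L hL hP (k + 1)
    have h5 : StabAt c (LJ n c q) (k + 1) := by
      intro β i j hd hij h6 h7
      by_cases h8 : InP c (β + Finsupp.single i 1)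
      · exact Or.inl h8
      refine ((mem_LL_iff _).mp ((isLex_LL (q (k + 1)) _).2 _ ((mem_LL_iff _).mpr
        ⟨mem_AA.mpr ⟨by simpa using hd, h7, sup_n _⟩, h6⟩) _
        (mem_AA.mpr ⟨by simpa using hd, h8, sup_n _⟩) ?_)).2
      exact add_le_add_right (α := Lex (Fin n →₀ ℕ)) (Finsupp.Lex.single_le_iff.mpr hij.le) _
    refine (upperW c _ p k hPJ h5).trans (le_trans ?_ ((lowerW c L p k).trans (hL.rk p k)))
    rw [(finrank_Cs _ _).2, (finrank_Cs _ _).2, h4.2.2.1]
    have h6 := card_Dn L hP p (k + 1) (B := (AA n c n (k + 1)).filter (· ∈ L))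
      fun u => Finset.mem_filter
    have h7 := card_Dn _ hPJ p (k + 1) mem_LL_iff
    have h8 := weight n le_rfl _ p _ _ (isLex_LL (q (k + 1)) _) (h2 L _ (hS _ le_rfl))
    rw [h4.1, h4.2.1, Nat.sub_self, zero_mul] at h8
    omega

noncomputable def πI (I : Ideal (MvPolynomial (Fin n) K)) :
    CC K n →ₗ[K] (Finset (Fin n) → MvPolynomial (Fin n) K ⧸ I) :=
  (Ideal.Quotient.mkₐ K I).toLinearMap.compLeft _

noncomputable def kd (I : Ideal (MvPolynomial (Fin n) K)) :=
  kosDiff K fun i : Fin n => Ideal.Quotient.mk I (X i)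

noncomputable def ch (I : Ideal (MvPolynomial (Fin n) K)) := chains n (quotPart I)

lemma πI_apply (I : Ideal (MvPolynomial (Fin n) K)) (w : CC K n) (ρ : Finset (Fin n)) :
    πI I w ρ = Ideal.Quotient.mk I (w ρ) := rfl

lemma kd_πI (I : Ideal (MvPolynomial (Fin n) K)) (w : CC K n) :
    kd I (πI I w) = πI I (dd (xv K) w) := by
  funext ρ
  rw [πI_apply, dd_apply, map_sum, kd, kosDiff, LinearMap.pi_apply, LinearMap.sum_apply]
  refine Finset.sum_congr rfl fun i _ => ?_
  rw [map_zsmul, map_mul, mul_comm, ← Int.cast_smul_eq_zsmul K, sg, Int.cast_pow, Int.cast_neg,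
    Int.cast_one]
  rfl

lemma chains_eq (I : Ideal (MvPolynomial (Fin n) K)) (p d : ℕ) :
    ch I p (p + d) = (Cs p (Hm K d)).map (πI I) := by
  apply le_antisymm
  · intro w hw
    have : ∀ ρ : Finset (Fin n), ∃ z : NP K (Fin n), ((ρ.card = p → z ∈ Hm K d) ∧
        (ρ.card ≠ p → z = 0)) ∧ Ideal.Quotient.mk I z = w ρ := by
      intro ρ
      have h1 := hw ρ trivial
      by_cases h : ρ.card = p
      · simp only [h, le_self_add, and_self, if_true, Nat.add_sub_cancel_left] at h1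
        obtain ⟨z, hz, h2⟩ := h1
        exact ⟨z, ⟨fun _ => (Hm_eq (K := K) d).symm ▸ hz, fun h' => absurd h h'⟩, h2⟩
      · simp only [h, false_and, if_false] at h1
        exact ⟨0, ⟨fun _ => Submodule.zero_mem _, fun _ => rfl⟩, by rw [map_zero]; exact h1.symm⟩
    choose z h1 h2 using this
    exact ⟨z, mem_Cs.mpr h1, funext h2⟩
  · rintro _ ⟨w, hw, rfl⟩ ρ _
    by_cases h : ρ.card = p
    · simp only [h, le_self_add, and_self, if_true, Nat.add_sub_cancel_left]
      exact ⟨w ρ, Hm_eq (K := K) d ▸ (mem_Cs.mp hw ρ).1 h, rfl⟩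
    · simp only [h, false_and, if_false]
      change πI I w ρ = 0
      rw [πI_apply, (mem_Cs.mp hw ρ).2 h, map_zero]

lemma chains_bot (I : Ideal (MvPolynomial (Fin n) K)) {p j : ℕ} (h : j < p) :
    ch I p j = ⊥ := by
  rw [eq_bot_iff]
  intro w hw
  funext ρ
  have h1 := hw ρ trivial
  simp only [not_le.mpr h, and_false, if_false] at h1
  exact h1

lemma finrank_map_πI (I : Ideal (MvPolynomial (Fin n) K)) {p d : ℕ} {W : Submodule K (CC K n)}
    (hW : W ≤ Cs p (Hm K d)) : finrank K (W.map (πI I)) + finrank K (Cs p (pc I d)) =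
      finrank K (W ⊔ Cs p (pc I d) : Submodule K _) := by
  have h1 : W ⊔ Cs p (pc I d) ≤ Cs p (Hm K d) := sup_le hW (Cs_mono inf_le_right)
  have : Module.Finite K (W ⊔ Cs p (pc I d) : Submodule K _) := Submodule.finiteDimensional_of_le h1
  have h2 := LinearMap.finrank_range_add_finrank_ker ((πI I).domRestrict (W ⊔ Cs p (pc I d)))
  have h3 : Cs p (pc I d) ≤ LinearMap.ker (πI I) := by
    intro w hw
    funext ρ
    rw [πI_apply, Pi.zero_apply, Ideal.Quotient.eq_zero_iff_mem]
    by_cases h : ρ.card = p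
    · exact ((mem_Cs.mp hw ρ).1 h).1
    · rw [(mem_Cs.mp hw ρ).2 h]
      exact I.zero_mem
  have h4 : (LinearMap.ker (πI I)).comap (W ⊔ Cs p (pc I d)).subtype =
      (Cs p (pc I d)).comap (W ⊔ Cs p (pc I d)).subtype := by
    refine le_antisymm (fun w hw => mem_Cs.mpr fun ρ => ⟨fun h => ?_, ?_⟩)
      (Submodule.comap_mono h3)
    · exact Submodule.mem_inf.mpr ⟨Ideal.Quotient.eq_zero_iff_mem.mp (congrFun hw ρ),
        (mem_Cs.mp (h1 w.2) ρ).1 h⟩
    · exact (mem_Cs.mp (h1 w.2) ρ).2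
  have h5 : (Cs p (pc I d)).map (πI I) = ⊥ := LinearMap.le_ker_iff_map.mp h3
  have hle : Cs p (pc I d) ≤ W ⊔ Cs p (pc I d) := le_sup_right
  rwa [LinearMap.range_domRestrict, LinearMap.ker_domRestrict, h4, Submodule.map_sup, h5,
    sup_bot_eq, (Submodule.comapSubtypeEquivOfLe hle).finrank_eq] at h2

lemma map_kd (I : Ideal (MvPolynomial (Fin n) K)) (W : Submodule K (CC K n)) :
    (W.map (πI I)).map (kd I) = (W.map (dd (xv K))).map (πI I) := by
  rw [← Submodule.map_comp, ← Submodule.map_comp]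
  congr 1
  exact LinearMap.ext (kd_πI I)

lemma betti_add (I : Ideal (MvPolynomial (Fin n) K)) (p j : ℕ) :
    betti I p j + finrank K ((ch I p j).map (kd I)) +
      finrank K ((ch I (p + 1) j).map (kd I)) = finrank K (ch I p j) := by
  have : Module.Finite K (ch I p j) := by
    by_cases h : j < p
    · rw [chains_bot I h]
      infer_instance
    · obtain ⟨d, rfl⟩ := Nat.exists_eq_add_of_le (not_lt.mp h)
      rw [chains_eq]
      infer_instance
  have h1 : (ch I (p + 1) j).map (kd I) ≤ ch I p j ⊓ LinearMap.ker (kd I) := by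
    by_cases h : j < p + 1
    · rw [chains_bot I h, Submodule.map_bot]
      exact bot_le
    · obtain ⟨d, rfl⟩ := Nat.exists_eq_add_of_le (not_lt.mp h)
      rw [chains_eq, show p + 1 + d = p + (d + 1) by omega, chains_eq]
      rintro _ ⟨_, ⟨w, hw, rfl⟩, rfl⟩
      refine ⟨⟨_, dd_mem (fun z hz i => mul_mem_Hm hz (xv_mem i)) hw, (kd_πI I w).symm⟩, ?_⟩
      change kd I _ = 0
      rw [kd_πI, kd_πI, dd_dd (fun i j => xv_comm i _), map_zero]
  have : Module.Finite K (ch I p j ⊓ LinearMap.ker (kd I) : Submodule K _) :=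
    Submodule.finiteDimensional_of_le inf_le_left
  have h2 := Submodule.finrank_quotient_add_finrank (((ch I (p + 1) j).map (kd I)).comap
    (ch I p j ⊓ LinearMap.ker (kd I)).subtype)
  rw [(Submodule.comapSubtypeEquivOfLe h1).finrank_eq] at h2
  have h3 := LinearMap.finrank_range_add_finrank_ker ((kd I).domRestrict (ch I p j))
  have h4 : (LinearMap.ker (kd I)).comap (ch I p j).subtype =
      (ch I p j ⊓ LinearMap.ker (kd I)).comap (ch I p j).subtype := by
    ext v
    simp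
  rw [LinearMap.range_domRestrict, LinearMap.ker_domRestrict, h4,
    (Submodule.comapSubtypeEquivOfLe inf_le_left).finrank_eq] at h3
  have h5 : betti I p j = finrank K (↥(ch I p j ⊓ LinearMap.ker (kd I)) ⧸ ((ch I (p + 1) j).map
    (kd I)).comap (ch I p j ⊓ LinearMap.ker (kd I)).subtype) := rfl
  omega

theorem betti_le {I J : Ideal (MvPolynomial (Fin n) K)}
    (h1 : ∀ d, finrank K (pc J d) = finrank K (pc I d))
    (h2 : ∀ p k, finrank K (WW (xv K) (pc J (k + 1)) p k) ≤
      finrank K (WW (xv K) (pc I (k + 1)) p k)) (p j : ℕ) : betti I p j ≤ betti J p j := by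
  have e : ∀ p d, finrank K (Cs p (pc J d)) = finrank K (Cs p (pc I d)) := fun p d => by
    rw [(finrank_Cs _ _).2, (finrank_Cs _ _).2, h1]
  have h3 : finrank K (ch I p j) = finrank K (ch J p j) := by
    by_cases h : j < p
    · rw [chains_bot I h, chains_bot J h, finrank_bot, finrank_bot]
    · obtain ⟨d, rfl⟩ := Nat.exists_eq_add_of_le (not_lt.mp h)
      have h4 := finrank_map_πI I (le_refl (Cs p (Hm K d)))
      have h5 := finrank_map_πI J (le_refl (Cs p (Hm K d)))
      rw [sup_eq_left.mpr (Cs_mono inf_le_right)] at h4 h5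
      have := e p d
      rw [chains_eq, chains_eq]
      omega
  have h4 : ∀ p, finrank K ((ch J p j).map (kd J)) ≤
      finrank K ((ch I p j).map (kd I)) := by
    intro p
    by_cases h : j < p
    · rw [chains_bot J h, Submodule.map_bot, finrank_bot]
      exact Nat.zero_le _
    obtain ⟨d, rfl⟩ := Nat.exists_eq_add_of_le (not_lt.mp h)
    rw [chains_eq, chains_eq, map_kd, map_kd]
    cases p with
    | zero =>
      have : (Cs 0 (Hm K d)).map (dd (xv (n := n) K)) = ⊥ :=
        LinearMap.le_ker_iff_map.mp fun w hw => dd_zero _ hw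
      rw [this, Submodule.map_bot, finrank_bot]
      exact Nat.zero_le _
    | succ p =>
      have h5 : (Cs (p + 1) (Hm K d)).map (dd (xv (n := n) K)) ≤ Cs p (Hm K (d + 1)) :=
        le_sup_left.trans (WW_le xv_mem bot_le)
      have h6 := finrank_map_πI I h5
      have h7 := finrank_map_πI J h5
      have h8 := h2 p d
      have := e p (d + 1)
      rw [WW, WW] at h8
      omega
  have h5 := betti_add I p j
  have h6 := betti_add J p j
  have h7 := h4 p
  have h8 := h4 (p + 1)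
  omega

theorem lpp_quadrics (hc : 1 ≤ c) (hcn : c ≤ n)
    (f : Fin c → MvPolynomial (Fin n) K) (hf2 : ∀ i, f i ∈ Hm K 2)
    (hreg : ∀ i, Nzd (Ideal.span (f '' {j | j < i})) (f i))
    (I : Ideal (MvPolynomial (Fin n) K)) (hfI : ∀ i, f i ∈ I) :
    ∃ J : Ideal (MvPolynomial (Fin n) K), J.restrictScalars K = (⨆ d, lexPart I c d) ∧
      ∀ p j, betti I p j ≤ betti J p j := by
  obtain ⟨L0, h0, hP0⟩ := first_deg hc hcn f hf2 hreg I hfI
  have h := deg_LJ h0 hP0
  have e0 : ∀ (J : Ideal (MvPolynomial (Fin n) K)) d, degPart J d = pc J d := fun J d => by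
    rw [degPart, pc, Hm_eq]
  set q : ℕ → ℕ := fun d => finrank K (pc I d) - finrank K (ML K {α : Fin n →₀ ℕ | InP c α} d)
    with hq
  have hJ := pc_monomial (K := K) h.up
  have e1 : ∀ d, lexPart I c d = ML K (LJ n c q) d := by
    intro d
    have e2 : outside K n c d = AA n c n d := by
      ext β
      simp only [outside, Finset.mem_coe, mem_AA, Set.mem_ofPred_eq, monomial_mem_squares, sup_n,
        and_true]
    have e3 : qDim I c d = q d := by
      rw [qDim, e0 I, e0 (squares K n c), pc_eq_ML squares_eq]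
    have e4 : lexTop (outside K n c d) (qDim I c d) = LL n c (q d) d := by
      ext α
      rw [e2, e3, lexTop, LL, Finset.coe_filter]
      simp only [Set.mem_ofPred_eq, ← Set.ncard_coe_finset, Finset.coe_filter, Finset.mem_coe]
    rw [lexPart, e0, pc_eq_ML squares_eq, e4]
    apply le_antisymm
    · refine sup_le (MS_mono fun α hα => ⟨Or.inl hα.1, hα.2⟩) (Submodule.span_le.mpr ?_)
      rintro _ ⟨α, h1, rfl⟩
      have h2 := (mem_LL_iff α).mp h1
      exact mem_ML h2.2 (mem_AA.mp h2.1).1 1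
    · refine MS_le fun α hα => ?_
      by_cases h1 : InP c α
      · exact Submodule.mem_sup_left (mem_ML h1 hα.2 1)
      · exact Submodule.mem_sup_right (Submodule.subset_span
          ⟨α, (mem_LL_iff α).mpr ⟨mem_AA.mpr ⟨hα.2, h1, sup_n _⟩, hα.1⟩, rfl⟩)
  refine ⟨Ideal.span ((fun s => monomial s (1 : K)) '' LJ n c q), ?_,
    betti_le (fun d => ?_) fun p k => ?_⟩
  · rw [hJ]
    simp only [e1]
    exact le_antisymm (MS_le fun m hm => Submodule.mem_iSup_of_mem m.degree (mem_ML hm rfl 1))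
      (iSup_le fun d => MS_mono fun _ h => h.1)
  · rw [pc_eq_ML hJ, finrank_ML, h.cnt]
  · rw [pc_eq_ML hJ]
    exact h.rk p k

end
end Vale.Agent.P200
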