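import Vale.Agent.P200.Frame

/-! Leading monomials: counts and Koszul ranks. -/

namespace Vale.Agent.P200

open Module AddMonoidAlgebra

lemma finrank_span_le_of_lift {D V T : Type*} [DivisionRing D] [AddCommGroup V] [Module D V]
    [LinearOrder T] (π : T → V →ₗ[D] V) (G : Set V) (W : Submodule D V) [Module.Finite D W]
    (h : ∀ g ∈ G, ∃ t, ∃ w ∈ W, π t w = g ∧ ∀ s < t, π s w = 0) :
    finrank D (Submodule.span D G) ≤ finrank D W := by
  classical
  obtain ⟨b, hb1, hb2, hb3⟩ := exists_linearIndependent D G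
  choose t w hw1 hw2 hw3 using fun g : b => h g (hb1 g.2)
  have h1 : LinearIndependent D fun g : b => (⟨w g, hw1 g⟩ : W) := by
    rw [linearIndependent_iff']
    intro s a ha
    by_contra! hh
    obtain ⟨i0, hi0, hmin⟩ := (s.filter fun i => a i ≠ 0).exists_min_image t
      (hh.imp fun i hi => Finset.mem_filter.mpr hi)
    have h2 := congrArg (fun v : W => π (t i0) v) ha
    simp only [AddSubmonoidClass.coe_finsetSum, SetLike.val_smul, map_sum, map_smul,
      ZeroMemClass.coe_zero, map_zero] at h2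
    have h3 := linearIndependent_iff'.mp hb3 s (fun i => if t i = t i0 then a i else 0) (by
      rw [← h2]
      refine Finset.sum_congr rfl fun i hi => ?_
      by_cases h4 : t i = t i0
      · rw [if_pos h4, ← h4, hw2]
      · rw [if_neg h4, zero_smul]
        by_cases h5 : a i = 0
        · rw [h5, zero_smul]
        · rw [hw3 i _ (lt_of_le_of_ne (hmin i (Finset.mem_filter.mpr ⟨hi, h5⟩)) (Ne.symm h4)),
            smul_zero]) i0 (Finset.mem_filter.mp hi0).1
    exact (Finset.mem_filter.mp hi0).2 (by simpa using h3)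
  have : Finite b := h1.finite
  have := Fintype.ofFinite b
  have h4 := finrank_span_eq_card hb3
  rw [Subtype.range_coe_subtype, Set.ofPred_mem_eq, hb2] at h4
  rw [h4]
  exact h1.fintype_card_le_finrank

section
variable {D T : Type*} [DivisionRing D] {n : ℕ} [LinearOrder T]

lemma single_mem_MS {s : Set (Fin n →₀ ℕ)} {m : Fin n →₀ ℕ} (h : m ∈ s) (r : D) :
    single m r ∈ MS D s := by
  rw [MS_eq_span, single_eq_smul]
  exact Submodule.smul_mem _ _ (Submodule.subset_span ⟨m, h, rfl⟩)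

lemma MS_le {s : Set (Fin n →₀ ℕ)} {M : Submodule D (NP D (Fin n))}
    (h : ∀ m ∈ s, single m 1 ∈ M) : MS D s ≤ M := by
  rw [MS_eq_span]
  refine Submodule.span_le.mpr ?_
  rintro _ ⟨m, hm, rfl⟩
  exact h m hm

lemma mem_MS {s : Set (Fin n →₀ ℕ)} {z : NP D (Fin n)} :
    z ∈ MS D s ↔ ∀ m ∉ s, z.coeff m = 0 := mem_supported'

lemma MS_mono {s t : Set (Fin n →₀ ℕ)} (h : s ⊆ t) : MS D s ≤ MS D t := supported_mono h

lemma MS_mul {s t : Set (Fin n →₀ ℕ)} {i : Fin n} (h : ∀ m ∈ s, m + Finsupp.single i 1 ∈ t)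
    {z : NP D (Fin n)} (hz : z ∈ MS D s) : z * xv D i ∈ MS D t := by
  have : MS D s ≤ (MS D t).comap (rm D (xv D i)) := MS_le fun m hm => by
    change single m 1 * xv D i ∈ MS D t
    rw [xv, single_mul_single]
    exact single_mem_MS (h m hm) _
  exact this hz

lemma finrank_MS (s : Finset (Fin n →₀ ℕ)) : finrank D (MS D (s : Set (Fin n →₀ ℕ))) = s.card := by
  rw [MS, (AddMonoidAlgebra.supportedEquivFinsupp _).finrank_eq]
  simp

def Lead (κ : (Fin n →₀ ℕ) → T) (N : Submodule D (NP D (Fin n))) (α : Fin n →₀ ℕ) : Prop :=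
  ∃ u ∈ N, u - single α 1 ∈ MS D {β | β.degree = α.degree ∧ κ α < κ β}

def Ld (κ : (Fin n →₀ ℕ) → T) (N : ℕ → Submodule D (NP D (Fin n))) : Set (Fin n →₀ ℕ) :=
  {α | Lead κ (N α.degree) α}

def UpC (L : Set (Fin n →₀ ℕ)) : Prop := ∀ α ∈ L, ∀ i, α + Finsupp.single i 1 ∈ L

lemma UpC.le {L : Set (Fin n →₀ ℕ)} (h : UpC L) : ∀ α ∈ L, ∀ β, α ≤ β → β ∈ L := by
  intro α hα β hαβ
  obtain ⟨γ, rfl⟩ := exists_add_of_le hαβ
  clear hαβ
  induction γ using deg_induction with
  | h0 => simpa using hα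
  | h m i ih =>
    rw [← add_assoc]
    exact h _ ih i

structure Key (κ : (Fin n →₀ ℕ) → T) : Prop where
  inj : Function.Injective κ
  add : ∀ α β γ, κ α < κ β → κ (α + γ) < κ (β + γ)

lemma Ld_up {κ : (Fin n →₀ ℕ) → T} (hκ : Key κ) {N : ℕ → Submodule D (NP D (Fin n))}
    (hN : ∀ d, ∀ z ∈ N d, ∀ i, z * xv D i ∈ N (d + 1)) : UpC (Ld κ N) := by
  rintro α ⟨u, hu, huY⟩ i
  have e : (α + Finsupp.single i 1).degree = α.degree + 1 := by simp
  refine ⟨u * xv D i, e ▸ hN _ u hu i, ?_⟩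
  have : (single (α + Finsupp.single i 1) 1 : NP D (Fin n)) = single α 1 * xv D i := by
    rw [xv, single_mul_single, mul_one]
  rw [this, ← sub_mul]
  refine MS_mul (fun m hm => ?_) huY
  exact ⟨by simp [hm.1], hκ.add _ _ _ hm.2⟩

open Classical in
lemma count_Lead {κ : (Fin n →₀ ℕ) → T} (hκ : Key κ) {N : Submodule D (NP D (Fin n))} {d : ℕ}
    (hN : N ≤ Hm D d) : finrank D N = ((AD (Fin n) d).filter (Lead κ N)).card := by
  have hli : LinearIndependent D fun m : Fin n →₀ ℕ => (single m 1 : NP D (Fin n)) := by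
    have := (AddMonoidAlgebra.basis (Fin n →₀ ℕ) D).linearIndependent
    rwa [show ⇑(AddMonoidAlgebra.basis (Fin n →₀ ℕ) D) = fun m => single m 1 from
      funext fun m => AddMonoidAlgebra.basis_apply _ m] at this
  have h1 := count_lead κ hκ.inj (fun m => single m 1) N (AD (Fin n) d) (hli.linearIndepOn _)
  rw [← MS_eq_span, inf_eq_left.mpr (hN.trans (MS_mono fun m hm => mem_AD.mpr hm))] at h1
  rw [h1]
  congr 1
  refine Finset.filter_congr fun α hα => ?_
  simp only [Lead, ← MS_eq_span, mem_AD, mem_AD.mp hα]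

lemma lead_of_min {κ : (Fin n →₀ ℕ) → T} (hκ : Key κ) {N : Submodule D (NP D (Fin n))} {d : ℕ}
    (hN : N ≤ Hm D d) {w : NP D (Fin n)} (hw : w ∈ N) (h0 : w ≠ 0) :
    ∃ m, w.coeff m ≠ 0 ∧ Lead κ N m ∧ ∀ m', w.coeff m' ≠ 0 → κ m ≤ κ m' := by
  obtain ⟨m, hm, hmin⟩ := w.coeff.support.exists_min_image κ (by
    rw [Finsupp.support_nonempty_iff]
    exact fun h => h0 (AddMonoidAlgebra.ext h))
  simp only [Finsupp.mem_support_iff] at hm hmin
  refine ⟨m, hm, ⟨_, N.smul_mem (w.coeff m)⁻¹ hw, mem_MS.mpr fun m' hm' => ?_⟩, hmin⟩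
  by_cases h : m' = m
  · subst h
    simp [inv_mul_cancel₀ hm]
  · have : w.coeff m' = 0 := by
      by_contra h1
      have h2 : ∀ x, w.coeff x ≠ 0 → x.degree = d := fun x hx => by
        by_contra h3
        exact hx (mem_Hm.mp (hN hw) x h3)
      exact hm' ⟨by rw [h2 m hm, h2 m' h1],
        lt_of_le_of_ne (hmin m' h1) fun h3 => h (hκ.inj h3).symm⟩
    simp [this, h]

lemma πZ_self {Z Z' : Set (Cell n)} (h : Z' ⊆ Z) {w : CC D n} (hw : w ∈ CS D Z') :
    πZ D Z w = w := by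
  have : CS D Z' ≤ LinearMap.eqLocus (πZ D Z) LinearMap.id := CS_le fun x hx => by
    rw [LinearMap.mem_eqLocus, πZ_cell, if_pos (h hx)]
    rfl
  exact this hw

theorem rank_lead {κ : (Fin n →₀ ℕ) → T} (hκ : Key κ) {N : ℕ → Submodule D (NP D (Fin n))}
    {p k : ℕ} (hN : N (k + 1) ≤ Hm D (k + 1)) :
    finrank D (WW (xv D) (ML D (Ld κ N) (k + 1)) p k) ≤ finrank D (WW (xv D) (N (k + 1)) p k) := by
  have : Module.Finite D (N (k + 1)) := Submodule.finiteDimensional_of_le hN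
  conv_lhs => rw [WW, Cs_Hm, ML, Cs_MS, CS, CS, Submodule.map_span, ← Submodule.span_union]
  refine finrank_span_le_of_lift (fun t => πZ D {x | κ (md x) = t}) _ _ ?_
  rintro _ (⟨_, ⟨⟨ρ, β⟩, hx, rfl⟩, rfl⟩ | ⟨⟨ρ, α⟩, ⟨h1, h2, h3⟩, rfl⟩)
  · have h1 : dd (xv D) (cell D (ρ, β)) ∈ CS D {x | κ (md x) = κ (md (ρ, β))} := by
      rw [dd_cell]
      exact Submodule.sum_mem _ fun i hi => Submodule.smul_of_tower_mem _ _
        (cell_mem (congrArg κ (md_erase hi β)))
    refine ⟨κ (md (ρ, β)), _, Submodule.mem_sup_left ⟨_, ?_, rfl⟩, πZ_self subset_rfl h1,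
      fun s hs => πZ_zero (fun x h2 h3 => hs.ne (h3.symm.trans h2)) h1⟩
    rw [Cs_Hm]
    exact cell_mem hx
  · obtain ⟨u, hu, huY⟩ := h2
    simp only at h1 h3 hu huY
    have h4 : MS D {β | β.degree = α.degree ∧ κ α < κ β} ≤
        (CS D {x | κ (md (ρ, α)) < κ (md x)}).comap
          (LinearMap.single D (fun _ : Finset (Fin n) => NP D (Fin n)) ρ) :=
      MS_le fun m hm => cell_mem (x := (ρ, m)) (hκ.add _ _ _ hm.2)
    have h5 : Pi.single ρ u - cell D (ρ, α) ∈ CS D {x | κ (md (ρ, α)) < κ (md x)} := by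
      have := h4 huY
      rwa [Submodule.mem_comap, map_sub] at this
    have h6 : ∀ s ≤ κ (md (ρ, α)), πZ D {x | κ (md x) = s} (Pi.single ρ u) =
        πZ D {x | κ (md x) = s} (cell D (ρ, α)) := fun s hs => by
      rw [← sub_eq_zero, ← map_sub]
      exact πZ_zero (fun x h7 h8 => absurd (h8 ▸ h7 : _ < s) (not_lt.mpr hs)) h5
    refine ⟨κ (md (ρ, α)), Pi.single ρ u, Submodule.mem_sup_right (single_mem_Cs h1 (h3 ▸ hu)),
      ?_, fun s hs => ?_⟩
    · rw [h6 _ le_rfl, πZ_cell, if_pos (by rfl)]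
    · rw [h6 _ hs.le, πZ_cell, if_neg (by exact hs.ne')]

end

section
variable {K D T : Type*} [Field K] [DivisionRing D] [Algebra K D] {n : ℕ} [LinearOrder T]

lemma bc_le {M : Submodule K (NP K (Fin n))} {d : ℕ} (h : M ≤ Hm K d) : bc D M ≤ Hm D d := by
  refine Submodule.span_le.mpr ?_
  rintro _ ⟨g, hg, rfl⟩
  exact io_mem (h hg)

lemma bc_mul1 {M M' : Submodule K (NP K (Fin n))} (h : ∀ z ∈ M, ∀ i, z * xv K i ∈ M')
    {z t : NP D (Fin n)} (hz : z ∈ bc D M) (ht : t ∈ Hm D 1) : z * t ∈ bc D M' := by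
  have : bc D M ≤ (bc D M').comap (rm D t) := by
    refine Submodule.span_le.mpr ?_
    rintro _ ⟨g, hg, rfl⟩
    have : Hm D 1 ≤ (bc D M').comap (lm D _ (io_smul g)) := by
      refine MS_le fun m hm => ?_
      obtain ⟨i, rfl⟩ : ∃ i, Finsupp.single i 1 = m := by
        have : m ∈ Set.range fun i : Fin n => Finsupp.single i 1 := by
          rw [Finsupp.range_single_one]
          exact hm
        exact this
      refine Submodule.subset_span ⟨_, h g hg i, ?_⟩
      rw [map_mul, xv, io_one]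
      rfl
    exact this ht
  exact this hz

lemma finrank_bc' (M : Submodule K (NP K (Fin n))) [Module.Finite K M] :
    finrank D (bc D M) = finrank K M := by
  refine finrank_bc (K := K) (D := D) (io D : NP K (Fin n) →+* NP D (Fin n)).toAddMonoidHom
    (fun k v => ?_) (fun lam => ⟨(cmap lam).toAddMonoidHom, fun a v => ?_⟩) M
  · change io D (k • v) = _ • io D v
    rw [io_ksmul, algebraMap_smul]
  · refine AddMonoidAlgebra.ext (Finsupp.ext fun m => ?_)
    change lam ((a • io D v).coeff m) = (lam a • v).coeff m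
    simp only [coeff_smul, Finsupp.smul_apply, io, coeff_mapRingHom, smul_eq_mul]
    rw [← Algebra.commutes, ← Algebra.smul_def, map_smul, smul_eq_mul, mul_comm]

open Classical in
structure Deg (M : ℕ → Submodule K (NP K (Fin n))) (L : Set (Fin n →₀ ℕ)) : Prop where
  up : UpC L
  cnt : ∀ d, ((AD (Fin n) d).filter (· ∈ L)).card = finrank K (M d)
  rk : ∀ p k, finrank K (WW (xv K) (ML K L (k + 1)) p k) ≤ finrank K (WW (xv K) (M (k + 1)) p k)

open Classical in
theorem degen {M : ℕ → Submodule K (NP K (Fin n))} (h1 : ∀ d, M d ≤ Hm K d)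
    (h2 : ∀ d, ∀ z ∈ M d, ∀ i, z * xv K i ∈ M (d + 1)) {y : Fin n → NP D (Fin n)} (hy : Fr y)
    {Φ : NP D (Fin n) →ₗ[D] NP D (Fin n)} (hΦ : Ph y Φ) {κ : (Fin n →₀ ℕ) → T} (hκ : Key κ) :
    Deg M (Ld κ fun d => (bc D (M d)).comap Φ ⊓ Hm D d) := by
  have : ∀ d, Module.Finite K (M d) := fun d => Submodule.finiteDimensional_of_le (h1 d)
  refine ⟨Ld_up hκ fun d z hz i => ⟨?_, mul_mem_Hm hz.2 (xv_mem i)⟩, fun d => ?_, fun p k => ?_⟩
  · change Φ (z * xv D i) ∈ bc D (M (d + 1))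
    rw [hΦ.mul]
    exact bc_mul1 (h2 d) hz.1 (hy.h1 i)
  · rw [← finrank_bc' (D := D), ← finrank_pull hΦ (bc_le (h1 d)), count_Lead hκ inf_le_right]
    congr 1
    refine Finset.filter_congr fun α hα => ?_
    simp only [Ld, Set.mem_ofPred_eq, mem_AD.mp hα]
  · rw [← finrank_WW_bc (D := D), ← finrank_WW_bc (D := D), ML, bc_MS]
    exact (rank_lead hκ inf_le_right).trans
      (rank_pull hy hΦ (bc_le (h1 _)) fun z hz t ht => bc_mul0 hz ht)

end
end Vale.Agent.P200
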