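import Vale.Agent.P200.Hilb

/-! Extending a regular family by linear forms; base change. -/

namespace Vale.Agent.P200

open MvPolynomial Module

section
variable {K σ ι : Type*} [Field K]

def SF (J : Ideal (MvPolynomial σ K)) : Prop := ∀ r, (∀ i, X i * r ∈ J) → r ∈ J

lemma X_mem_Hm (i : σ) : (X i : MvPolynomial σ K) ∈ Hm K 1 := by
  rw [Hm_eq]
  exact isHomogeneous_X K i

lemma Hm_one_eq : (Hm K 1 : Submodule K (MvPolynomial σ K)) = Submodule.span K (Set.range X) := by
  rw [Hm_eq, homogeneousSubmodule_one_eq_span_X]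

lemma avoid_gen [Infinite K] {R : Type*} [CommRing R] [IsNoetherianRing R] [Algebra K R]
    (J : Ideal R) (V : Submodule K R) (h : ∀ r, (∀ v ∈ V, v * r ∈ J) → r ∈ J) :
    ∃ l ∈ V, ∀ r, l * r ∈ J → r ∈ J := by
  by_contra! hc
  have hfin := associatedPrimes.finite R (R ⧸ J)
  have := hfin.to_subtype
  let q : associatedPrimes R (R ⧸ J) → Subspace K V :=
    fun p => (p.1.restrictScalars K).comap V.subtype
  have hq : ∀ p l, l ∈ q p ↔ (l : R) ∈ p.1 := fun _ _ => Iff.rfl
  have hcov : ⋃ p, (q p : Set V) = Set.univ := by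
    rw [Set.eq_univ_iff_forall]
    rintro ⟨l, hl⟩
    obtain ⟨r, hr1, hr2⟩ := hc l hl
    have h2 : l ∈ {r : R | ∃ x : R ⧸ J, x ≠ 0 ∧ r • x = 0} :=
      ⟨Ideal.Quotient.mk J r, fun h0 => hr2 (Ideal.Quotient.eq_zero_iff_mem.mp h0),
        Ideal.Quotient.eq_zero_iff_mem.mpr hr1⟩
    rw [← biUnion_associatedPrimes_eq_zero_divisors] at h2
    obtain ⟨p, hp, hlp⟩ := Set.mem_iUnion₂.mp h2
    exact Set.mem_iUnion.mpr ⟨⟨p, hp⟩, (hq _ _).mpr hlp⟩
  obtain ⟨p, hp2⟩ := Subspace.exists_eq_top_of_iUnion_eq_univ hcov
  obtain ⟨hpr, x, hx⟩ := isAssociatedPrime_iff.mp p.2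
  obtain ⟨r, rfl⟩ := Ideal.Quotient.mk_surjective x
  have hr : r ∈ J := h r fun v hv => by
    have h1 : (⟨v, hv⟩ : V) ∈ q p := by rw [hp2]; trivial
    rw [hq, hx, Submodule.mem_colon_singleton, Submodule.mem_bot] at h1
    exact Ideal.Quotient.eq_zero_iff_mem.mp h1
  apply hpr.ne_top
  rw [hx, Ideal.Quotient.eq_zero_iff_mem.mpr hr]
  simp

lemma avoid [Infinite K] [Finite σ] {J : Ideal (MvPolynomial σ K)} (h : SF J) :
    ∃ l ∈ Hm K 1, Nzd J l :=
  avoid_gen J (Hm K 1) fun r hr => h r fun i => hr _ (X_mem_Hm i)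

lemma mul_mem_of_pos {J : Ideal (MvPolynomial σ K)} {r b : MvPolynomial σ K} {δ : ℕ}
    (h : ∀ i, X i * r ∈ J) (hb : b ∈ Hm K δ) (hδ : 0 < δ) : b * r ∈ J := by
  have h1 : b ∈ Ideal.span (X '' (Set.univ : Set σ)) := by
    rw [mem_ideal_span_X_image]
    intro m hm
    by_contra! h0
    have h2 : m = 0 := Finsupp.ext fun i => h0 i trivial
    apply mem_support_iff.mp hm
    exact mem_Hm.mp hb m (by rw [h2, map_zero]; omega)
  have h2 : Ideal.span (X '' (Set.univ : Set σ)) ≤ J.colon {r} := by
    rw [Ideal.span_le]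
    rintro _ ⟨i, -, rfl⟩
    exact Submodule.mem_colon_singleton.mpr (h i)
  exact Submodule.mem_colon_singleton.mp (h2 h1)

lemma exchange {J : Ideal (MvPolynomial σ K)} {a b : MvPolynomial σ K} {δ : ℕ}
    (hb : b ∈ Hm K δ) (hδ : 0 < δ) (h1 : Nzd J a) (h2 : Nzd J b)
    (h : SF (J ⊔ Ideal.span {b})) : SF (J ⊔ Ideal.span {a}) := by
  intro r hr
  obtain ⟨j, hj, s, hs⟩ := mem_sup_span.mp (mul_mem_of_pos hr hb hδ)
  have h3 : s ∈ J ⊔ Ideal.span {b} := h s fun i => by
    obtain ⟨j', hj', t, ht⟩ := mem_sup_span.mp (hr i)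
    refine mem_sup_span.mpr ⟨X i * s - b * t, h1 _ ?_, t, by ring⟩
    have : a * (X i * s - b * t) = b * j' - X i * j := by
      linear_combination b * ht - X i * hs
    rw [this]
    exact J.sub_mem (J.mul_mem_left _ hj') (J.mul_mem_left _ hj)
  obtain ⟨j', hj', t, ht⟩ := mem_sup_span.mp h3
  refine mem_sup_span.mpr ⟨r - a * t, h2 _ ?_, t, by ring⟩
  have : b * (r - a * t) = j + a * j' := by linear_combination hs + a * ht
  rw [this]
  exact J.add_mem hj (J.mul_mem_left _ hj')

lemma sf_linear [Fintype σ] {g : ι → MvPolynomial σ K} {s : Finset ι}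
    (hg : ∀ i ∈ s, g i ∈ Hm K 1) (hs : s.card < Fintype.card σ) : SF (JJ g s) := by
  classical
  let W : Submodule K (MvPolynomial σ K) := Submodule.span K (s.image g : Set _)
  have hWJ : ∀ w ∈ W, w ∈ JJ g s := by
    have : W ≤ (JJ g s).restrictScalars K := by
      refine Submodule.span_le.mpr ?_
      rw [Finset.coe_image]
      exact Ideal.subset_span
    exact this
  obtain ⟨i0, hi0⟩ : ∃ i, X i ∉ W := by
    by_contra! h0
    have h1 : LinearIndependent K (fun i => (⟨X i, h0 i⟩ : W)) :=
      LinearIndependent.of_comp W.subtype (linearIndependent_X σ K)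
    have h2 := h1.fintype_card_le_finrank
    have h3 : finrank K W ≤ s.card :=
      (finrank_span_finset_le_card (s.image g)).trans Finset.card_image_le
    omega
  obtain ⟨sec, hsec⟩ := W.mkQ.exists_rightInverse_of_surjective W.range_mkQ
  let π := sec ∘ₗ W.mkQ
  have hπ : ∀ x, x - π x ∈ W := by
    intro x
    rw [← Submodule.Quotient.eq]
    exact (LinearMap.congr_fun hsec (W.mkQ x)).symm
  let ψ : MvPolynomial σ K →ₐ[K] MvPolynomial σ K := aeval fun i => π (X i)
  have hψ1 : ∀ l ∈ Hm K 1, ψ l = π l := by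
    intro l hl
    rw [Hm_one_eq] at hl
    have : Submodule.span K (Set.range X) ≤ LinearMap.eqLocus ψ.toLinearMap π := by
      refine Submodule.span_le.mpr ?_
      rintro _ ⟨i, rfl⟩
      simp [ψ]
    exact this hl
  have hψ2 : JJ g s ≤ RingHom.ker ψ := by
    refine Ideal.span_le.mpr ?_
    rintro _ ⟨i, hi, rfl⟩
    have : W.mkQ (g i) = 0 := (Submodule.Quotient.mk_eq_zero _).mpr (Submodule.subset_span (by
      rw [Finset.coe_image]
      exact ⟨i, hi, rfl⟩))
    change ψ (g i) = 0
    rw [hψ1 _ (hg i hi)]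
    simp only [π, LinearMap.comp_apply, this, map_zero]
  have hψ3 : ∀ p, p - ψ p ∈ JJ g s := by
    intro p
    induction p using MvPolynomial.induction_on with
    | C a => simp [ψ]
    | add p q hp hq =>
      rw [map_add, add_sub_add_comm]
      exact Ideal.add_mem _ hp hq
    | mul_X p i hp =>
      have : p * X i - ψ (p * X i) = (p - ψ p) * X i + ψ p * (X i - π (X i)) := by
        rw [map_mul, hψ1 _ (X_mem_Hm i)]
        ring
      rw [this]
      exact Ideal.add_mem _ (Ideal.mul_mem_right _ _ hp) (Ideal.mul_mem_left _ _ (hWJ _ (hπ _)))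
  intro r hr
  have h1 : ψ (X i0 * r) = 0 := hψ2 (hr i0)
  rw [map_mul, hψ1 _ (X_mem_Hm i0), mul_eq_zero] at h1
  rcases h1 with h1 | h1
  · exact absurd (by simpa [h1] using hπ (X i0)) hi0
  · simpa [h1] using hψ3 r

theorem depth [Infinite K] [Fintype σ] [DecidableEq ι] (m : ℕ) :
    ∀ (g : ι → MvPolynomial σ K) (s : Finset ι), s.card = m → m < Fintype.card σ → Pos g s →
      Reg g s → SF (JJ g s) := by
  induction m with
  | zero =>
    intro g s hs hm _ _
    apply sf_linear _ (by omega)
    simp [Finset.card_eq_zero.mp hs]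
  | succ m ih =>
    intro g s hs hm
    have key : ∀ t ⊆ s, ∀ g : ι → MvPolynomial σ K, (∀ i ∈ s, i ∉ t → g i ∈ Hm K 1) → Pos g s →
        Reg g s → SF (JJ g s) := by
      intro t
      induction t using Finset.induction_on with
      | empty =>
        intro _ g hg _ _
        exact sf_linear (fun i hi => hg i hi (by simp)) (by omega)
      | insert k t hk iht =>
        intro ht g hg hp hr
        have hks : k ∈ s := ht (Finset.mem_insert_self _ _)
        have hsub := Finset.erase_subset k s
        obtain ⟨l, hl, hln⟩ := avoid (ih g (s.erase k)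
          (by rw [Finset.card_erase_of_mem hks]; omega) (by omega) (hp.mono hsub) (hr.mono hsub))
        have he : ∀ i ∈ s.erase k, g i = Function.update g k l i := fun i hi =>
          (Function.update_of_ne (Finset.ne_of_mem_erase hi) _ _).symm
        have hp' : Pos (Function.update g k l) s := by
          intro i hi
          by_cases hik : i = k
          · exact ⟨1, one_pos, by rw [hik, Function.update_self]; exact hl⟩
          · rw [Function.update_of_ne hik]
            exact hp i hi
        have hr' : Reg (Function.update g k l) (insert k (s.erase k)) := by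
          apply ((hr.mono hsub).congr he).insert (by rwa [Finset.insert_erase hks])
          rwa [← JJ_congr he, Function.update_self]
        rw [Finset.insert_erase hks] at hr'
        have h1 := iht ((Finset.subset_insert _ _).trans ht) (Function.update g k l) (by
          intro i hi hit
          by_cases hik : i = k
          · rw [hik, Function.update_self]
            exact hl
          · rw [Function.update_of_ne hik]
            exact hg i hi (by simp [hik, hit])) hp' hr'
        rw [← Finset.insert_erase hks, JJ_insert] at h1 ⊢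
        rw [← JJ_congr he, Function.update_self] at h1
        exact exchange hl one_pos (hr _ hsub k hks (Finset.notMem_erase _ _)) hln h1
    exact key s subset_rfl g (fun i hi hi' => absurd hi hi')

def lt' (n k : ℕ) : Finset (Fin n) := Finset.univ.filter fun i => i.val < k

lemma mem_lt' {n k : ℕ} {i : Fin n} : i ∈ lt' n k ↔ i.val < k := by simp [lt']

lemma lt'_succ {n k : ℕ} (h : k < n) : lt' n (k + 1) = insert ⟨k, h⟩ (lt' n k) := by
  ext i
  simp only [mem_lt', Finset.mem_insert, Fin.ext_iff]
  omega

lemma card_lt' {n k : ℕ} (h : k ≤ n) : (lt' n k).card = k := by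
  induction k with
  | zero => simp [lt']
  | succ k ih =>
    rw [lt'_succ (by omega), Finset.card_insert_of_notMem (by simp [mem_lt']), ih (by omega)]

theorem extend [Infinite K] {n c : ℕ} {g0 : Fin n → MvPolynomial (Fin n) K}
    (hp : Pos g0 (lt' n c)) (hr : Reg g0 (lt' n c)) (k : ℕ) (hck : c ≤ k) (hk : k ≤ n) :
    ∃ g : Fin n → MvPolynomial (Fin n) K, (∀ i, i.val < c → g i = g0 i) ∧
      (∀ i, c ≤ i.val → i.val < k → g i ∈ Hm K 1) ∧ Reg g (lt' n k) := by
  induction k, hck using Nat.le_induction with
  | base => exact ⟨g0, fun _ _ => rfl, fun i h1 h2 => by omega, hr⟩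
  | succ k hck ih =>
    obtain ⟨g, h1, h2, h3⟩ := ih (by omega)
    have hp' : Pos g (lt' n k) := by
      intro i hi
      by_cases hi' : i.val < c
      · rw [h1 i hi']
        exact hp i (mem_lt'.mpr hi')
      · exact ⟨1, one_pos, h2 i (by omega) (mem_lt'.mp hi)⟩
    obtain ⟨l, hl, hln⟩ := avoid (depth k g (lt' n k) (card_lt' (by omega)) (by simp; omega) hp' h3)
    have hkn : k < n := by omega
    have hne : ∀ i : Fin n, i.val < k → i ≠ ⟨k, hkn⟩ := fun i hi h => by
      rw [h] at hi
      exact lt_irrefl _ hi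
    have he : ∀ i ∈ lt' n k, g i = Function.update g ⟨k, hkn⟩ l i := fun i hi =>
      (Function.update_of_ne (hne i (mem_lt'.mp hi)) _ _).symm
    refine ⟨Function.update g ⟨k, hkn⟩ l, fun i hi => ?_, fun i hi hi' => ?_, ?_⟩
    · rw [Function.update_of_ne (hne i (by omega)), h1 i hi]
    · by_cases hik : i.val < k
      · rw [Function.update_of_ne (hne i hik)]
        exact h2 i hi hik
      · have : i = ⟨k, hkn⟩ := Fin.ext (by simp only; omega)
        rw [this, Function.update_self]
        exact hl
    · rw [lt'_succ hkn]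
      apply (h3.congr he).insert
      · intro i hi
        rcases Finset.mem_insert.mp hi with rfl | hi
        · exact ⟨1, one_pos, by rw [Function.update_self]; exact hl⟩
        · rw [← he i hi]
          exact hp' i hi
      · rwa [← JJ_congr he, Function.update_self]

end

section BaseChange
variable {K Ω τ : Type*} [Field K] [Ring Ω] [Algebra K Ω]

noncomputable def cmap (lam : Ω →ₗ[K] K) : NP Ω τ →ₗ[K] NP K τ where
  toFun x := .ofCoeff (x.coeff.mapRange lam (map_zero _))
  map_add' x y := AddMonoidAlgebra.ext (Finsupp.ext fun m => by simp)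
  map_smul' k x := AddMonoidAlgebra.ext (Finsupp.ext fun m => by simp)

@[simp] lemma coeff_cmap (lam : Ω →ₗ[K] K) (x : NP Ω τ) (m : τ →₀ ℕ) :
    (cmap lam x).coeff m = lam (x.coeff m) := rfl

lemma cmap_single (lam : Ω →ₗ[K] K) (m : τ →₀ ℕ) (a : Ω) :
    cmap lam (AddMonoidAlgebra.single m a) = AddMonoidAlgebra.single m (lam a) := by
  refine AddMonoidAlgebra.ext (Finsupp.ext fun m' => ?_)
  classical
  simp only [coeff_cmap, AddMonoidAlgebra.coeff_single, Finsupp.single_apply]
  split_ifs <;> simp

variable (Ω) in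
noncomputable def io : NP K τ →+* NP Ω τ := AddMonoidAlgebra.mapRingHom _ (algebraMap K Ω)

lemma io_single (m : τ →₀ ℕ) (a : K) :
    io Ω (AddMonoidAlgebra.single m a) = AddMonoidAlgebra.single m (algebraMap K Ω a) := by
  simp [io]

lemma cmap_io_mul (lam : Ω →ₗ[K] K) (g : NP K τ) (r : NP Ω τ) :
    cmap lam (io Ω g * r) = g * cmap lam r := by
  induction g using np_induction with
  | h0 => simp
  | ha x y hx hy => simp [add_mul, hx, hy]
  | hs m a =>
    induction r using np_induction with
    | h0 => simp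
    | ha x y hx hy => simp [mul_add, hx, hy]
    | hs m' b =>
      rw [io_single, AddMonoidAlgebra.single_mul_single, cmap_single, cmap_single,
        AddMonoidAlgebra.single_mul_single, ← Algebra.smul_def, map_smul, smul_eq_mul]

end BaseChange

section
variable {K F σ ι : Type*} [Field K] [Field F] [Algebra K F]

lemma mem_map_iff (A : Set (MvPolynomial σ K)) (r : MvPolynomial σ F) :
    r ∈ Ideal.span (io F '' A) ↔ ∀ lam : F →ₗ[K] K, cmap lam r ∈ Ideal.span A := by
  constructor
  · intro hr lam
    have : ∀ r', cmap lam (r * r') ∈ Ideal.span A := by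
      induction hr using Submodule.span_induction with
      | mem x hx =>
        obtain ⟨g, hg, rfl⟩ := hx
        intro r'
        rw [cmap_io_mul]
        exact Ideal.mul_mem_right _ _ (Ideal.subset_span hg)
      | zero => simp
      | add x y _ _ hx hy =>
        intro r'
        rw [add_mul, map_add]
        exact Ideal.add_mem _ (hx r') (hy r')
      | smul a x _ hx =>
        intro r'
        rw [smul_eq_mul, mul_comm a, mul_assoc]
        exact hx _
    simpa using this 1
  · intro h
    classical
    let b := Basis.ofVectorSpace K F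
    let T := (AddMonoidAlgebra.coeff r).support.biUnion fun m => (b.repr ((AddMonoidAlgebra.coeff r) m)).support
    have h1 : r = ∑ i ∈ T, b i • io F (cmap (b.coord i) r) := by
      refine AddMonoidAlgebra.ext (Finsupp.ext fun m => ?_)
      simp only [AddMonoidAlgebra.coeff_sum, Finsupp.finsetSum_apply, io,
        AddMonoidAlgebra.coeff_smul, Finsupp.smul_apply, AddMonoidAlgebra.coeff_mapRingHom,
        coeff_cmap, smul_eq_mul]
      by_cases hm : m ∈ (AddMonoidAlgebra.coeff r).support
      · conv_lhs => rw [← b.linearCombination_repr ((AddMonoidAlgebra.coeff r) m), Finsupp.linearCombination_apply,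
          Finsupp.sum_of_support_subset _ (Finset.subset_biUnion_of_mem
            (fun m => (b.repr ((AddMonoidAlgebra.coeff r) m)).support) hm) _ (by simp)]
        refine Finset.sum_congr rfl fun i _ => ?_
        rw [Algebra.smul_def, mul_comm]
        rfl
      · rw [Finsupp.notMem_support_iff.mp hm]
        simp
    rw [h1]
    refine Ideal.sum_mem _ fun i _ => Submodule.smul_of_tower_mem _ _ ?_
    rw [← Ideal.map_span]
    exact Ideal.mem_map_of_mem _ (h _)

lemma Reg.base {g : ι → MvPolynomial σ K} {s : Finset ι} (h : Reg g s) :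
    Reg (fun i => (io F (g i) : MvPolynomial σ F)) s := by
  intro t ht q hq hqt r hr
  have e : JJ (fun i => (io F (g i) : MvPolynomial σ F)) t = Ideal.span (io F '' (g '' t)) := by
    rw [JJ, Set.image_image]
  rw [e, mem_map_iff] at hr ⊢
  intro lam
  have := hr lam
  rw [cmap_io_mul] at this
  exact h t ht q hq hqt _ this

end
end Vale.Agent.P200
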