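import Vale.Agent.P200.Init
import Vale.Agent.P200.Iter

/-! Assembly: the Eisenbud-Green-Harris property for quadrics. -/

namespace Vale.Agent.P200

open Module MvPolynomial

section
variable {K σ ι : Type*} [Field K]

lemma exists_lifts [Finite σ] (J : Ideal (MvPolynomial σ K)) (j c : ℕ) (h : hf J j = c) :
    ∃ x : Fin c → MvPolynomial σ K, (∀ p, x p ∈ Hm K j) ∧
      ∀ v ∈ Hm K j, ∃ a : Fin c → K, v - ∑ p, a p • x p ∈ J := by
  let H : Submodule K (MvPolynomial σ K) := Hm K j
  let J' : Submodule K H := (J.restrictScalars K).comap H.subtype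
  have e1 := J'.finrank_quotient_add_finrank
  have e2 : finrank K J' = finrank K (pc J j) := by
    have : J' = (pc J j).comap H.subtype := by
      ext h
      simp [J', pc, H]
    rw [this]
    exact (Submodule.comapSubtypeEquivOfLe (inf_le_right : pc J j ≤ H)).finrank_eq
  have e3 : hf J j = (finrank K H : ℤ) - finrank K (pc J j) := rfl
  let b := Module.finBasisOfFinrankEq K (H ⧸ J') (n := c) (by omega)
  choose x hx using fun p => J'.mkQ_surjective (b p)
  refine ⟨fun p => x p, fun p => (x p).2, fun v hv => ⟨b.repr (J'.mkQ ⟨v, hv⟩), ?_⟩⟩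
  have h1 : J'.mkQ (⟨v, hv⟩ - ∑ p, b.repr (J'.mkQ ⟨v, hv⟩) p • x p) = 0 := by
    rw [map_sub, map_sum]
    simp only [map_smul, hx, b.sum_repr, sub_self]
  have h2 := (Submodule.Quotient.mk_eq_zero J').mp h1
  simpa [J'] using h2

lemma exists_beta {P : Type*} [Fintype P] {J : Ideal (MvPolynomial σ K)}
    {x : P → MvPolynomial σ K} (hx : ∀ v ∈ Hm K 1, ∃ a : P → K, v - ∑ p, a p • x p ∈ J)
    {h : MvPolynomial σ K} (hh : h ∈ Hm K 2) :
    ∃ β : P → P → K, h - ∑ p, ∑ r, β p r • (x p * x r) ∈ J := by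
  rw [Hm_eq, ← homogeneousSubmodule_one_pow, pow_two, ← Hm_eq] at hh
  refine Submodule.mul_induction_on hh ?_ ?_
  · intro v hv w hw
    obtain ⟨a, ha⟩ := hx v hv
    obtain ⟨b, hb⟩ := hx w hw
    refine ⟨fun p r => a p * b r, ?_⟩
    have : ∑ p, ∑ r, (a p * b r) • (x p * x r) = (∑ p, a p • x p) * ∑ p, b p • x p := by
      rw [Finset.sum_mul_sum]
      simp only [smul_mul_smul_comm]
    rw [this]
    have h2 : ∀ A B : MvPolynomial σ K, v * w - A * B = (v - A) * w + A * (w - B) := by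
      intro A B
      ring
    rw [h2]
    exact J.add_mem (J.mul_mem_right _ ha) (J.mul_mem_left _ hb)
  · rintro u v ⟨β, hβ⟩ ⟨γ, hγ⟩
    refine ⟨β + γ, ?_⟩
    simp only [Pi.add_apply, add_smul, Finset.sum_add_distrib, add_sub_add_comm]
    exact J.add_mem hβ hγ

lemma lin_mem {g : ι → MvPolynomial σ K} {t : Finset ι} (hg : ∀ i ∈ t, g i ∈ Hm K 1) {d : ℕ}
    {v : MvPolynomial σ K} (hv : v ∈ JJ g t) (hd : v ∈ Hm K (d + 1)) :
    v ∈ Submodule.span K {z | ∃ w ∈ Hm K d, ∃ r ∈ t, z = w * g r} := by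
  have : ∀ s, pr K (d + 1) (v * s) ∈ Submodule.span K {z | ∃ w ∈ Hm K d, ∃ r ∈ t, z = w * g r} := by
    clear hd
    induction hv using Submodule.span_induction with
    | mem x hx =>
      obtain ⟨r, hr, rfl⟩ := hx
      intro s
      rw [pr_mul_left (hg r hr)]
      exact Submodule.subset_span ⟨_, pr_mem _ _, r, hr, mul_comm _ _⟩
    | zero => simp
    | add x y _ _ hx hy =>
      intro s
      rw [add_mul, map_add]
      exact Submodule.add_mem _ (hx s) (hy s)
    | smul a x _ hx =>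
      intro s
      rw [smul_eq_mul, mul_comm a, mul_assoc]
      exact hx _
  simpa [pr_self hd] using this 1

end

lemma coeff_one_add_X_pow' (c j : ℕ) :
    PowerSeries.coeff j ((1 + PowerSeries.X : PowerSeries ℤ) ^ c) = c.choose j := by
  have : ((1 + PowerSeries.X : PowerSeries ℤ) ^ c) =
      (((1 + Polynomial.X : Polynomial ℤ) ^ c : Polynomial ℤ) : PowerSeries ℤ) := by simp
  rw [this, Polynomial.coeff_coe, Polynomial.coeff_one_add_X_pow]

def ge' (n c : ℕ) : Finset (Fin n) := Finset.univ.filter fun i => c ≤ i.val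

lemma mem_ge' {n k : ℕ} {i : Fin n} : i ∈ ge' n k ↔ k ≤ i.val := by simp [ge']

lemma card_ge' {n c : ℕ} (h : c ≤ n) : (ge' n c).card = n - c := by
  have h1 := Finset.card_filter_add_card_filter_not (s := (Finset.univ : Finset (Fin n)))
    (fun i => i.val < c)
  have h2 := card_lt' h
  simp only [lt', ge', not_lt, Finset.card_univ, Fintype.card_fin] at h1 h2 ⊢
  omega

theorem exists_QD {F : Type*} [Field F] {n c : ℕ} (hc : 1 ≤ c) (hcn : c ≤ n)
    {g : Fin n → MvPolynomial (Fin n) F} (h2 : ∀ i, i.val < c → g i ∈ Hm F 2)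
    (h1 : ∀ i, c ≤ i.val → g i ∈ Hm F 1) (hr : Reg g Finset.univ) :
    ∃ (β : Fin c → Fin c → Fin c → F) (x : Fin c → MvPolynomial (Fin n) F),
      QD β x (fun q => g (Fin.castLE hcn q)) (JJ g Finset.univ)
        (fun q => JJ g (Finset.univ.erase (Fin.castLE hcn q))) ∧
      (∀ v ∈ Hm F 1, ∃ a : Fin c → F, v - ∑ p, a p • x p ∈ JJ g (ge' n c)) ∧
      ∀ q, g (Fin.castLE hcn q) - ∑ p, ∑ r, β q p r • (x p * x r) ∈ JJ g (ge' n c) := by
  obtain ⟨m, rfl⟩ : ∃ m, n = m + 1 := ⟨n - 1, by omega⟩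
  let δ : Fin (m + 1) → ℕ := fun i => if i.val < c then 2 else 1
  have hδ : ∀ i, 0 < δ i ∧ g i ∈ Hm F (δ i) := by
    intro i
    simp only [δ]
    split_ifs with h
    · exact ⟨two_pos, h2 i h⟩
    · exact ⟨one_pos, h1 i (by omega)⟩
  have hone := PowerSeries.mk_one_mul_one_sub_eq_one ℤ
  have hH : HS (JJ g Finset.univ) = (1 + PowerSeries.X) ^ c := by
    rw [HS_JJ δ hr (fun i _ => hδ i), HS_bot (k := m) (by simp)]
    have : ∀ i, (1 - PowerSeries.X ^ δ i) * PowerSeries.mk 1 =
        if i.val < c then (1 + PowerSeries.X : PowerSeries ℤ) else 1 := by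
      intro i
      simp only [δ]
      split_ifs
      · linear_combination (1 + PowerSeries.X) * hone
      · linear_combination hone
    have e : (PowerSeries.mk 1 : PowerSeries ℤ) ^ (m + 1) = ∏ _i : Fin (m + 1), PowerSeries.mk 1 := by
      simp
    rw [e, ← Finset.prod_mul_distrib]
    simp only [this]
    rw [Finset.prod_ite, Finset.prod_const, Finset.prod_const_one, mul_one]
    congr 1
    exact card_lt' hcn
  have hH0 : hf (JJ g (ge' (m + 1) c)) 1 = c := by
    have e1 := HS_JJ (fun _ => 1) (hr.mono (Finset.subset_univ (ge' (m + 1) c)))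
      (fun i hi => ⟨one_pos, h1 i (mem_ge'.mp hi)⟩)
    obtain ⟨k, rfl⟩ : ∃ k, c = k + 1 := ⟨c - 1, by omega⟩
    rw [HS_bot (k := m) (by simp), Finset.prod_const, card_ge' hcn, pow_one] at e1
    have e2 : (PowerSeries.mk 1 : PowerSeries ℤ) ^ (m + 1) =
        PowerSeries.mk 1 ^ (m + 1 - (k + 1)) * PowerSeries.mk 1 ^ (k + 1) := by
      rw [← pow_add]
      congr 1
      omega
    rw [e2, ← mul_assoc, ← mul_pow, mul_comm (1 - PowerSeries.X), hone, one_pow, one_mul,
      PowerSeries.mk_one_pow_eq_mk_choose_add] at e1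
    have e3 := congrArg (PowerSeries.coeff 1) e1
    simpa [HS] using e3
  obtain ⟨x, hx1, hx2⟩ := exists_lifts _ 1 c hH0
  choose β hβ using fun q : Fin c => exists_beta hx2 (h2 (Fin.castLE hcn q) q.2)
  refine ⟨β, x, ⟨hx1, homog_JJ fun i _ => ⟨_, hδ i⟩, fun q => ?_, fun q => ?_, fun j => ?_,
    fun q q' => ?_, fun q q' hq => ?_⟩, hx2, hβ⟩
  · rw [← JJ_insert, Finset.insert_erase (Finset.mem_univ _)]
  · exact hr _ (Finset.subset_univ _) _ (Finset.mem_univ _) (Finset.notMem_erase _ _)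
  · have := congrArg (PowerSeries.coeff j) hH
    rw [coeff_one_add_X_pow'] at this
    simpa [HS] using this
  · refine JJ_mono g (fun i hi => ?_) (hβ q')
    refine Finset.mem_erase.mpr ⟨?_, Finset.mem_univ _⟩
    rintro rfl
    have := mem_ge'.mp hi
    have := q.2
    simp only [Fin.val_castLE] at *
    omega
  · exact mem_JJ g (Finset.mem_erase.mpr ⟨fun h => hq (Fin.castLE_injective _ h), Finset.mem_univ _⟩)

universe u

theorem coords {F : Type u} [Field F] {n c : ℕ} (hc : 1 ≤ c) (hcn : c ≤ n)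
    {g : Fin n → MvPolynomial (Fin n) F} (h2 : ∀ i, i.val < c → g i ∈ Hm F 2)
    (h1 : ∀ i, c ≤ i.val → g i ∈ Hm F 1) (hr : Reg g Finset.univ) :
    ∃ (D : Type u) (_ : DivisionRing D) (_ : Algebra F D) (y : Fin n → NP D (Fin n)),
      (∀ i, y i ∈ Hm D 1) ∧ (∀ i j, y i * y j = y j * y i) ∧
      (∀ j, AddMonoidAlgebra.single (Finsupp.single j 1) 1 ∈ Submodule.span D (Set.range y)) ∧
      ∀ i : Fin n, i.val < c → ∃ cc : Fin c → D, ∑ q, cc q • io D (g (Fin.castLE hcn q)) - y i ^ 2 ∈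
        Submodule.span D {z | ∃ v ∈ Hm D 1, ∃ r : Fin n, c ≤ r.val ∧ z = v * y r} := by
  obtain ⟨β, x, hq, hx, hβ⟩ := exists_QD hc hcn h2 h1 hr
  have : Nonempty (Fin c) := ⟨⟨0, hc⟩⟩
  obtain ⟨D, i1, i2, E, cc, e1, e2, e3, e4⟩ := frame hq
  let Y : Fin c → NP D (Fin n) := fun a => ∑ p, E a p • io D (x p)
  let y : Fin n → NP D (Fin n) := fun i => if h : i.val < c then Y ⟨i, h⟩ else io D (g i)
  have hy1 : ∀ a : Fin c, y (Fin.castLE hcn a) = Y a := fun a => dif_pos a.2
  have hy2 : ∀ i : Fin n, c ≤ i.val → y i = io D (g i) := fun i hi => dif_neg (by omega)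
  have hYY : ∀ a b, Y a * Y b = ∑ p, ∑ r, (E a p * E b r) • io D (x p * x r) := by
    intro a b
    simp only [Y, Finset.sum_mul_sum, smul_mul_assoc, io_smul, smul_smul, map_mul]
  have hio : ∀ (d : ℕ) (M : Submodule D (NP D (Fin n))),
      (∀ v ∈ Hm D d, ∀ r : Fin n, c ≤ r.val → v * y r ∈ M) →
      ∀ v ∈ JJ g (ge' n c), v ∈ Hm F (d + 1) → io D v ∈ M := by
    intro d M hM v hv hd
    have h3 := lin_mem (fun i hi => h1 i (mem_ge'.mp hi)) hv hd
    clear hv hd
    induction h3 using Submodule.span_induction with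
    | mem z hz =>
      obtain ⟨w, hw, r, hr, rfl⟩ := hz
      rw [map_mul, ← hy2 r (mem_ge'.mp hr)]
      exact hM _ (io_mem hw) r (mem_ge'.mp hr)
    | zero => simp
    | add a b _ _ ha hb =>
      rw [map_add]
      exact M.add_mem ha hb
    | smul k a _ ha =>
      rw [io_ksmul]
      exact M.smul_of_tower_mem k ha
  refine ⟨D, i1, i2, y, fun i => ?_, fun i j => ?_, fun j => ?_, fun i hi => ⟨cc ⟨i, hi⟩, ?_⟩⟩
  · simp only [y]
    split_ifs with h
    · exact Submodule.sum_mem _ fun p _ => Submodule.smul_mem _ _ (io_mem (hq.hx p))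
    · exact io_mem (h1 i (by omega))
  · simp only [y]
    split_ifs with hi hj hj
    · by_cases hij : i = j
      · subst hij
        rfl
      · rw [hYY, hYY, Finset.sum_comm]
        refine Finset.sum_congr rfl fun p _ => Finset.sum_congr rfl fun r _ => ?_
        rw [e1 _ _ (fun h => hij (Fin.ext (Fin.mk.inj_iff.mp h))), mul_comm (x r)]
    · exact (io_comm _ _).symm
    · exact io_comm _ _
    · exact io_comm _ _
  · obtain ⟨a, ha⟩ := hx (X j) (X_mem_Hm j)
    have h3 : ∀ p, io D (x p) ∈ Submodule.span D (Set.range y) := by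
      intro p
      obtain ⟨d, hd⟩ := e4 p
      have : io D (x p) = ∑ a, d a • Y a := by
        simp only [Y, Finset.smul_sum, smul_smul]
        rw [Finset.sum_comm]
        simp only [← Finset.sum_smul, hd]
        simp
      rw [this]
      exact Submodule.sum_mem _ fun a _ => Submodule.smul_mem _ _
        (Submodule.subset_span ⟨_, hy1 a⟩)
    have h4 := hio 0 (Submodule.span D (Set.range y)) (by
      intro v hv r _
      have : Hm D 0 ≤ (Submodule.span D (Set.range y)).comap (rm D (y r)) := by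
        rw [Hm_eq_span]
        refine Submodule.span_le.mpr ?_
        rintro _ ⟨m, hm, rfl⟩
        have : m = 0 := (Finsupp.degree_eq_zero_iff m).mp hm
        subst this
        exact Submodule.subset_span ⟨r, (one_mul _).symm⟩
      exact this hv) _ ha (Submodule.sub_mem _ (X_mem_Hm j)
        (Submodule.sum_mem _ fun p _ => Submodule.smul_mem _ _ (hq.hx p)))
    have h5 : io D (∑ p, a p • x p) ∈ Submodule.span D (Set.range y) := by
      rw [map_sum]
      refine Submodule.sum_mem _ fun p _ => ?_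
      rw [io_ksmul]
      exact Submodule.smul_of_tower_mem _ _ (h3 p)
    have h6 := Submodule.add_mem _ h4 h5
    rw [← map_add, sub_add_cancel] at h6
    have h7 : io D (X j : MvPolynomial (Fin n) F) =
        AddMonoidAlgebra.single (Finsupp.single j 1) 1 := by
      rw [← map_one (algebraMap F D), ← io_single]
      rfl
    rwa [h7] at h6
  · have hyi : y i = Y ⟨i, hi⟩ := dif_pos hi
    set a : Fin c := ⟨i, hi⟩
    have h3 : ∑ p, ∑ r, (E a p * E a r - ∑ q, β q p r • cc a q) • io D (x p * x r) = 0 := by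
      apply sum_sum_antisymm
      · intro p
        rw [e2, sub_self, zero_smul]
      · intro p r
        rw [mul_comm (x r), ← add_smul, sub_add_sub_comm, e3, sub_self, zero_smul]
    have h4 : ∑ p, ∑ r, (∑ q, β q p r • cc a q) • io D (x p * x r) =
        ∑ q, cc a q • io D (∑ p, ∑ r, β q p r • (x p * x r)) := by
      simp only [Finset.sum_smul, map_sum, Finset.smul_sum, io_ksmul, smul_assoc,
        smul_comm (cc a _)]
      rw [Finset.sum_comm]
      conv_lhs => enter [2, p]; rw [Finset.sum_comm]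
      rw [Finset.sum_comm]
      refine Finset.sum_congr rfl fun q' _ => ?_
      rw [Finset.sum_comm]
    simp only [sub_smul, Finset.sum_sub_distrib, sub_eq_zero] at h3
    rw [hyi, pow_two, hYY, h3, h4, ← Finset.sum_sub_distrib]
    refine Submodule.sum_mem _ fun q _ => ?_
    rw [← smul_sub, ← map_sub]
    refine Submodule.smul_mem _ _ (hio 1 _ (fun v hv r hr => Submodule.subset_span ?_) _ (hβ q)
      (Submodule.sub_mem _ (h2 _ q.2) ?_))
    · exact ⟨v, hv, r, hr, rfl⟩
    exact Submodule.sum_mem _ fun p _ => Submodule.sum_mem _ fun r _ =>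
      Submodule.smul_mem _ _ (mul_mem_Hm (hq.hx p) (hq.hx r))

open Classical in
lemma finrank_monomial {K : Type*} [Field K] {n : ℕ} {L : Set (Fin n →₀ ℕ)}
    (hL : ∀ α ∈ L, ∀ β, α ≤ β → β ∈ L) (d : ℕ) :
    finrank K (pc (Ideal.span ((fun s => monomial s (1 : K)) '' L)) d) =
      ((AD (Fin n) d).filter (· ∈ L)).card := by
  have : pc (Ideal.span ((fun s => monomial s (1 : K)) '' L)) d =
      AddMonoidAlgebra.supported K K (((AD (Fin n) d).filter (· ∈ L) : Finset _) : Set _) := by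
    ext p
    rw [pc, Submodule.mem_inf, Submodule.restrictScalars_mem, mem_ideal_span_monomial_image, mem_Hm,
      AddMonoidAlgebra.mem_supported']
    simp only [Finset.coe_filter, Set.mem_ofPred_eq, mem_AD]
    constructor
    · rintro ⟨h1, h2⟩ m hm
      by_contra h0
      obtain ⟨s, hs, hsm⟩ := h1 m (mem_support_iff.mpr h0)
      exact hm ⟨by by_contra h; exact h0 (h2 m h), hL s hs m hsm⟩
    · intro h
      refine ⟨fun m hm => ⟨m, ?_, le_rfl⟩, fun m hm => h m fun hh => hm hh.1⟩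
      by_contra h0
      exact mem_support_iff.mp hm (h m fun hh => h0 hh.2)
  rw [this, (AddMonoidAlgebra.supportedEquivFinsupp _).finrank_eq]
  simp

theorem egh_quadrics {K : Type u} [Field K] {n c : ℕ} (hc : 1 ≤ c) (hcn : c ≤ n)
    (f : Fin c → MvPolynomial (Fin n) K) (hf2 : ∀ i, f i ∈ Hm K 2)
    (hreg : ∀ i, Nzd (Ideal.span (f '' {j | j < i})) (f i))
    (I : Ideal (MvPolynomial (Fin n) K)) (hfI : ∀ i, f i ∈ I) :
    ∃ L : Set (Fin n →₀ ℕ), (∀ i : Fin c, Finsupp.single (Fin.castLE hcn i) 2 ∈ L) ∧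
      ∀ d, finrank K (pc (Ideal.span ((fun s => monomial s (1 : K)) '' L)) d) =
        finrank K (pc I d) := by
  let g0 : Fin n → MvPolynomial (Fin n) K := fun i => if h : i.val < c then f ⟨i, h⟩ else 0
  have hg0 : ∀ q : Fin c, g0 (Fin.castLE hcn q) = f q := fun q => dif_pos q.2
  have hg1 : ∀ i : Fin n, i.val < c → g0 i ∈ Hm K 2 := fun i hi => by
    simp only [g0, dif_pos hi, hf2]
  have hr0 : ∀ k, k ≤ c → Reg g0 (lt' n k) := by
    intro k
    induction k with
    | zero => intro _ t _ q hq; simp [mem_lt'] at hq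
    | succ k ih =>
      intro hk
      rw [lt'_succ (by omega : k < n)]
      apply (ih (by omega)).insert
      · intro i hi
        rw [← lt'_succ, mem_lt'] at hi
        exact ⟨2, two_pos, hg1 i (by omega)⟩
      · have e : g0 '' (lt' n k : Set (Fin n)) = f '' {j | j < ⟨k, hk⟩} := by
          ext p
          constructor
          · rintro ⟨i, hi, rfl⟩
            have hi' : i.val < k := mem_lt'.mp hi
            exact ⟨⟨i, by omega⟩, hi', (hg0 ⟨i, by omega⟩).symm⟩
          · rintro ⟨j, hj, rfl⟩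
            exact ⟨Fin.castLE hcn j, mem_lt'.mpr hj, hg0 j⟩
        rw [JJ, e]
        have := hg0 ⟨k, hk⟩
        exact this ▸ hreg ⟨k, hk⟩
  let F := AlgebraicClosure K
  obtain ⟨g, hg2, hg3, hg4⟩ := extend (g0 := fun i => (io F (g0 i) : MvPolynomial (Fin n) F))
    (fun i hi => ⟨2, two_pos, io_mem (hg1 i (mem_lt'.mp hi))⟩) (hr0 c le_rfl).base n hcn le_rfl
  have hu : lt' n n = Finset.univ := by
    ext i
    simp [mem_lt']
  rw [hu] at hg4
  obtain ⟨D, i1, i2, y, hy1, hy2, hy3, hy4⟩ := coords hc hcn (g := g)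
    (fun i hi => by rw [hg2 i hi]; exact io_mem (hg1 i hi)) (fun i hi => hg3 i hi i.2) hg4
  let : Algebra K D := ((algebraMap F D).comp (algebraMap K F)).toAlgebra'
    fun k x => Algebra.commutes _ x
  have hio : ∀ p : MvPolynomial (Fin n) K, io D (io F p) = io D p := fun p =>
    AddMonoidAlgebra.ext (Finsupp.ext fun m => by
      simp only [io, AddMonoidAlgebra.coeff_mapRingHom]
      rfl)
  obtain ⟨L, hL1, hL2, hL3⟩ := init y hy1 hy2 hy3 I c
  refine ⟨L, fun i => hL3 _ 1 i.2 ?_, fun d => by rw [finrank_monomial hL1, hL2]⟩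
  obtain ⟨cc, hcc⟩ := hy4 (Fin.castLE hcn i) i.2
  refine ⟨_, Submodule.sum_mem _ fun q _ => Submodule.smul_mem _ _ ?_, hcc⟩
  rw [hg2 _ q.2, hg0, hio]
  exact Submodule.subset_span ⟨f q, ⟨hfI q, hf2 q⟩, rfl⟩

end Vale.Agent.P200
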