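import Mathlib

/-! Polynomial rings with noncommutative coefficients: homogeneous components. -/

namespace Vale.Agent.P200

open AddMonoidAlgebra

abbrev NP (Ω τ : Type*) [Ring Ω] := AddMonoidAlgebra Ω (τ →₀ ℕ)

section NC
variable {D Ω τ : Type*} [Ring D] [Ring Ω] [Module D Ω]

variable (D) in
noncomputable def Hm (e : ℕ) : Submodule D (NP Ω τ) :=
  AddMonoidAlgebra.supported D Ω {m : τ →₀ ℕ | m.degree = e}

variable (D) in
noncomputable def pr (e : ℕ) : NP Ω τ →ₗ[D] NP Ω τ where
  toFun x := .ofCoeff (x.coeff.filter (fun m => m.degree = e))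
  map_add' x y := by
    ext m
    simp only [coeff_add, Finsupp.add_apply, Finsupp.filter_apply]
    split_ifs <;> simp
  map_smul' d x := by
    ext m
    simp only [coeff_smul, Finsupp.smul_apply, Finsupp.filter_apply, RingHom.id_apply]
    split_ifs <;> simp

lemma coeff_pr (e : ℕ) (x : NP Ω τ) (m : τ →₀ ℕ) :
    (pr D e x).coeff m = if m.degree = e then x.coeff m else 0 := by
  simp [pr, Finsupp.filter_apply]

lemma mem_Hm {e : ℕ} {x : NP Ω τ} : x ∈ Hm D e ↔ ∀ m : τ →₀ ℕ, m.degree ≠ e → x.coeff m = 0 := by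
  simp [Hm, mem_supported']

lemma pr_mem (e : ℕ) (x : NP Ω τ) : pr D e x ∈ Hm D e := by
  rw [mem_Hm]
  intro m hm
  simp [coeff_pr, hm]

lemma pr_of_mem {e e' : ℕ} {x : NP Ω τ} (h : x ∈ Hm D e') :
    pr D e x = if e = e' then x else 0 := by
  rw [mem_Hm] at h
  ext m
  rw [coeff_pr]
  by_cases h1 : m.degree = e
  · by_cases h2 : e = e'
    · simp [h1, h2]
    · simp [h1, h2, h m (by omega)]
  · by_cases h2 : e = e'
    · simp [h2, h m (by omega)]
    · simp [h1, h2]

lemma pr_self {e : ℕ} {x : NP Ω τ} (h : x ∈ Hm D e) : pr D e x = x := by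
  simp [pr_of_mem h]

lemma mem_Hm_iff {e : ℕ} {x : NP Ω τ} : x ∈ Hm D e ↔ pr D e x = x :=
  ⟨pr_self, fun h => h ▸ pr_mem e x⟩

lemma single_mem (m : τ →₀ ℕ) (r : Ω) : (single m r : NP Ω τ) ∈ Hm D m.degree := by
  rw [mem_Hm]
  intro m' hm
  have : m ≠ m' := by rintro rfl; exact hm rfl
  simp [this]

lemma eq_zero_of_pr {a : NP Ω τ} (h : ∀ e, pr D e a = 0) : a = 0 := by
  ext m
  have := congrArg (fun x => x.coeff m) (h m.degree)
  simpa [coeff_pr] using this

lemma np_induction {C : NP Ω τ → Prop} (x : NP Ω τ) (h0 : C 0)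
    (hs : ∀ m r, C (single m r)) (ha : ∀ x y, C x → C y → C (x + y)) : C x := by
  obtain ⟨x⟩ := x
  induction x using Finsupp.induction_linear with
  | zero => exact h0
  | add f g hf hg => exact ha _ _ hf hg
  | single m r => exact hs m r

lemma pr_mul (a b : NP Ω τ) (n : ℕ) :
    pr D n (a * b) =
      ∑ p ∈ Finset.HasAntidiagonal.antidiagonal n, pr D p.1 a * pr D p.2 b := by
  induction a using np_induction with
  | h0 => simp
  | ha x y hx hy => simp [add_mul, hx, hy, Finset.sum_add_distrib]
  | hs m r =>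
    induction b using np_induction with
    | h0 => simp
    | ha x y hx hy => simp [mul_add, hx, hy, Finset.sum_add_distrib]
    | hs m' r' =>
      rw [single_mul_single, pr_of_mem (single_mem _ _)]
      simp only [pr_of_mem (single_mem (D := D) m r), pr_of_mem (single_mem (D := D) m' r')]
      by_cases h : n = (m + m').degree
      · rw [Finset.sum_eq_single (m.degree, m'.degree)]
        · simp [h, single_mul_single]
        · rintro ⟨i, j⟩ _ hne
          by_cases h1 : i = m.degree
          · by_cases h2 : j = m'.degree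
            · exact absurd (by rw [h1, h2]) hne
            · simp [h2]
          · simp [h1]
        · intro hh
          exact absurd (by simp [h]) hh
      · rw [if_neg h]
        symm
        apply Finset.sum_eq_zero
        rintro ⟨i, j⟩ hij
        rw [Finset.HasAntidiagonal.mem_antidiagonal] at hij
        by_cases h1 : i = m.degree
        · by_cases h2 : j = m'.degree
          · exact absurd (by rw [← hij, h1, h2, map_add]) h
          · simp [h2]
        · simp [h1]

lemma pr_mul_left {a : NP Ω τ} {δ : ℕ} (ha : a ∈ Hm D δ) (b : NP Ω τ) (e : ℕ) :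
    pr D (e + δ) (a * b) = a * pr D e b := by
  rw [pr_mul, Finset.sum_eq_single (δ, e)]
  · rw [pr_self ha]
  · rintro ⟨i, j⟩ hij hne
    rw [Finset.HasAntidiagonal.mem_antidiagonal] at hij
    have : i ≠ δ := by
      rintro rfl
      apply hne
      have : j = e := by simp only at hij; omega
      rw [this]
    simp [pr_of_mem ha, this]
  · intro h
    exact absurd (by simp [add_comm]) h

lemma pr_mul_left_lt {a : NP Ω τ} {δ : ℕ} (ha : a ∈ Hm D δ) (b : NP Ω τ) {e : ℕ} (he : e < δ) :
    pr D e (a * b) = 0 := by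
  rw [pr_mul]
  apply Finset.sum_eq_zero
  rintro ⟨i, j⟩ hij
  rw [Finset.HasAntidiagonal.mem_antidiagonal] at hij
  have : i ≠ δ := by simp only at hij; omega
  simp [pr_of_mem ha, this]

lemma pr_mul_right {b : NP Ω τ} {δ : ℕ} (hb : b ∈ Hm D δ) (a : NP Ω τ) (e : ℕ) :
    pr D (e + δ) (a * b) = pr D e a * b := by
  rw [pr_mul, Finset.sum_eq_single (e, δ)]
  · rw [pr_self hb]
  · rintro ⟨i, j⟩ hij hne
    rw [Finset.HasAntidiagonal.mem_antidiagonal] at hij
    have : j ≠ δ := by
      rintro rfl
      apply hne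
      have : i = e := by simp only at hij; omega
      rw [this]
    simp [pr_of_mem hb, this]
  · intro h
    exact absurd (by simp) h

lemma mul_mem_Hm {a b : NP Ω τ} {i j : ℕ} (ha : a ∈ Hm D i) (hb : b ∈ Hm D j) :
    a * b ∈ Hm D (i + j) := by
  rw [mem_Hm_iff, pr_mul_right hb, pr_self ha]

lemma one_mem_Hm : (1 : NP Ω τ) ∈ Hm D 0 := by
  have := single_mem (D := D) (0 : τ →₀ ℕ) (1 : Ω)
  rwa [map_zero] at this

/-- reduction of zero divisors to homogeneous ones -/
lemma exists_hom_zero_div {a b : NP Ω τ} (ha : a ≠ 0) (hb : b ≠ 0) (hab : a * b = 0) :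
    ∃ i j, pr D i a ≠ 0 ∧ pr D j b ≠ 0 ∧ pr D i a * pr D j b = 0 := by
  classical
  have h1 : ∃ i, pr D i a ≠ 0 := by
    by_contra! h
    exact ha (eq_zero_of_pr h)
  have h2 : ∃ i, pr D i b ≠ 0 := by
    by_contra! h
    exact hb (eq_zero_of_pr h)
  refine ⟨Nat.find h1, Nat.find h2, Nat.find_spec h1, Nat.find_spec h2, ?_⟩
  have := pr_mul (D := D) a b (Nat.find h1 + Nat.find h2)
  rw [hab, map_zero, Finset.sum_eq_single (Nat.find h1, Nat.find h2)] at this
  · exact this.symm
  · rintro ⟨i, j⟩ hij hne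
    rw [Finset.HasAntidiagonal.mem_antidiagonal] at hij
    simp only at hij ⊢
    by_cases hi : i < Nat.find h1
    · have := Nat.find_min h1 hi
      rw [not_not.mp this, zero_mul]
    · have hj : j < Nat.find h2 := by
        by_contra hj
        apply hne
        have h3 : i = Nat.find h1 := by omega
        have h4 : j = Nat.find h2 := by omega
        rw [h3, h4]
      have := Nat.find_min h2 hj
      rw [not_not.mp this, mul_zero]
  · intro h
    exact absurd (by simp) h

lemma sum_sum_antisymm {P M : Type*} [Fintype P] [AddCommGroup M] (G : P → P → M)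
    (h1 : ∀ p, G p p = 0) (h2 : ∀ p q, G p q + G q p = 0) : ∑ p, ∑ q, G p q = 0 := by
  classical
  rw [← Finset.sum_product']
  apply Finset.sum_involution (fun x _ => x.swap)
  · rintro ⟨p, q⟩ _
    exact h2 p q
  · rintro ⟨p, q⟩ _ hne h
    simp only [Prod.swap_prod_mk, Prod.mk.injEq] at h
    apply hne
    rw [h.1]
    exact h1 p
  · simp
  · simp

end NC
end Vale.Agent.P200
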